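import Crest.Agent.PR.Core

/-! Assembly: from the rounding property to the threshold bound. -/

set_option linter.unusedSectionVars false

namespace Crest.Agent.PR

open Matrix Function
open scoped ComplexOrder MatrixOrder

variable {α β : Type} [Fintype α] [Fintype β] [DecidableEq α] [DecidableEq β]
variable {ι X Y A B : Type} [Fintype ι] [DecidableEq ι]
  [Fintype X] [DecidableEq X] [Fintype Y] [DecidableEq Y]
  [Fintype A] [DecidableEq A] [Fintype B] [DecidableEq B]

/-- coarse-grained measurement -/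
noncomputable def fib {T L : Type} [Fintype T] [DecidableEq L] (ρ : T → L) (M : T → Matrix α α ℂ)
    (l : L) : Matrix α α ℂ := ∑ a, if ρ a = l then M a else 0

section fib
variable {T T' L L' : Type} [Fintype T] [Fintype T'] [Fintype L] [Fintype L'] [DecidableEq L]
  [DecidableEq L']

lemma fib_psd (ρ : T → L) {M : T → Matrix α α ℂ} (h : ∀ a, (M a).PosSemidef) (l : L) :
    (fib ρ M l).PosSemidef :=
  posSemidef_sum _ fun a _ => by split_ifs; exacts [h a, PosSemidef.zero]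

lemma fib_sum (ρ : T → L) (M : T → Matrix α α ℂ) : ∑ l, fib ρ M l = ∑ a, M a := by
  unfold fib; rw [Finset.sum_comm]; simp

lemma fib_sum2 (ρ : T → L) (ρ' : T → L') (M : T → Matrix α α ℂ) (l : L) :
    ∑ l', fib (fun a => (ρ a, ρ' a)) M (l, l') = fib ρ M l := by
  unfold fib; rw [Finset.sum_comm]
  refine Finset.sum_congr rfl fun a _ => ?_
  by_cases h : ρ a = l <;> simp [h]

lemma ev_fib (Ψ : Matrix α β ℂ) (ρ : T → L) (ρ' : T' → L') (M : T → Matrix α α ℂ)
    (N : T' → Matrix β β ℂ) (h : L → L' → ℝ) :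
    ∑ l, ∑ l', h l l' * ev Ψ (fib ρ M l) (fib ρ' N l') =
      ∑ a, ∑ b, h (ρ a) (ρ' b) * ev Ψ (M a) (N b) := by
  have e : ∀ l l', h l l' * ev Ψ (fib ρ M l) (fib ρ' N l') =
      ∑ a, ∑ b, if ρ a = l then (if ρ' b = l' then h l l' * ev Ψ (M a) (N b) else 0) else 0 := by
    intro l l'
    unfold fib
    rw [ev_sum_left, Finset.mul_sum]
    refine Finset.sum_congr rfl fun a _ => ?_
    rw [ev_sum_right, Finset.mul_sum]
    refine Finset.sum_congr rfl fun b _ => ?_
    split_ifs <;> simp [ev_zero_left, ev_zero_right]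
  simp only [e]
  rw [Finset.sum_congr rfl fun l _ => Finset.sum_comm, Finset.sum_comm]
  refine Finset.sum_congr rfl fun a _ => ?_
  rw [Finset.sum_congr rfl fun l _ => Finset.sum_comm, Finset.sum_comm]
  refine Finset.sum_congr rfl fun b _ => ?_
  rw [Finset.sum_eq_single (ρ a) (fun l _ hl => by simp [Ne.symm hl]) (by simp)]
  simp

end fib

/-- expectation over questions and answers -/
noncomputable def EE (μ : X × Y → ℝ) (Ψ : Matrix α β ℂ) (M : (ι → X) → (ι → A) → Matrix α α ℂ)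
    (N : (ι → Y) → (ι → B) → Matrix β β ℂ) (g : (ι → X × Y) → (ι → A) → (ι → B) → ℝ) : ℝ :=
  Ex μ (fun z => ∑ a, ∑ b, g z a b * ev Ψ (M (fun j => (z j).1) a) (N (fun j => (z j).2) b))

/-- winning indicator -/
noncomputable def Wn (V : X → Y → A → B → Bool) (i : ι) (z : ι → X × Y) (a : ι → A) (b : ι → B) : ℝ :=
  if V (z i).1 (z i).2 (a i) (b i) then 1 else 0

section
variable {μ : X × Y → ℝ} {Ψ : Matrix α β ℂ} {M : (ι → X) → (ι → A) → Matrix α α ℂ}
  {N : (ι → Y) → (ι → B) → Matrix β β ℂ}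

lemma EE_mono (h0 : ∀ ζ, 0 ≤ μ ζ) (hM : ∀ x a, (M x a).PosSemidef) (hN : ∀ y b, (N y b).PosSemidef)
    {g g' : (ι → X × Y) → (ι → A) → (ι → B) → ℝ} (h : ∀ z a b, g z a b ≤ g' z a b) :
    EE μ Ψ M N g ≤ EE μ Ψ M N g' :=
  Ex_mono h0 fun z => Finset.sum_le_sum fun a _ => Finset.sum_le_sum fun b _ =>
    mul_le_mul_of_nonneg_right (h z a b) (ev_nonneg _ (hM _ _) (hN _ _))

lemma EE_mul (c : ℝ) (g : (ι → X × Y) → (ι → A) → (ι → B) → ℝ) :
    EE μ Ψ M N (fun z a b => c * g z a b) = c * EE μ Ψ M N g := by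
  unfold EE
  rw [← Ex_mul]
  simp only [Finset.mul_sum, mul_assoc]

lemma EE_add (g g' : (ι → X × Y) → (ι → A) → (ι → B) → ℝ) :
    EE μ Ψ M N (fun z a b => g z a b + g' z a b) = EE μ Ψ M N g + EE μ Ψ M N g' := by
  unfold EE
  rw [← Ex_add]
  simp only [add_mul, Finset.sum_add_distrib]

lemma EE_sum {κ : Type} (s : Finset κ) (g : κ → (ι → X × Y) → (ι → A) → (ι → B) → ℝ) :
    EE μ Ψ M N (fun z a b => ∑ i ∈ s, g i z a b) = ∑ i ∈ s, EE μ Ψ M N (g i) := by
  unfold EE
  rw [← Ex_sum]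
  congr 1; funext z
  simp only [Finset.sum_mul]
  rw [Finset.sum_congr rfl fun a _ => Finset.sum_comm, Finset.sum_comm]

lemma EE_one (h1 : ∑ ζ, μ ζ = 1) (hΨ : nrm Ψ ^ 2 = 1) (hM1 : ∀ x, ∑ a, M x a = 1)
    (hN1 : ∀ y, ∑ b, N y b = 1) : EE μ Ψ M N (fun _ _ _ => 1) = 1 := by
  unfold EE
  simp only [one_mul, ← ev_sum_right, ← ev_sum_left, hM1, hN1, ev_one_one, hΨ, Ex_const h1]

lemma Wn_nonneg (V : X → Y → A → B → Bool) (i : ι) (z : ι → X × Y) (a : ι → A) (b : ι → B) :
    0 ≤ Wn V i z a b := by unfold Wn; split_ifs <;> norm_num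

lemma Wn_le (V : X → Y → A → B → Bool) (i : ι) (z : ι → X × Y) (a : ι → A) (b : ι → B) :
    Wn V i z a b ≤ 1 := by unfold Wn; split_ifs <;> norm_num

lemma core_sum [Nonempty X] [Nonempty Y] [Nonempty A] [Nonempty B]
    (h0 : ∀ ζ, 0 ≤ μ ζ) (h1 : ∑ ζ, μ ζ = 1)
    {V : X → Y → A → B → Bool} {v θ L : ℝ} (hR : Round μ V v θ L) (hL : 0 ≤ L) (hv : 0 ≤ v + θ)
    (hΨ : nrm Ψ ^ 2 = 1) (hM : ∀ x a, (M x a).PosSemidef) (hM1 : ∀ x, ∑ a, M x a = 1)
    (hN : ∀ y b, (N y b).PosSemidef) (hN1 : ∀ y, ∑ b, N y b = 1) {l : ℕ} (s : Fin l → ι) :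
    ∑ i, EE μ Ψ M N (fun z a b => (∏ m, (1 + Wn V (s m) z a b) / 2) * Wn V i z a b) ≤
      EE μ Ψ M N (fun z a b => ∏ m, (1 + Wn V (s m) z a b) / 2) *
        (l + Fintype.card ι * (v + θ) + L * (l * (Real.log (2 * Fintype.card A) +
          Real.log (2 * Fintype.card B) + Real.log 2))) := by
  classical
  let P : (Fin l → A) → (ι → X) → Matrix α α ℂ := fun t x => fib (fun a => a ∘ s) (M x) t
  let Q : (Fin l → B) → (ι → Y) → Matrix β β ℂ := fun t y => fib (fun b => b ∘ s) (N y) t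
  let w : (ι → X × Y) → (Fin l → A) → (Fin l → B) → ℝ := fun z t t' =>
    ∏ m, (1 + if V (z (s m)).1 (z (s m)).2 (t m) (t' m) then 1 else 0) / 2
  have hP : ∀ t x, (P t x).PosSemidef := fun t x => fib_psd _ (hM x) t
  have hQ : ∀ t y, (Q t y).PosSemidef := fun t y => fib_psd _ (hN y) t
  have hP1 : ∀ x, ∑ t, P t x = 1 := fun x => by rw [fib_sum, hM1]
  have hQ1 : ∀ y, ∑ t, Q t y = 1 := fun y => by rw [fib_sum, hN1]
  have hm : (0:ℝ) < (1 / 2) ^ l := by positivity
  have hwm : ∀ z t t', (1 / 2 : ℝ) ^ l ≤ w z t t' := fun z t t' => by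
    have : (1 / 2 : ℝ) ^ l = ∏ _m : Fin l, (1 / 2 : ℝ) := by simp
    rw [this]
    exact Finset.prod_le_prod (fun _ _ => by norm_num) fun m _ => by split_ifs <;> norm_num
  have hw1 : ∀ z t t', w z t t' ≤ 1 := fun z t t' =>
    Finset.prod_le_one (fun m _ => by split_ifs <;> norm_num) fun m _ => by split_ifs <;> norm_num
  let D : Finset ι := Finset.univ \ Finset.univ.image s
  have hw : ∀ j ∈ D, ∀ z ζ, w (update z j ζ) = w z := by
    intro j hj z ζ
    funext t t'
    refine Finset.prod_congr rfl fun m _ => ?_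
    have : s m ≠ j := fun h => by simp [D, ← h] at hj
    rw [update_of_ne this]
  set p := EE μ Ψ M N (fun z a b => ∏ m, (1 + Wn V (s m) z a b) / 2) with hp
  have hFF : FF Prod.fst Prod.snd Ψ P Q w = fun z => ∑ a, ∑ b, (∏ m, (1 + Wn V (s m) z a b) / 2) *
      ev Ψ (M (fun j => (z j).1) a) (N (fun j => (z j).2) b) := by
    funext z
    exact ev_fib Ψ _ _ _ _ (w z)
  have hpF : Ex μ (FF Prod.fst Prod.snd Ψ P Q w) = p := by rw [hFF]; rfl
  have hFb := FF_bounds Prod.fst Prod.snd hΨ hP hP1 hQ hQ1 hwm hw1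
  have hp0 : 0 < p := by
    rw [← hpF]
    refine hm.trans_le ?_
    rw [← Ex_const (ι := ι) h1 ((1 / 2) ^ l)]
    exact Ex_mono h0 fun z => (hFb z).1
  let r : ι → ℤ := fun j => (Fintype.equivFin ι j : ℕ)
  have hr : Injective r := fun i j h => (Fintype.equivFin ι).injective (Fin.ext (by
    simpa [r] using h))
  have cc := fun (i : ι) (hi : i ∈ D) => core_coord h0 h1 hR Ψ
    (fun t x => ctr_of_sum (fun t => hP t x) (hP1 x) t)
    (fun t y => ctr_of_sum (fun t => hQ t y) (hQ1 y) t)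
    (fun t a x => fib (fun a' => (a' ∘ s, a' i)) (M x) (t, a)) (fun t a x => fib_psd _ (hM x) _)
    (fun t x => fib_sum2 _ _ _ _)
    (fun t b y => fib (fun b' => (b' ∘ s, b' i)) (N y) (t, b)) (fun t b y => fib_psd _ (hN y) _)
    (fun t y => fib_sum2 _ _ _ _) w (fun z t t' => hm.le.trans (hwm z t t'))
    (S := D.filter (fun j => r i < r j)) (S' := D.filter (fun j => r j < r i)) (i := i)
    (by simp) (by simp)
    (fun j hj => by
      simp only [Finset.mem_filter, not_and, not_lt] at hj ⊢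
      exact fun _ => hj.2.le)
    (hw i hi) (fun j hj => hw j (Finset.mem_filter.mp hj).1)
    (fun j hj => hw j (Finset.mem_filter.mp hj).1) hp0
  choose! n hn0 hn1 hn2 using cc
  have d1 := dirichlet_sum h0 h1 Prod.fst Prod.snd hΨ hP hP1 hQ hQ1 hm hwm hw1 D hw r hr
  have d2 := dirichlet_sum h0 h1 Prod.snd Prod.fst (Ψ := Ψᴴ) (by
    rw [← ev_one_one, ev_swap, ev_one_one, hΨ]) hQ hQ1 hP hP1 (w := fun z t' t => w z t t') hm
    (fun z t' t => hwm z t t') (fun z t' t => hw1 z t t') D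
    (fun j hj z ζ => by rw [hw j hj]) (fun j => - r j) (fun i j h => hr (neg_injective h))
  have hF2 : FF Prod.snd Prod.fst Ψᴴ Q P (fun z t' t => w z t t') = FF Prod.fst Prod.snd Ψ P Q w := by
    funext z
    unfold FF
    rw [Finset.sum_comm]
    simp only [ev_swap]
  simp only [neg_lt_neg_iff, hF2] at d2
  have d3 := hellinger h0 h1 (FF Prod.fst Prod.snd Ψ P Q w) hm (fun z => (hFb z).1)
    (fun z => (hFb z).2) D (fun i ζ => if i ∈ D then n i ζ else 0)
    (fun i ζ => by split_ifs with h; exacts [hn0 i h ζ, le_rfl])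
    (fun i hi g => by simpa only [hi, if_true] using hn1 i hi g)
  rw [Finset.sum_congr rfl fun i hi => by simp only [hi, if_true]; rfl] at d3
  rw [hpF] at d1 d2 d3
  have hwin : ∀ i ∈ D, EE μ Ψ M N (fun z a b => (∏ m, (1 + Wn V (s m) z a b) / 2) * Wn V i z a b) =
      ∑ t, ∑ t', ∑ a, ∑ b, Ex μ (fun z => (w z t t' * if V (z i).1 (z i).2 a b then 1 else 0) *
        ev Ψ (fib (fun a' => (a' ∘ s, a' i)) (M (fun j => (z j).1)) (t, a))
          (fib (fun b' => (b' ∘ s, b' i)) (N (fun j => (z j).2)) (t', b))) := by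
    intro i _
    simp only [← Ex_sum]
    unfold EE
    congr 1; funext z
    have := ev_fib Ψ (fun a' : ι → A => (a' ∘ s, a' i)) (fun b' : ι → B => (b' ∘ s, b' i))
      (M (fun j => (z j).1)) (N (fun j => (z j).2))
      (fun u u' => w z u.1 u'.1 * if V (z i).1 (z i).2 u.2 u'.2 then 1 else 0)
    simp only [Fintype.sum_prod_type] at this
    refine Eq.trans this.symm ?_
    exact Finset.sum_congr rfl fun t _ => Finset.sum_comm
  have s1 := Finset.sum_le_sum fun i hi => (hwin i hi).trans_le (hn2 i hi)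
  simp only [Finset.sum_add_distrib, ← Finset.mul_sum, Finset.sum_const, nsmul_eq_mul] at s1
  have s2 : ∑ i ∈ Finset.univ.image s,
      EE μ Ψ M N (fun z a b => (∏ m, (1 + Wn V (s m) z a b) / 2) * Wn V i z a b) ≤ l * p := by
    have : ∀ i ∈ Finset.univ.image s,
        EE μ Ψ M N (fun z a b => (∏ m, (1 + Wn V (s m) z a b) / 2) * Wn V i z a b) ≤ p :=
      fun i _ => EE_mono h0 hM hN fun z a b => mul_le_of_le_one_right
        (Finset.prod_nonneg fun m _ => by have := Wn_nonneg V (s m) z a b; positivity)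
        (Wn_le _ _ _ _ _)
    refine (Finset.sum_le_card_nsmul _ _ _ this).trans ?_
    rw [nsmul_eq_mul]
    refine mul_le_mul_of_nonneg_right ?_ hp0.le
    exact_mod_cast Finset.card_image_le.trans (by simp)
  rw [← Finset.sum_sdiff (Finset.subset_univ (Finset.univ.image s))]
  have s3 : (D.card : ℝ) * (p * (v + θ)) ≤ Fintype.card ι * (p * (v + θ)) :=
    mul_le_mul_of_nonneg_right (by exact_mod_cast Finset.card_le_univ _) (mul_nonneg hp0.le hv)
  have l1 : Real.log (Fintype.card (Fin l → A) / (1 / 2) ^ l) = l * Real.log (2 * Fintype.card A) := by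
    rw [← Real.log_pow]; congr 1; simp [mul_pow, mul_comm]
  have l2 : Real.log (Fintype.card (Fin l → B) / (1 / 2) ^ l) = l * Real.log (2 * Fintype.card B) := by
    rw [← Real.log_pow]; congr 1; simp [mul_pow, mul_comm]
  have l3 : Real.log (1 / (1 / 2) ^ l) = l * Real.log 2 := by
    rw [← Real.log_pow]; congr 1; simp
  rw [l1] at d1; rw [l2] at d2; rw [l3] at d3
  have s4 := mul_le_mul_of_nonneg_left (add_le_add (add_le_add d1 d2) d3) hL
  change ∑ i ∈ D, _ + _ ≤ _
  nlinarith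

lemma asm [Nonempty ι] [Nonempty X] [Nonempty Y] [Nonempty A] [Nonempty B]
    (h0 : ∀ ζ, 0 ≤ μ ζ) (h1 : ∑ ζ, μ ζ = 1)
    {V : X → Y → A → B → Bool} {v δ L : ℝ} (hR : Round μ V v (δ / 4) L) (hL : 1 ≤ L) (hv : 0 ≤ v)
    (hδ : 0 < δ) (hδv : δ < 1 - v)
    (hΨ : nrm Ψ ^ 2 = 1) (hM : ∀ x a, (M x a).PosSemidef) (hM1 : ∀ x, ∑ a, M x a = 1)
    (hN : ∀ y b, (N y b).PosSemidef) (hN1 : ∀ y, ∑ b, N y b = 1) :
    EE μ Ψ M N (fun z a b => if (v + δ) * Fintype.card ι ≤ ∑ i, Wn V i z a b then 1 else 0) ≤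
      Real.exp (-(δ ^ 2 / (64 * L * (1 + Real.log (Fintype.card A * Fintype.card B))) *
        Fintype.card ι)) := by
  set k : ℝ := (Fintype.card ι : ℝ) with hk
  have hk0 : 0 < k := by rw [hk]; exact_mod_cast Fintype.card_pos
  have hA : (1:ℝ) ≤ Fintype.card A := by exact_mod_cast Fintype.card_pos
  have hB : (1:ℝ) ≤ Fintype.card B := by exact_mod_cast Fintype.card_pos
  set Λ := 1 + Real.log (Fintype.card A * Fintype.card B) with hΛ
  have hlog : 0 ≤ Real.log (Fintype.card A * Fintype.card B) := Real.log_nonneg (by nlinarith)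
  have hΛ1 : 1 ≤ Λ := by linarith
  have hlogs : Real.log (2 * Fintype.card A) + Real.log (2 * Fintype.card B) + Real.log 2 ≤ 3 * Λ := by
    rw [Real.log_mul two_ne_zero (by linarith), Real.log_mul two_ne_zero (by linarith)]
    rw [Real.log_mul (by linarith) (by linarith)] at hΛ hlog
    have := Real.log_two_lt_d9
    linarith
  let t := ⌈δ * k / (16 * L * Λ)⌉₊
  let T : (ι → X × Y) → (ι → A) → (ι → B) → ℝ := fun z a b => ∑ i, (1 + Wn V i z a b) / 2
  have hT : ∀ z a b, T z a b = (k + ∑ i, Wn V i z a b) / 2 := fun z a b => by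
    simp only [T, ← Finset.sum_div, Finset.sum_add_distrib, hk]; simp
  set ρ := k * (1 + v + δ / 2) / 2 with hρ
  have hρ0 : 0 < ρ := by positivity
  have hrec : ∀ l ≤ t, EE μ Ψ M N (fun z a b => T z a b ^ l) ≤ ρ ^ l := by
    intro l
    induction l with
    | zero => intro _; simp [EE_one h1 hΨ hM1 hN1]
    | succ l ih =>
      intro hl
      have hl' : (l : ℝ) < δ * k / (16 * L * Λ) := Nat.lt_ceil.mp hl
      rw [lt_div_iff₀ (by positivity)] at hl'
      have e1 : ∀ z a b, T z a b ^ l = ∑ s : Fin l → ι, ∏ m, (1 + Wn V (s m) z a b) / 2 :=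
        fun z a b => Fintype.sum_pow _ _
      have e2 : ∀ z a b, T z a b ^ (l + 1) = ∑ s : Fin l → ι,
          ((k / 2) * (∏ m, (1 + Wn V (s m) z a b) / 2) +
          (1 / 2) * ∑ i, (∏ m, (1 + Wn V (s m) z a b) / 2) * Wn V i z a b) := fun z a b => by
        rw [pow_succ, e1, Finset.sum_mul]
        refine Finset.sum_congr rfl fun s _ => ?_
        rw [hT, ← Finset.mul_sum]; ring
      have ih' := ih (Nat.le_of_succ_le hl)
      simp only [e1, EE_sum] at ih'
      simp only [e2, EE_sum, EE_add, EE_mul]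
      rw [pow_succ]
      refine le_trans ?_ (mul_le_mul_of_nonneg_right ih' hρ0.le)
      rw [Finset.sum_mul]
      refine Finset.sum_le_sum fun s _ => ?_
      have c1 := core_sum h0 h1 hR (by linarith) (by linarith) hΨ hM hM1 hN hN1 s
      have p0 : 0 ≤ EE μ Ψ M N (fun z a b => ∏ m, (1 + Wn V (s m) z a b) / 2) := by
        have := EE_mono (Ψ := Ψ) h0 hM hN (g := fun _ _ _ => 0 * 1)
          (g' := fun z a b => ∏ m, (1 + Wn V (s m) z a b) / 2) fun z a b => by
            rw [zero_mul]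
            exact Finset.prod_nonneg fun m _ => by have := Wn_nonneg V (s m) z a b; positivity
        rwa [EE_mul, zero_mul] at this
      have c2 : l + k * (v + δ / 4) + L * (l * (Real.log (2 * Fintype.card A) +
          Real.log (2 * Fintype.card B) + Real.log 2)) ≤ k * (v + δ / 2) := by
        have l0 : (0:ℝ) ≤ l := Nat.cast_nonneg l
        have a1 : L * (l * (Real.log (2 * Fintype.card A) +
          Real.log (2 * Fintype.card B) + Real.log 2)) ≤ L * (l * (3 * Λ)) := by gcongr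
        have a2 : (l : ℝ) * 1 ≤ l * (L * Λ) := by gcongr; nlinarith
        nlinarith
      have c3 := mul_le_mul_of_nonneg_left c2 p0
      rw [hρ]
      nlinarith
  have hfin := hrec t le_rfl
  set σ := k * (1 + v + δ) / 2 with hσ
  have hσ0 : 0 < σ := by positivity
  have hlow : EE μ Ψ M N (fun z a b => σ ^ t * if (v + δ) * k ≤ ∑ i, Wn V i z a b then 1 else 0) ≤
      EE μ Ψ M N (fun z a b => T z a b ^ t) := by
    refine EE_mono h0 hM hN fun z a b => ?_
    have : 0 ≤ ∑ i, Wn V i z a b := Finset.sum_nonneg fun i _ => Wn_nonneg _ _ _ _ _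
    split_ifs with h
    · rw [mul_one, hT]
      exact pow_le_pow_left₀ hσ0.le (by rw [hσ]; linarith) t
    · rw [mul_zero, hT]; positivity
  rw [EE_mul] at hlow
  have q1 : ρ ≤ σ * Real.exp (-(δ / 4)) := by
    have := Real.add_one_le_exp (-(δ / 4))
    refine le_trans ?_ (mul_le_mul_of_nonneg_left this hσ0.le)
    rw [hρ, hσ]
    have : k * δ * (v + δ) ≤ k * δ * 1 := by gcongr; linarith
    nlinarith
  have q2 : ρ ^ t ≤ σ ^ t * Real.exp (-(δ / 4)) ^ t := by
    rw [← mul_pow]; exact pow_le_pow_left₀ hρ0.le q1 t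
  have q3 := le_of_mul_le_mul_left ((hlow.trans hfin).trans q2) (pow_pos hσ0 t)
  refine q3.trans ?_
  rw [← Real.exp_nat_mul, Real.exp_le_exp]
  have q4 : δ * k / (16 * L * Λ) ≤ t := Nat.le_ceil _
  have q5 : δ ^ 2 / (64 * L * Λ) * k = δ / 4 * (δ * k / (16 * L * Λ)) := by field_simp; ring
  rw [q5]
  nlinarith

end

end Crest.Agent.PR
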