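import Mathlib

/-! Averaging on finite product spaces. -/

set_option linter.unusedSectionVars false

namespace Crest.Agent.PR

open Function

variable {ι Z X Y : Type} [Fintype ι] [DecidableEq ι] [Fintype Z] [DecidableEq Z]
  [Fintype X] [DecidableEq X] [Fintype Y] [DecidableEq Y]

/-- product weight -/
noncomputable def PW (μ : Z → ℝ) (z : ι → Z) : ℝ := ∏ j, μ (z j)

/-- expectation -/
noncomputable def Ex (μ : Z → ℝ) (f : (ι → Z) → ℝ) : ℝ := ∑ z, PW μ z * f z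

lemma PW_nonneg {μ : Z → ℝ} (h0 : ∀ ζ, 0 ≤ μ ζ) (z : ι → Z) : 0 ≤ PW μ z :=
  Finset.prod_nonneg fun _ _ => h0 _

lemma Ex_prod (μ : Z → ℝ) (f : ι → Z → ℝ) :
    Ex μ (fun z => ∏ j, f j (z j)) = ∏ j, ∑ ζ, μ ζ * f j ζ := by
  rw [Finset.prod_univ_sum]
  simp [Ex, PW, Finset.prod_mul_distrib]

lemma Ex_const {μ : Z → ℝ} (h1 : ∑ ζ, μ ζ = 1) (c : ℝ) : Ex μ (fun _ : ι → Z => c) = c := by
  have := Ex_prod (ι := ι) μ (fun _ _ => 1)
  simp only [Finset.prod_const_one, mul_one, h1] at this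
  unfold Ex at *
  rw [← Finset.sum_mul]
  simp only [mul_one] at this
  rw [this, one_mul]

lemma Ex_mono' {μ : Z → ℝ} (h0 : ∀ ζ, 0 ≤ μ ζ) {f g : (ι → Z) → ℝ}
    (h : ∀ z, (∀ j, 0 < μ (z j)) → f z ≤ g z) : Ex μ f ≤ Ex μ g := by
  refine Finset.sum_le_sum fun z _ => ?_
  by_cases hz : ∀ j, 0 < μ (z j)
  · exact mul_le_mul_of_nonneg_left (h z hz) (PW_nonneg h0 z)
  · push Not at hz
    obtain ⟨j, hj⟩ := hz
    have : PW μ z = 0 := Finset.prod_eq_zero (Finset.mem_univ j) (le_antisymm hj (h0 _))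
    simp [this]

lemma Ex_mono {μ : Z → ℝ} (h0 : ∀ ζ, 0 ≤ μ ζ) {f g : (ι → Z) → ℝ}
    (h : ∀ z, f z ≤ g z) : Ex μ f ≤ Ex μ g := Ex_mono' h0 fun z _ => h z

lemma Ex_add (μ : Z → ℝ) (f g : (ι → Z) → ℝ) : Ex μ (fun z => f z + g z) = Ex μ f + Ex μ g := by
  simp [Ex, mul_add, Finset.sum_add_distrib]

lemma Ex_sub (μ : Z → ℝ) (f g : (ι → Z) → ℝ) : Ex μ (fun z => f z - g z) = Ex μ f - Ex μ g := by
  simp [Ex, mul_sub, Finset.sum_sub_distrib]

lemma Ex_mul (μ : Z → ℝ) (c : ℝ) (f : (ι → Z) → ℝ) : Ex μ (fun z => c * f z) = c * Ex μ f := by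
  simp only [Ex, Finset.mul_sum]
  exact Finset.sum_congr rfl fun z _ => by ring

lemma Ex_sum {κ : Type} (μ : Z → ℝ) (s : Finset κ) (f : κ → (ι → Z) → ℝ) :
    Ex μ (fun z => ∑ i ∈ s, f i z) = ∑ i ∈ s, Ex μ (f i) := by
  simp only [Ex, Finset.mul_sum]
  exact Finset.sum_comm

lemma PW_update (μ : Z → ℝ) (z : ι → Z) (j : ι) (ζ : Z) :
    PW μ (update z j ζ) = μ ζ * ∏ i ∈ Finset.univ.erase j, μ (z i) := by
  unfold PW
  rw [← Finset.mul_prod_erase _ _ (Finset.mem_univ j), update_self]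
  congr 1
  exact Finset.prod_congr rfl fun i hi => by rw [update_of_ne (Finset.ne_of_mem_erase hi)]

lemma Ex_stat {μ : Z → ℝ} {κ : Z → Z → ℝ} (hκ : ∀ ζ', ∑ ζ, μ ζ * κ ζ ζ' = μ ζ') (j : ι)
    (f : (ι → Z) → ℝ) : Ex μ (fun z => ∑ ζ, κ (z j) ζ * f (update z j ζ)) = Ex μ f := by
  unfold Ex
  simp only [Finset.mul_sum]
  rw [← Fintype.sum_prod_type']
  let e : (ι → Z) × Z ≃ (ι → Z) × Z :=
    { toFun := fun p => (update p.1 j p.2, p.1 j)
      invFun := fun p => (update p.1 j p.2, p.1 j)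
      left_inv := fun p => by simp
      right_inv := fun p => by simp }
  rw [← e.sum_comp, Fintype.sum_prod_type]
  refine Finset.sum_congr rfl fun z _ => ?_
  simp only [e, Equiv.coe_fn_mk, update_self, update_idem, update_eq_self, PW_update]
  have : PW μ z = μ (z j) * ∏ i ∈ Finset.univ.erase j, μ (z i) := by
    rw [← PW_update, update_eq_self]
  rw [this, ← hκ (z j), Finset.sum_mul, Finset.sum_mul]
  exact Finset.sum_congr rfl fun ζ _ => by ring

lemma Ex_resample {μ : Z → ℝ} (h1 : ∑ ζ, μ ζ = 1) (j : ι) (f : (ι → Z) → ℝ) :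
    ∑ ζ, μ ζ * Ex μ (fun z => f (update z j ζ)) = Ex μ f := by
  rw [← Ex_stat (μ := μ) (κ := fun _ ζ' => μ ζ') (fun ζ' => by rw [← Finset.sum_mul, h1, one_mul]) j f,
    Ex_sum]
  simp only [Ex_mul]

/-- marginal -/
noncomputable def mg (μ : Z → ℝ) (π : Z → Y) (y : Y) : ℝ := ∑ ζ, if π ζ = y then μ ζ else 0

/-- conditional resampling kernel -/
noncomputable def cond (μ : Z → ℝ) (π : Z → Y) (ζ ζ' : Z) : ℝ :=
  if π ζ' = π ζ then μ ζ' / mg μ π (π ζ) else 0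

lemma le_mg {μ : Z → ℝ} (h0 : ∀ ζ, 0 ≤ μ ζ) (π : Z → Y) (ζ : Z) : μ ζ ≤ mg μ π (π ζ) := by
  have := Finset.single_le_sum (f := fun ζ' => if π ζ' = π ζ then μ ζ' else 0)
    (fun ζ' _ => by split_ifs; exacts [h0 _, le_rfl]) (Finset.mem_univ ζ)
  simpa [mg] using this

lemma cond_nonneg {μ : Z → ℝ} (h0 : ∀ ζ, 0 ≤ μ ζ) (π : Z → Y) (ζ ζ' : Z) : 0 ≤ cond μ π ζ ζ' := by
  unfold cond
  split_ifs
  · exact div_nonneg (h0 _) ((h0 _).trans (le_mg h0 π ζ))
  · exact le_rfl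

lemma cond_sum (μ : Z → ℝ) (π : Z → Y) (ζ : Z) :
    ∑ ζ', cond μ π ζ ζ' = mg μ π (π ζ) / mg μ π (π ζ) := by
  conv_rhs => rw [mg, Finset.sum_div]
  refine Finset.sum_congr rfl fun ζ' _ => ?_
  unfold cond; split_ifs <;> simp [mg]

lemma cond_sum_le (μ : Z → ℝ) (π : Z → Y) (ζ : Z) : ∑ ζ', cond μ π ζ ζ' ≤ 1 := by
  rw [cond_sum]; exact div_self_le_one _

lemma cond_sum_eq {μ : Z → ℝ} (h0 : ∀ ζ, 0 ≤ μ ζ) (π : Z → Y) {ζ : Z} (h : 0 < μ ζ) :
    ∑ ζ', cond μ π ζ ζ' = 1 := by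
  rw [cond_sum]; exact div_self (h.trans_le (le_mg h0 π ζ)).ne'

lemma cond_stat {μ : Z → ℝ} (h0 : ∀ ζ, 0 ≤ μ ζ) (π : Z → Y) (ζ' : Z) :
    ∑ ζ, μ ζ * cond μ π ζ ζ' = μ ζ' := by
  have : ∀ ζ, μ ζ * cond μ π ζ ζ' =
      (if π ζ = π ζ' then μ ζ else 0) * (μ ζ' / mg μ π (π ζ')) := by
    intro ζ
    unfold cond
    by_cases h : π ζ = π ζ'
    · simp [h]
    · simp [h, Ne.symm h]
  simp only [this]
  rw [← Finset.sum_mul]
  change mg μ π (π ζ') * _ = _
  by_cases h : mg μ π (π ζ') = 0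
  · have := le_mg h0 π ζ'
    rw [h] at this ⊢
    rw [le_antisymm this (h0 _)]; simp
  · field_simp

lemma cond_ne {μ : Z → ℝ} {π : Z → Y} {ζ ζ' : Z} (h : cond μ π ζ ζ' ≠ 0) : π ζ' = π ζ := by
  by_contra h'
  exact h (by simp [cond, h'])

lemma cond_congr (μ : Z → ℝ) (π : Z → Y) {ζ ξ : Z} (h : π ζ = π ξ) (ζ' : Z) :
    cond μ π ζ ζ' = cond μ π ξ ζ' := by
  unfold cond; rw [h]

/-- one-coordinate kernel: resample (`b`) or copy -/
noncomputable def Kk (μ : Z → ℝ) (π₁ : Z → X) (π₂ : Z → Y) (b : Prop) [Decidable b] (ζ : Z)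
    (x : X) : ℝ :=
  if b then ∑ ζ', (if π₁ ζ' = x then cond μ π₂ ζ ζ' else 0) else (if π₁ ζ = x then 1 else 0)

variable {V : Type} [AddCommGroup V] [Module ℝ V]

/-- weights of the partial average -/
noncomputable def aw (μ : Z → ℝ) (π₁ : Z → X) (π₂ : Z → Y) (S : Finset ι) (z : ι → Z)
    (x : ι → X) : ℝ := ∏ j, Kk μ π₁ π₂ (j ∈ S) (z j) (x j)

/-- partial average: coordinates in `S` are resampled given `π₂` -/
noncomputable def avg (μ : Z → ℝ) (π₁ : Z → X) (π₂ : Z → Y) (S : Finset ι) (A : (ι → X) → V)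
    (z : ι → Z) : V := ∑ x, aw μ π₁ π₂ S z x • A x

section
variable {μ : Z → ℝ} (π₁ : Z → X) (π₂ : Z → Y)

lemma aw_nonneg (h0 : ∀ ζ, 0 ≤ μ ζ) (S : Finset ι) (z : ι → Z) (x : ι → X) :
    0 ≤ aw μ π₁ π₂ S z x := by
  refine Finset.prod_nonneg fun j _ => ?_
  unfold Kk
  split_ifs
  · exact Finset.sum_nonneg fun ζ _ => by split_ifs; exacts [cond_nonneg h0 _ _ _, le_rfl]
  · exact zero_le_one
  · exact le_rfl

lemma aw_sum_le (h0 : ∀ ζ, 0 ≤ μ ζ) (S : Finset ι) (z : ι → Z) :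
    ∑ x, aw μ π₁ π₂ S z x ≤ 1 := by
  unfold aw
  have := Finset.prod_univ_sum (fun _ : ι => (Finset.univ : Finset X))
    (fun j x => Kk μ π₁ π₂ (j ∈ S) (z j) x)
  rw [Fintype.piFinset_univ] at this
  rw [← this]
  have h : ∀ j, ∑ x, Kk μ π₁ π₂ (j ∈ S) (z j) x =
      if j ∈ S then ∑ ζ', cond μ π₂ (z j) ζ' else 1 := by
    intro j
    unfold Kk
    split_ifs
    · rw [Finset.sum_comm]; simp
    · simp
  refine Finset.prod_le_one (fun j _ => ?_) (fun j _ => ?_)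
  · rw [h]; split_ifs
    · exact Finset.sum_nonneg fun ζ _ => cond_nonneg h0 _ _ _
    · exact zero_le_one
  · rw [h]; split_ifs
    · exact cond_sum_le _ _ _
    · exact le_rfl

lemma avg_empty (A : (ι → X) → V) (z : ι → Z) : avg μ π₁ π₂ ∅ A z = A (fun j => π₁ (z j)) := by
  unfold avg
  rw [Finset.sum_eq_single (fun j => π₁ (z j))]
  · simp [aw, Kk]
  · intro x _ hx
    obtain ⟨j, hj⟩ := Function.ne_iff.mp hx
    have : aw μ π₁ π₂ ∅ z x = 0 :=
      Finset.prod_eq_zero (Finset.mem_univ j) (by simp [Kk, Ne.symm hj])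
    simp [this]
  · simp

lemma aw_split (S : Finset ι) (z : ι → Z) (x : ι → X) (j : ι) :
    aw μ π₁ π₂ S z x = Kk μ π₁ π₂ (j ∈ S) (z j) (x j) *
      ∏ i ∈ Finset.univ.erase j, Kk μ π₁ π₂ (i ∈ S) (z i) (x i) := by
  unfold aw
  rw [← Finset.mul_prod_erase _ _ (Finset.mem_univ j)]

lemma aw_update (S : Finset ι) (z : ι → Z) (x : ι → X) (j : ι) (ζ : Z) :
    aw μ π₁ π₂ S (update z j ζ) x = Kk μ π₁ π₂ (j ∈ S) ζ (x j) *
      ∏ i ∈ Finset.univ.erase j, Kk μ π₁ π₂ (i ∈ S) (z i) (x i) := by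
  rw [aw_split π₁ π₂ S _ x j, update_self]
  congr 1
  exact Finset.prod_congr rfl fun i hi => by rw [update_of_ne (Finset.ne_of_mem_erase hi)]

lemma avg_step {S : Finset ι} {j : ι} (hj : j ∉ S) (A : (ι → X) → V) (z : ι → Z) :
    avg μ π₁ π₂ (insert j S) A z = ∑ ζ, cond μ π₂ (z j) ζ • avg μ π₁ π₂ S A (update z j ζ) := by
  unfold avg
  simp only [Finset.smul_sum, smul_smul]
  rw [Finset.sum_comm]
  refine Finset.sum_congr rfl fun x _ => ?_
  rw [← Finset.sum_smul]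
  congr 1
  simp only [aw_update, aw_split π₁ π₂ (insert j S) z x j, ← mul_assoc, ← Finset.sum_mul]
  congr 1
  · simp [Kk, hj]
  · refine Finset.prod_congr rfl fun i hi => ?_
    have := Finset.ne_of_mem_erase hi
    simp [Kk, this]

lemma avg_in {S : Finset ι} {j : ι} (hj : j ∈ S) (A : (ι → X) → V) (z : ι → Z) {ζ : Z}
    (h : π₂ ζ = π₂ (z j)) : avg μ π₁ π₂ S A (update z j ζ) = avg μ π₁ π₂ S A z := by
  unfold avg
  refine Finset.sum_congr rfl fun x _ => ?_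
  rw [aw_update, aw_split π₁ π₂ S z x j]
  simp only [Kk, hj, if_true, cond_congr μ π₂ h]

lemma avg_out {S : Finset ι} {j : ι} (hj : j ∉ S) (A : (ι → X) → V) (z : ι → Z) {ζ : Z}
    (h : π₁ ζ = π₁ (z j)) : avg μ π₁ π₂ S A (update z j ζ) = avg μ π₁ π₂ S A z := by
  unfold avg
  refine Finset.sum_congr rfl fun x _ => ?_
  rw [aw_update, aw_split π₁ π₂ S z x j]
  simp only [Kk, hj, if_false, h]

lemma avg_sum {κ : Type} (s : Finset κ) (S : Finset ι) (A : κ → (ι → X) → V) (z : ι → Z) :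
    avg μ π₁ π₂ S (fun x => ∑ a ∈ s, A a x) z = ∑ a ∈ s, avg μ π₁ π₂ S (A a) z := by
  unfold avg
  simp only [Finset.smul_sum]
  exact Finset.sum_comm

/-- tower property -/
lemma tower (h0 : ∀ ζ, 0 ≤ μ ζ) (S : Finset ι) (A : (ι → X) → V) (G : (ι → Z) → V →ₗ[ℝ] ℝ)
    (hG : ∀ j ∈ S, ∀ z ζ, π₂ ζ = π₂ (z j) → G (update z j ζ) = G z) :
    Ex μ (fun z => G z (avg μ π₁ π₂ S A z)) = Ex μ (fun z => G z (A (fun j => π₁ (z j)))) := by
  induction S using Finset.induction_on with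
  | empty => simp only [avg_empty]
  | insert j S hj ih =>
    rw [← ih fun i hi => hG i (Finset.mem_insert_of_mem hi),
      ← Ex_stat (cond_stat h0 π₂) j (fun z => G z (avg μ π₁ π₂ S A z))]
    congr 1; funext z
    rw [avg_step π₁ π₂ hj, map_sum]
    refine Finset.sum_congr rfl fun ζ _ => ?_
    rw [map_smul, smul_eq_mul]
    by_cases h : cond μ π₂ (z j) ζ = 0
    · simp [h]
    · rw [hG j (Finset.mem_insert_self _ _) z ζ (cond_ne h)]

end

/-- telescoping over a ranked finite set -/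
lemma telescope (r : ι → ℤ) (hr : Injective r) (F : Finset ι → ℝ) (D : Finset ι) :
    ∑ i ∈ D, (F (insert i (D.filter (fun j => r i < r j))) - F (D.filter (fun j => r i < r j))) =
      F D - F ∅ := by
  induction D using Finset.induction_on_min_value r with
  | empty => simp
  | insert a s ha hmin ih =>
    rw [Finset.sum_insert ha]
    have hlt : ∀ j ∈ s, r a < r j := fun j hj =>
      lt_of_le_of_ne (hmin j hj) fun h => ha (hr h ▸ hj)
    have e1 : (insert a s).filter (fun j => r a < r j) = s := by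
      ext j
      simp only [Finset.mem_filter, Finset.mem_insert]
      constructor
      · rintro ⟨h | h, h'⟩
        · subst h; exact absurd h' (lt_irrefl _)
        · exact h
      · exact fun h => ⟨Or.inr h, hlt j h⟩
    have e2 : ∀ i ∈ s, (insert a s).filter (fun j => r i < r j) = s.filter (fun j => r i < r j) := by
      intro i hi
      rw [Finset.filter_insert, if_neg (not_lt.mpr (hlt i hi).le)]
    rw [e1, Finset.sum_congr rfl fun i hi => by rw [e2 i hi], ih]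
    ring

/-- classical information bound in Hellinger form -/
lemma hellinger {μ : Z → ℝ} (h0 : ∀ ζ, 0 ≤ μ ζ) (h1 : ∑ ζ, μ ζ = 1) (F : (ι → Z) → ℝ) {m : ℝ}
    (hm : 0 < m) (hF : ∀ z, m ≤ F z) (hF1 : ∀ z, F z ≤ 1) (D : Finset ι) (n : ι → Z → ℝ)
    (hn0 : ∀ i ζ, 0 ≤ n i ζ)
    (hn : ∀ i ∈ D, ∀ g : Z → ℝ, ∑ ζ, μ ζ * (g ζ * n i ζ ^ 2) = Ex μ (fun z => g (z i) * F z)) :
    ∑ i ∈ D, ∑ ζ, μ ζ * (n i ζ - √(Ex μ F)) ^ 2 ≤ Ex μ F * Real.log (1 / m) := by
  set p := Ex μ F with hp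
  have hpm : m ≤ p := by
    rw [← Ex_const (ι := ι) h1 m]; exact Ex_mono h0 hF
  have hp0 : 0 < p := hm.trans_le hpm
  have hsum : ∀ i ∈ D, ∑ ζ, μ ζ * n i ζ ^ 2 = p := fun i hi => by
    simpa using hn i hi (fun _ => 1)
  have hpos : ∀ i ∈ D, ∀ ζ, 0 < μ ζ → 0 < n i ζ := by
    intro i hi ζ hζ
    have e := hn i hi (fun ξ => if ξ = ζ then 1 else 0)
    have e2 : Ex μ (fun z : ι → Z => m * (if z i = ζ then 1 else 0)) ≤
        Ex μ (fun z => (if z i = ζ then 1 else 0) * F z) :=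
      Ex_mono h0 fun z => by split_ifs <;> simp [hF z]
    rw [Ex_mul, ← Ex_resample h1 i] at e2
    simp only [update_self, Ex_const h1] at e2
    simp only [ite_mul, one_mul, zero_mul, mul_ite, mul_zero, Finset.sum_ite_eq', Finset.mem_univ,
      if_true, mul_one] at e e2
    rw [← e] at e2
    have : 0 < μ ζ * n i ζ ^ 2 := (mul_pos hm hζ).trans_le e2
    have h2 := (pos_iff_pos_of_mul_pos this).mp hζ
    exact lt_of_le_of_ne (hn0 i ζ) fun h => by rw [← h] at h2; simp at h2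
  let f : ι → Z → ℝ := fun i ζ => if i ∈ D then n i ζ ^ 2 / p else 1
  have hf1 : Ex μ (fun z => ∏ j, f j (z j)) = 1 := by
    rw [Ex_prod]
    refine Finset.prod_eq_one fun j _ => ?_
    by_cases hj : j ∈ D
    · simp only [f, hj, if_true, ← mul_div_assoc, ← Finset.sum_div, hsum j hj]
      exact div_self hp0.ne'
    · simp [f, hj, h1]
  have key : Ex μ (fun z => ∑ i ∈ D, Real.log (n i (z i) ^ 2 / p) * F z) ≤
      Ex μ (fun z => p * ∏ j, f j (z j) - F z - Real.log p * F z) := by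
    refine Ex_mono' h0 fun z hz => ?_
    have fpos : ∀ j, 0 < f j (z j) := fun j => by
      by_cases hj : j ∈ D
      · simp only [f, hj, if_true]; have := hpos j hj _ (hz j); positivity
      · simp [f, hj]
    have e : ∑ i ∈ D, Real.log (n i (z i) ^ 2 / p) = Real.log (∏ j, f j (z j)) := by
      rw [Real.log_prod fun j _ => (fpos j).ne']
      rw [← Finset.sum_subset (Finset.subset_univ D) (fun j _ hj => by simp [f, hj])]
      exact Finset.sum_congr rfl fun j hj => by simp [f, hj]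
    rw [← Finset.sum_mul, e]
    have hP : 0 < ∏ j, f j (z j) := Finset.prod_pos fun j _ => fpos j
    generalize ∏ j, f j (z j) = P at hP
    have hFz : 0 < F z := hm.trans_le (hF z)
    have h2 := Real.log_le_sub_one_of_pos (div_pos (mul_pos hp0 hP) hFz)
    rw [Real.log_div (mul_pos hp0 hP).ne' hFz.ne', Real.log_mul hp0.ne' hP.ne'] at h2
    have h3 : Real.log (F z) ≤ 0 := Real.log_nonpos hFz.le (hF1 z)
    have h4 : F z * (p * P / F z - 1) = p * P - F z := by field_simp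
    nlinarith [mul_le_mul_of_nonneg_left h2 hFz.le, mul_nonneg hFz.le (neg_nonneg.mpr h3)]
  rw [Ex_sub, Ex_sub, Ex_mul, Ex_mul, hf1, Ex_sum, ← hp] at key
  have h5 : ∀ i ∈ D, ∑ ζ, μ ζ * (n i ζ - √p) ^ 2 ≤
      Ex μ (fun z => Real.log (n i (z i) ^ 2 / p) * F z) := by
    intro i hi
    rw [← hn i hi (fun ζ => Real.log (n i ζ ^ 2 / p))]
    have : ∑ ζ, μ ζ * (Real.log (n i ζ ^ 2 / p) * n i ζ ^ 2) =
        ∑ ζ, μ ζ * (Real.log (n i ζ ^ 2 / p) * n i ζ ^ 2 - n i ζ ^ 2 + p) := by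
      simp only [mul_add, mul_sub, Finset.sum_add_distrib, Finset.sum_sub_distrib, hsum i hi,
        ← Finset.sum_mul, h1]
      ring
    rw [this]
    refine Finset.sum_le_sum fun ζ _ => ?_
    rcases (h0 ζ).eq_or_lt with h | h
    · simp [← h]
    refine mul_le_mul_of_nonneg_left ?_ h.le
    have ha := hpos i hi ζ h
    generalize n i ζ = a at ha
    have hs : 0 < √p := Real.sqrt_pos.mpr hp0
    have hss : √p * √p = p := Real.mul_self_sqrt hp0.le
    have e : a ^ 2 / p = (√p / a)⁻¹ ^ 2 := by rw [inv_div, div_pow, Real.sq_sqrt hp0.le]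
    rw [e, Real.log_pow, Real.log_inv]
    have h6 := Real.log_le_sub_one_of_pos (div_pos hs ha)
    have h7 : a ^ 2 * (√p / a - 1) = a * √p - a ^ 2 := by field_simp
    have h8 := mul_le_mul_of_nonneg_left h6 (sq_nonneg a)
    push_cast
    nlinarith
  refine (Finset.sum_le_sum h5).trans (key.trans ?_)
  have : Real.log m ≤ Real.log p := Real.log_le_log hm hpm
  rw [one_div, Real.log_inv]
  nlinarith

end Crest.Agent.PR
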