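import Crest.Agent.PR.Mat

/-! Repeating a post-selected strategy until both players accept. -/

set_option linter.unusedSectionVars false

namespace Crest.Agent.PR

open Matrix
open scoped ComplexOrder MatrixOrder Kronecker

variable {α β γ δ : Type} [Fintype α] [Fintype β] [Fintype γ] [Fintype δ]
  [DecidableEq α] [DecidableEq β] [DecidableEq γ] [DecidableEq δ]
variable {X Y A B : Type} [Fintype X] [Fintype Y] [Fintype A] [Fintype B]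

/-- `v` bounds the value of all sub-normalised finite strategies -/
def Val (μ : X × Y → ℝ) (V : X → Y → A → B → Bool) (v : ℝ) : Prop :=
  ∀ (α β : Type) [Fintype α] [DecidableEq α] [Fintype β] [DecidableEq β]
    (Ψ : Matrix α β ℂ) (M : X → A → Matrix α α ℂ) (N : Y → B → Matrix β β ℂ), nrm Ψ ^ 2 = 1 →
    (∀ x, SubP (M x)) → (∀ y, SubP (N y)) →
    ∑ ζ, μ ζ * qf (V ζ.1 ζ.2) Ψ (M ζ.1) (N ζ.2) ≤ v

/-- achievable winning profiles -/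
def Ach (V : X → Y → A → B → Bool) (f : X × Y → ℝ) : Prop :=
  ∃ (α β : Type) (_ : Fintype α) (_ : DecidableEq α) (_ : Fintype β) (_ : DecidableEq β)
    (Ψ : Matrix α β ℂ) (M : X → A → Matrix α α ℂ) (N : Y → B → Matrix β β ℂ), nrm Ψ ^ 2 = 1 ∧
    (∀ x, SubP (M x)) ∧ (∀ y, SubP (N y)) ∧ ∀ ζ, f ζ ≤ qf (V ζ.1 ζ.2) Ψ (M ζ.1) (N ζ.2)

lemma Val.le {μ : X × Y → ℝ} (h0 : ∀ ζ, 0 ≤ μ ζ) {V : X → Y → A → B → Bool} {v : ℝ}
    (h : Val μ V v) {f : X × Y → ℝ} (hf : Ach V f) : ∑ ζ, μ ζ * f ζ ≤ v := by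
  obtain ⟨α, β, _, _, _, _, Ψ, M, N, h1, h2, h3, h4⟩ := hf
  exact (Finset.sum_le_sum fun ζ _ => mul_le_mul_of_nonneg_left (h4 ζ) (h0 ζ)).trans
    (h α β Ψ M N h1 h2 h3)

lemma ach_zero (V : X → Y → A → B → Bool) : Ach V (fun _ => 0) := by
  refine ⟨Unit, Unit, inferInstance, inferInstance, inferInstance, inferInstance, 1,
    fun _ _ => 0, fun _ _ => 0, by simp [nrm_sq], fun x => ⟨fun _ => PosSemidef.zero, ?_⟩,
    fun y => ⟨fun _ => PosSemidef.zero, ?_⟩, fun ζ => ?_⟩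
  · simpa using PosSemidef.one
  · simpa using PosSemidef.one
  · exact qf_nonneg _ _ (fun _ => PosSemidef.zero) (fun _ => PosSemidef.zero)

lemma Val.nonneg {μ : X × Y → ℝ} (h0 : ∀ ζ, 0 ≤ μ ζ) {V : X → Y → A → B → Bool} {v : ℝ}
    (h : Val μ V v) : 0 ≤ v := by
  simpa using h.le h0 (ach_zero V)

lemma tr_im (Ψ : Matrix α β ℂ) {M : Matrix α α ℂ} {N : Matrix β β ℂ}
    (hM : M.PosSemidef) (hN : N.PosSemidef) : (trace (Ψᴴ * M * Ψ * N)).im = 0 := by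
  obtain ⟨Q, rfl⟩ := exists_factor hN
  have := ((hM.conjTranspose_mul_mul_same Ψ).mul_mul_conjTranspose_same Q).trace_nonneg
  rw [← Matrix.mul_assoc, trace_mul_comm, ← Matrix.mul_assoc]
  exact (Complex.nonneg_iff.mp this).2.symm

lemma ev_kron (Ψ : Matrix α β ℂ) (Ψ' : Matrix γ δ ℂ) {M : Matrix α α ℂ} {N : Matrix β β ℂ}
    (hM : M.PosSemidef) (hN : N.PosSemidef) (M' : Matrix γ γ ℂ) (N' : Matrix δ δ ℂ) :
    ev (Ψ ⊗ₖ Ψ') (M ⊗ₖ M') (N ⊗ₖ N') = ev Ψ M N * ev Ψ' M' N' := by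
  unfold ev
  rw [conjTranspose_kronecker, ← mul_kronecker_mul, ← mul_kronecker_mul, ← mul_kronecker_mul,
    trace_kronecker, Complex.mul_re, tr_im Ψ hM hN]
  simp

lemma subP_retry {M : A → Matrix α α ℂ} (hM : ∀ a, (M a).PosSemidef) {p : Matrix α α ℂ}
    (h1 : (p - ∑ a, M a).PosSemidef) (h2 : (1 - p).PosSemidef) {M' : A → Matrix γ γ ℂ}
    (hM' : SubP M') : SubP (fun a => M a ⊗ₖ (1 : Matrix γ γ ℂ) + (1 - p) ⊗ₖ M' a) := by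
  refine ⟨fun a => ((hM a).kronecker PosSemidef.one).add (h2.kronecker (hM'.1 a)), ?_⟩
  have := (h1.kronecker (PosSemidef.one (n := γ))).add (h2.kronecker hM'.2)
  have e : 1 - ∑ a, (M a ⊗ₖ (1 : Matrix γ γ ℂ) + (1 - p) ⊗ₖ M' a) =
      (p - ∑ a, M a) ⊗ₖ (1 : Matrix γ γ ℂ) + (1 - p) ⊗ₖ (1 - ∑ a, M' a) := by
    rw [← one_kronecker_one]
    ext ⟨i, j⟩ ⟨i', j'⟩
    simp only [Matrix.sub_apply, Matrix.add_apply, Matrix.sum_apply, kronecker_apply,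
      Finset.sum_add_distrib, ← Finset.sum_mul, ← Finset.mul_sum]
    ring
  rw [e]; exact this

lemma ach_step {V : X → Y → A → B → Bool} {Ψ : Matrix α β ℂ} (hΨ : nrm Ψ ^ 2 = 1)
    {M : X → A → Matrix α α ℂ} (hM : ∀ x a, (M x a).PosSemidef) {p : X → Matrix α α ℂ}
    (h1 : ∀ x, (p x - ∑ a, M x a).PosSemidef) (h2 : ∀ x, (1 - p x).PosSemidef)
    {N : Y → B → Matrix β β ℂ} (hN : ∀ y b, (N y b).PosSemidef) {q : Y → Matrix β β ℂ}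
    (h3 : ∀ y, (q y - ∑ b, N y b).PosSemidef) (h4 : ∀ y, (1 - q y).PosSemidef)
    {f g : X × Y → ℝ} (hf : Ach V f)
    (hg : ∀ ζ, g ζ ≤ qf (V ζ.1 ζ.2) Ψ (M ζ.1) (N ζ.2) + ev Ψ (1 - p ζ.1) (1 - q ζ.2) * f ζ) :
    Ach V g := by
  obtain ⟨γ, δ, _, _, _, _, Ψ', M', N', k1, k2, k3, k4⟩ := hf
  refine ⟨α × γ, β × δ, inferInstance, inferInstance, inferInstance, inferInstance, Ψ ⊗ₖ Ψ',
    fun x a => M x a ⊗ₖ (1 : Matrix γ γ ℂ) + (1 - p x) ⊗ₖ M' x a,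
    fun y b => N y b ⊗ₖ (1 : Matrix δ δ ℂ) + (1 - q y) ⊗ₖ N' y b, ?_,
    fun x => subP_retry (hM x) (h1 x) (h2 x) (k2 x),
    fun y => subP_retry (hN y) (h3 y) (h4 y) (k3 y), fun ζ => (hg ζ).trans ?_⟩
  · rw [← ev_one_one, ← one_kronecker_one, ← one_kronecker_one,
      ev_kron _ _ PosSemidef.one PosSemidef.one, ev_one_one, ev_one_one, hΨ, k1, mul_one]
  · have e0 := ev_nonneg Ψ (h2 ζ.1) (h4 ζ.2)
    refine (add_le_add le_rfl (mul_le_mul_of_nonneg_left (k4 ζ) e0)).trans ?_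
    unfold qf
    simp only [Finset.mul_sum, ← Finset.sum_add_distrib]
    refine Finset.sum_le_sum fun a _ => Finset.sum_le_sum fun b _ => ?_
    split_ifs
    · rw [ev_add_left, ev_add_right, ev_add_right, ev_kron _ _ (hM _ _) (hN _ _),
        ev_kron _ _ (hM _ _) (h4 _), ev_kron _ _ (h2 _) (hN _ _), ev_kron _ _ (h2 _) (h4 _),
        ev_one_one, k1]
      have a1 := mul_nonneg (ev_nonneg Ψ (hM ζ.1 a) (h4 ζ.2))
        (ev_nonneg Ψ' PosSemidef.one ((k3 ζ.2).1 b))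
      have a2 := mul_nonneg (ev_nonneg Ψ (h2 ζ.1) (hN ζ.2 b))
        (ev_nonneg Ψ' ((k2 ζ.1).1 a) PosSemidef.one)
      linarith
    · simp

lemma retry_norm {μ : X × Y → ℝ} (h0 : ∀ ζ, 0 ≤ μ ζ) {V : X → Y → A → B → Bool} {v : ℝ}
    (hv : Val μ V v) {Ψ : Matrix α β ℂ} (hΨ : nrm Ψ ^ 2 = 1)
    {M : X → A → Matrix α α ℂ} (hM : ∀ x a, (M x a).PosSemidef) {p : X → Matrix α α ℂ}
    (h1 : ∀ x, (p x - ∑ a, M x a).PosSemidef) (h2 : ∀ x, (1 - p x).PosSemidef)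
    {N : Y → B → Matrix β β ℂ} (hN : ∀ y b, (N y b).PosSemidef) {q : Y → Matrix β β ℂ}
    (h3 : ∀ y, (q y - ∑ b, N y b).PosSemidef) (h4 : ∀ y, (1 - q y).PosSemidef)
    {c : ℝ} (hc : 0 < c) :
    ∑ ζ, μ ζ * qf (V ζ.1 ζ.2) Ψ (M ζ.1) (N ζ.2) ≤ c * v +
      ∑ ζ, μ ζ * max (ev Ψ (p ζ.1) 1 + ev Ψ 1 (q ζ.2) - ev Ψ (p ζ.1) (q ζ.2) - c) 0 := by
  set w : X × Y → ℝ := fun ζ => qf (V ζ.1 ζ.2) Ψ (M ζ.1) (N ζ.2) with hw
  set u : X × Y → ℝ := fun ζ => ev Ψ (p ζ.1) 1 + ev Ψ 1 (q ζ.2) - ev Ψ (p ζ.1) (q ζ.2) with hu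
  have hw0 : ∀ ζ, 0 ≤ w ζ := fun ζ => qf_nonneg _ _ (hM _) (hN _)
  have hq : ∀ ζ : X × Y, ev Ψ (1 - p ζ.1) (1 - q ζ.2) = 1 - u ζ := fun ζ => by
    simp only [ev_sub_left, ev_sub_right, ev_one_one, hΨ, hu]; ring
  have hwu : ∀ ζ, w ζ ≤ u ζ := fun ζ => by
    have s1 : (∑ a, M ζ.1 a).PosSemidef := posSemidef_sum _ fun a _ => hM _ a
    have s2 : (∑ b, N ζ.2 b).PosSemidef := posSemidef_sum _ fun b _ => hN _ b
    have p1 : (p ζ.1).PosSemidef := by simpa using (h1 ζ.1).add s1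
    have p2 : (q ζ.2).PosSemidef := by simpa using (h3 ζ.2).add s2
    have a1 := qf_le_ev (V ζ.1 ζ.2) Ψ (hM ζ.1) (hN ζ.2)
    have a2 := ev_mono_left Ψ (h1 ζ.1) s2
    have a3 := ev_mono_right Ψ p1 (h3 ζ.2)
    have a4 := ev_mono_left Ψ (h2 ζ.1) p2
    have a5 := ev_mono_right Ψ p1 (h4 ζ.2)
    simp only [hw, hu]; linarith
  let r : X × Y → ℝ := fun ζ => max (1 - max (u ζ) c) 0
  have r0 : ∀ ζ, 0 ≤ r ζ := fun ζ => le_max_right _ _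
  have r1 : ∀ ζ, r ζ < 1 := fun ζ => max_lt (by have := le_max_right (u ζ) c; linarith) one_pos
  have r2 : ∀ ζ, r ζ ≤ 1 - u ζ := fun ζ => max_le (by have := le_max_left (u ζ) c; linarith)
    (by rw [← hq]; exact ev_nonneg _ (h2 _) (h4 _))
  have hA : ∀ n : ℕ, Ach V (fun ζ => w ζ * ∑ i ∈ Finset.range n, r ζ ^ i) := by
    intro n
    induction n with
    | zero => simpa using ach_zero V
    | succ n ih =>
      refine ach_step hΨ hM h1 h2 hN h3 h4 ih fun ζ => ?_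
      rw [hq, Finset.sum_range_succ', pow_zero]
      simp only [pow_succ, ← Finset.sum_mul]
      have : 0 ≤ w ζ * ∑ i ∈ Finset.range n, r ζ ^ i :=
        mul_nonneg (hw0 ζ) (Finset.sum_nonneg fun i _ => pow_nonneg (r0 ζ) i)
      have := mul_le_mul_of_nonneg_right (r2 ζ) this
      change _ ≤ w ζ + _
      nlinarith
  have hlim : Filter.Tendsto (fun n : ℕ => ∑ ζ, μ ζ * (w ζ * ∑ i ∈ Finset.range n, r ζ ^ i))
      Filter.atTop (nhds (∑ ζ, μ ζ * (w ζ * (1 - r ζ)⁻¹))) :=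
    tendsto_finsetSum _ fun ζ _ =>
      (((hasSum_geometric_of_lt_one (r0 ζ) (r1 ζ)).tendsto_sum_nat).const_mul _).const_mul _
  have hle : ∑ ζ, μ ζ * (w ζ * (1 - r ζ)⁻¹) ≤ v :=
    le_of_tendsto' hlim fun n => hv.le h0 (hA n)
  refine le_trans ?_ (add_le_add (mul_le_mul_of_nonneg_left hle hc.le) le_rfl)
  rw [Finset.mul_sum, ← Finset.sum_add_distrib]
  refine Finset.sum_le_sum fun ζ _ => ?_
  have k1 : w ζ ≤ c * (w ζ * (1 - r ζ)⁻¹) + max (u ζ - c) 0 := by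
    have hU : 0 < max (u ζ) c := hc.trans_le (le_max_right _ _)
    have a1 : 1 - r ζ ≤ max (u ζ) c := by
      have := le_max_left (1 - max (u ζ) c) 0
      simp only [r]; linarith
    have a2 : (max (u ζ) c)⁻¹ ≤ (1 - r ζ)⁻¹ := inv_anti₀ (by linarith [r1 ζ]) a1
    have a3 : max (u ζ - c) 0 = max (u ζ) c - c := by rw [← max_sub_sub_right, sub_self]
    have a4 : w ζ * (max (u ζ) c)⁻¹ ≤ 1 := by
      rw [← div_eq_mul_inv, div_le_one hU]; exact (hwu ζ).trans (le_max_left _ _)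
    have a5 : w ζ = (w ζ * (max (u ζ) c)⁻¹) * max (u ζ) c := by field_simp
    have a6 := mul_le_mul_of_nonneg_left (mul_le_mul_of_nonneg_left a2 (hw0 ζ)) hc.le
    have a7 : 0 ≤ max (u ζ) c - c := sub_nonneg.mpr (le_max_right _ _)
    rw [a3]
    nlinarith [mul_le_mul_of_nonneg_right a4 a7]
  have := mul_le_mul_of_nonneg_left k1 (h0 ζ)
  change μ ζ * w ζ ≤ c * (μ ζ * (w ζ * (1 - r ζ)⁻¹)) + μ ζ * max (u ζ - c) 0
  nlinarith

lemma retry {μ : X × Y → ℝ} (h0 : ∀ ζ, 0 ≤ μ ζ) {V : X → Y → A → B → Bool} {v : ℝ}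
    (hv : Val μ V v) (Ψ : Matrix α β ℂ)
    {M : X → A → Matrix α α ℂ} (hM : ∀ x a, (M x a).PosSemidef) {p : X → Matrix α α ℂ}
    (h1 : ∀ x, (p x - ∑ a, M x a).PosSemidef) (h2 : ∀ x, (1 - p x).PosSemidef)
    {N : Y → B → Matrix β β ℂ} (hN : ∀ y b, (N y b).PosSemidef) {q : Y → Matrix β β ℂ}
    (h3 : ∀ y, (q y - ∑ b, N y b).PosSemidef) (h4 : ∀ y, (1 - q y).PosSemidef)
    {c : ℝ} (hc : 0 < c) :
    ∑ ζ, μ ζ * qf (V ζ.1 ζ.2) Ψ (M ζ.1) (N ζ.2) ≤ c * v +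
      ∑ ζ, μ ζ * max (ev Ψ (p ζ.1) 1 + ev Ψ 1 (q ζ.2) - ev Ψ (p ζ.1) (q ζ.2) - c) 0 := by
  rcases (nrm_nonneg Ψ).eq_or_lt with hz | hz
  · have : ∀ ζ : X × Y, qf (V ζ.1 ζ.2) Ψ (M ζ.1) (N ζ.2) ≤ 0 := fun ζ => by
      have := qf_le_nrm (V ζ.1 ζ.2) Ψ (M := M ζ.1) (N := N ζ.2)
        ⟨hM _, by simpa using (h1 ζ.1).add (h2 ζ.1)⟩ ⟨hN _, by simpa using (h3 ζ.2).add (h4 ζ.2)⟩
      rw [← hz] at this; simpa using this
    have a1 : ∑ ζ, μ ζ * qf (V ζ.1 ζ.2) Ψ (M ζ.1) (N ζ.2) ≤ 0 :=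
      Finset.sum_nonpos fun ζ _ => mul_nonpos_of_nonneg_of_nonpos (h0 ζ) (this ζ)
    have a2 := mul_nonneg hc.le (hv.nonneg h0)
    have a3 : 0 ≤ ∑ ζ, μ ζ * max (ev Ψ (p ζ.1) 1 + ev Ψ 1 (q ζ.2) - ev Ψ (p ζ.1) (q ζ.2) - c) 0 :=
      Finset.sum_nonneg fun ζ _ => mul_nonneg (h0 ζ) (le_max_right _ _)
    linarith
  · set s := (nrm Ψ)⁻¹ with hs
    have hs0 : 0 < s := inv_pos.mpr hz
    have hs2 : 0 < s ^ 2 := by positivity
    have := retry_norm h0 hv (Ψ := s • Ψ) (by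
      rw [nrm_smul, abs_of_pos hs0, hs]; field_simp) hM h1 h2 hN h3 h4 (c := s ^ 2 * c) (by positivity)
    simp only [qf_smul, ev_smul] at this
    have e : ∀ a b d : ℝ, max (s ^ 2 * a + s ^ 2 * b - s ^ 2 * d - s ^ 2 * c) 0 =
        s ^ 2 * max (a + b - d - c) 0 := fun a b d => by
      rw [mul_max_of_nonneg _ _ hs2.le]; congr 1 <;> ring
    simp only [e, mul_left_comm (μ _) (s ^ 2), ← Finset.mul_sum] at this
    rw [mul_assoc, ← mul_add] at this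
    exact le_of_mul_le_mul_left this hs2

end Crest.Agent.PR
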