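import Crest.Agent.PR.Asm
import Crest.Agent.PR.Retry
import Crest.Prelude.Def_NonlocalGame

/-! Translation between the frozen definitions and the matrix formalism. -/

set_option linter.unusedSectionVars false

namespace Crest.Agent.PR

open Matrix Function Crest.MathPhysics.NonlocalGame
open scoped ComplexOrder MatrixOrder Kronecker

lemma ev_eq_dot {α β : Type} [Fintype α] [Fintype β] [DecidableEq α] [DecidableEq β]
    (ψ : α × β → ℂ) (M : Matrix α α ℂ) (N : Matrix β β ℂ) :
    (dotProduct (star ψ) ((M ⊗ₖ N).mulVec ψ)).re = ev (Matrix.of fun i j => ψ (i, j)) M Nᵀ := by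
  unfold ev
  congr 1
  simp only [dotProduct, mulVec, trace, diag, Matrix.mul_apply, conjTranspose_apply, of_apply,
    transpose_apply, Fintype.sum_prod_type, kronecker_apply, Pi.star_apply, Finset.sum_mul,
    Finset.mul_sum]
  rw [Finset.sum_comm]
  refine Finset.sum_congr rfl fun j _ => ?_
  rw [Finset.sum_congr rfl fun i _ => Finset.sum_comm, Finset.sum_comm]
  refine Finset.sum_congr rfl fun j' _ => ?_
  rw [Finset.sum_comm]
  refine Finset.sum_congr rfl fun i' _ => Finset.sum_congr rfl fun i _ => ?_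
  ring

lemma ev_submatrix {α β α' β' : Type} [Fintype α] [Fintype β] [DecidableEq α] [DecidableEq β]
    [Fintype α'] [Fintype β'] [DecidableEq α'] [DecidableEq β'] (e : α' ≃ α) (f : β' ≃ β)
    (Ψ : Matrix α β ℂ) (M : Matrix α α ℂ) (N : Matrix β β ℂ) :
    ev (Ψ.submatrix e f) (M.submatrix e e) (N.submatrix f f) = ev Ψ M N := by
  unfold ev
  rw [conjTranspose_submatrix, submatrix_mul_equiv, submatrix_mul_equiv, submatrix_mul_equiv]
  congr 1
  exact f.sum_comp (fun j => (Ψᴴ * M * Ψ * N) j j)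

/-- question distribution on pairs -/
def mu (G : Game) (ζ : Fin G.nX × Fin G.nY) : ℝ := G.prob ζ.1 ζ.2

lemma mu_nonneg (G : Game) (ζ : Fin G.nX × Fin G.nY) : 0 ≤ mu G ζ := G.prob_nonneg _ _

lemma mu_sum (G : Game) : ∑ ζ, mu G ζ = 1 := by
  rw [Fintype.sum_prod_type]; exact G.prob_sum

lemma prob_eq {G : Game} {k dA dB : ℕ} (S : Strategy G k dA dB) (t : ℝ) :
    S.probWinsAtLeast t = EE (mu G) (Matrix.of fun i j => S.ψ (i, j)) S.M (fun y b => (S.N y b)ᵀ)
      (fun z a b => if t ≤ ∑ i, Wn G.accept i z a b then 1 else 0) := by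
  unfold Strategy.probWinsAtLeast EE Ex
  rw [← Fintype.sum_prod_type', ← (Equiv.arrowProdEquivProdArrow (Fin k) (fun _ => Fin G.nX)
    (fun _ => Fin G.nY)).sum_comp]
  refine Finset.sum_congr rfl fun z _ => ?_
  congr 1
  refine Finset.sum_congr rfl fun a _ => Finset.sum_congr rfl fun b _ => ?_
  have : (wins G k (fun i => (z i).1) (fun i => (z i).2) a b : ℝ) = ∑ i, Wn G.accept i z a b := by
    unfold wins Wn
    rw [Finset.sum_boole]
  change (if t ≤ (wins G k (fun i => (z i).1) (fun i => (z i).2) a b : ℝ) then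
    S.answerProb (fun i => (z i).1) (fun i => (z i).2) a b else 0) = _
  rw [this]
  unfold Strategy.answerProb
  rw [ev_eq_dot]
  split_ifs with h <;> simp [h]

lemma nrm_psi {G : Game} {k dA dB : ℕ} (S : Strategy G k dA dB) :
    nrm (Matrix.of fun i j => S.ψ (i, j)) ^ 2 = 1 := by
  rw [nrm_sq_sum, ← S.ψ_norm, Fintype.sum_prod_type]; rfl

/-- completion of a sub-measurement -/
lemma exists_complete {α A : Type} [Fintype α] [DecidableEq α] [Fintype A] [DecidableEq A]
    [Nonempty A] {M : A → Matrix α α ℂ} (h : SubP M) :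
    ∃ M' : A → Matrix α α ℂ, (∀ a, (M' a).PosSemidef) ∧ (∀ a, (M' a - M a).PosSemidef) ∧
      ∑ a, M' a = 1 := by
  obtain ⟨a₀⟩ := ‹Nonempty A›
  have : ∀ a, (if a = a₀ then 1 - ∑ a, M a else 0).PosSemidef := fun a => by
    split_ifs; exacts [h.2, PosSemidef.zero]
  refine ⟨fun a => M a + if a = a₀ then 1 - ∑ a, M a else 0, fun a => (h.1 a).add (this a),
    fun a => by simpa using this a, ?_⟩
  simp [Finset.sum_add_distrib]

lemma val_of_hv (G : Game) [Nonempty (Fin G.nA)] [Nonempty (Fin G.nB)] {v : ℝ}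
    (hv : ∀ (dA dB : ℕ) (S : Strategy G 1 dA dB), S.probWinsAtLeast 1 ≤ v) :
    Val (mu G) G.accept v := by
  intro α β _ _ _ _ Ψ M N hΨ hM hN
  choose M' hM1 hM2 hM3 using fun x => exists_complete (hM x)
  choose N' hN1 hN2 hN3 using fun y => exists_complete (hN y)
  let e := (Fintype.equivFin α).symm
  let f := (Fintype.equivFin β).symm
  have sA : ∀ (F : Fin G.nA → Matrix α α ℂ), ∑ a : Fin 1 → Fin G.nA, F (a 0) = ∑ a, F a :=
    fun F => (Equiv.funUnique (Fin 1) (Fin G.nA)).sum_comp F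
  have sB : ∀ (F : Fin G.nB → Matrix β β ℂ), ∑ a : Fin 1 → Fin G.nB, F (a 0) = ∑ a, F a :=
    fun F => (Equiv.funUnique (Fin 1) (Fin G.nB)).sum_comp F
  let S : Strategy G 1 (Fintype.card α) (Fintype.card β) :=
    { ψ := fun p => Ψ (e p.1) (f p.2)
      ψ_norm := by
        rw [← hΨ, nrm_sq_sum, Fintype.sum_prod_type, ← e.sum_comp]
        exact Finset.sum_congr rfl fun i _ => f.sum_comp (fun j => ‖Ψ (e i) j‖ ^ 2)
      M := fun x a => (M' (x 0) (a 0)).submatrix e e
      N := fun y b => ((N' (y 0) (b 0)).submatrix f f)ᵀ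
      M_posSemidef := fun x a => (hM1 _ _).submatrix e
      N_posSemidef := fun y b => ((hN1 _ _).submatrix f).transpose
      M_sum := fun x => by
        have := congrArg (fun T : Matrix α α ℂ => T.submatrix e e) ((sA (M' (x 0))).trans (hM3 _))
        simp only [submatrix_one_equiv] at this
        rw [← this]
        ext i j; simp [Matrix.sum_apply]
      N_sum := fun y => by
        have := congrArg (fun T : Matrix β β ℂ => (T.submatrix f f)ᵀ)
          ((sB (N' (y 0))).trans (hN3 _))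
        simp only [submatrix_one_equiv, transpose_one] at this
        rw [← this]
        ext i j; simp [Matrix.sum_apply] }
  refine le_trans ?_ (hv _ _ S)
  rw [prob_eq]
  unfold EE Ex
  rw [← (Equiv.funUnique (Fin 1) (Fin G.nX × Fin G.nY)).sum_comp]
  refine Finset.sum_le_sum fun z _ => ?_
  have : PW (mu G) z = mu G (z 0) := by simp [PW]
  rw [this]
  refine mul_le_mul_of_nonneg_left ?_ (mu_nonneg G _)
  unfold qf
  rw [← (Equiv.funUnique (Fin 1) (Fin G.nA)).sum_comp]
  refine Finset.sum_le_sum fun a _ => ?_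
  rw [← (Equiv.funUnique (Fin 1) (Fin G.nB)).sum_comp]
  refine Finset.sum_le_sum fun b _ => ?_
  have e1 : ev (Matrix.of fun i j => S.ψ (i, j)) (S.M (fun j => (z j).1) a) (S.N (fun j => (z j).2) b)ᵀ =
      ev Ψ (M' (z 0).1 (a 0)) (N' (z 0).2 (b 0)) := ev_submatrix e f Ψ _ _
  simp only [e1, Fin.sum_univ_one, Wn, Equiv.funUnique_apply, Fin.default_eq_zero]
  by_cases h : G.accept (z 0).1 (z 0).2 (a 0) (b 0) = true
  · simp only [h, if_true, le_refl, one_mul]
    exact (ev_mono_left Ψ (hM2 _ _) ((hN _).1 _)).trans (ev_mono_right Ψ (hM1 _ _) (hN2 _ _))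
  · simp [h, zero_lt_one.not_ge]

lemma final {G : Game} {v δ L : ℝ}
    (hv : ∀ (dA dB : ℕ) (S : Strategy G 1 dA dB), S.probWinsAtLeast 1 ≤ v)
    (hR : Val (mu G) G.accept v → Round (mu G) G.accept v (δ / 4) L) (hL : 1 ≤ L)
    (hδ : 0 < δ) (hδv : δ < 1 - v) {k dA dB : ℕ} (S : Strategy G k dA dB) (hk : 1 ≤ k) :
    S.probWinsAtLeast ((v + δ) * k) ≤
      Real.exp (-(δ ^ 2 / (64 * L * (1 + Real.log ((G.nA * G.nB : ℕ) : ℝ))) * k)) := by
  have : Nonempty (Fin k) := ⟨⟨0, hk⟩⟩
  have hXY : Nonempty (Fin G.nX × Fin G.nY) := by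
    by_contra h
    have := mu_sum G
    rw [not_nonempty_iff] at h
    simp at this
  obtain ⟨x₀, y₀⟩ := hXY
  have : Nonempty (Fin G.nX) := ⟨x₀⟩
  have : Nonempty (Fin G.nY) := ⟨y₀⟩
  have hd : Nonempty (Fin dA × Fin dB) := by
    by_contra h
    have := S.ψ_norm
    rw [not_nonempty_iff] at h
    simp at this
  obtain ⟨i₀, j₀⟩ := hd
  have : Nonempty (Fin G.nA) := by
    by_contra h
    rw [not_nonempty_iff] at h
    have := congrFun (congrFun (S.M_sum fun _ => x₀) i₀) i₀
    simp at this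
  have : Nonempty (Fin G.nB) := by
    by_contra h
    rw [not_nonempty_iff] at h
    have := congrFun (congrFun (S.N_sum fun _ => y₀) j₀) j₀
    simp at this
  have hval := val_of_hv G hv
  have := asm (mu_nonneg G) (mu_sum G) (hR hval) hL (hval.nonneg (mu_nonneg G)) hδ hδv (nrm_psi S)
    S.M_posSemidef S.M_sum (N := fun y b => (S.N y b)ᵀ) (fun y b => (S.N_posSemidef y b).transpose)
    (fun y => by rw [← transpose_sum, S.N_sum, transpose_one])
  rw [prob_eq]
  simpa using this

lemma delta_lt_one {G : Game} {v δ : ℝ}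
    (hv : ∀ (dA dB : ℕ) (S : Strategy G 1 dA dB), S.probWinsAtLeast 1 ≤ v)
    (hδv : δ < 1 - v) {k dA dB : ℕ} (S : Strategy G k dA dB) (hk : 1 ≤ k) : δ < 1 := by
  have : Nonempty (Fin k) := ⟨⟨0, hk⟩⟩
  have hXY : Nonempty (Fin G.nX × Fin G.nY) := by
    by_contra h
    have := mu_sum G
    rw [not_nonempty_iff] at h
    simp at this
  obtain ⟨x₀, y₀⟩ := hXY
  have hd : Nonempty (Fin dA × Fin dB) := by
    by_contra h
    have := S.ψ_norm
    rw [not_nonempty_iff] at h
    simp at this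
  obtain ⟨i₀, j₀⟩ := hd
  have : Nonempty (Fin G.nA) := by
    by_contra h
    rw [not_nonempty_iff] at h
    have := congrFun (congrFun (S.M_sum fun _ => x₀) i₀) i₀
    simp at this
  have : Nonempty (Fin G.nB) := by
    by_contra h
    rw [not_nonempty_iff] at h
    have := congrFun (congrFun (S.N_sum fun _ => y₀) j₀) j₀
    simp at this
  have := (val_of_hv G hv).nonneg (mu_nonneg G)
  linarith

end Crest.Agent.PR
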