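import Crest.Agent.PR.Dir

/-! From a rounding property to a bound on conditional winning probabilities. -/

set_option linter.unusedSectionVars false

namespace Crest.Agent.PR

open Matrix Function
open scoped ComplexOrder MatrixOrder

variable {α β : Type} [Fintype α] [Fintype β] [DecidableEq α] [DecidableEq β]
variable {ι X Y A B : Type} [Fintype ι] [DecidableEq ι]
  [Fintype X] [DecidableEq X] [Fintype Y] [DecidableEq Y]
  [Fintype A] [DecidableEq A] [Fintype B] [DecidableEq B]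

/-- rounding property of a game -/
def Round (μ : X × Y → ℝ) (V : X → Y → A → B → Bool) (v θ L : ℝ) : Prop :=
  ∀ (α β : Type) [Fintype α] [DecidableEq α] [Fintype β] [DecidableEq β]
    (Φ : X × Y → Matrix α β ℂ) (a : X → Matrix α β ℂ) (b : Y → Matrix α β ℂ)
    (M : X → A → Matrix α α ℂ) (N : Y → B → Matrix β β ℂ) (p : ℝ), 0 < p →
    (∀ x, SubP (M x)) → (∀ y, SubP (N y)) →
    ∑ ζ, μ ζ * qf (V ζ.1 ζ.2) (Φ ζ) (M ζ.1) (N ζ.2) ≤ p * (v + θ) +
      L * (∑ ζ, μ ζ * nrm (Φ ζ - b ζ.2) ^ 2 + ∑ ζ, μ ζ * nrm (Φ ζ - a ζ.1) ^ 2 +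
        ∑ ζ, μ ζ * (nrm (Φ ζ) - √p) ^ 2)

lemma tower2 {Z : Type} [Fintype Z] [DecidableEq Z] {μ : Z → ℝ} (h0 : ∀ ζ, 0 ≤ μ ζ)
    (π₁ : Z → X) (π₂ : Z → Y) (Ψ : Matrix α β ℂ) (P : (ι → X) → Matrix α α ℂ)
    (Q : (ι → Y) → Matrix β β ℂ) (g : (ι → Z) → ℝ) {S S' : Finset ι} (hd : ∀ j ∈ S', j ∉ S)
    (hg : ∀ j ∈ S, ∀ z ζ, g (update z j ζ) = g z) (hg' : ∀ j ∈ S', ∀ z ζ, g (update z j ζ) = g z) :
    Ex μ (fun z => g z * ev Ψ (avg μ π₁ π₂ S P z) (avg μ π₂ π₁ S' Q z)) =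
    Ex μ (fun z => g z * ev Ψ (P (fun j => π₁ (z j))) (Q (fun j => π₂ (z j)))) := by
  have t1 := tower π₂ π₁ h0 S' Q (fun z => g z • evR Ψ (avg μ π₁ π₂ S P z))
    (fun j hj z ζ h => by rw [hg' j hj, avg_out π₁ π₂ (hd j hj) P z h])
  have t2 := tower π₁ π₂ h0 S P (fun z => g z • evL Ψ (Q (fun j => π₂ (z j))))
    (fun j hj z ζ h => by
      rw [hg j hj]
      congr 3
      funext j'
      by_cases hj' : j' = j
      · subst hj'; simp [h]
      · simp [update_of_ne hj'])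
  simp only [LinearMap.smul_apply, evL_apply, evR_apply, smul_eq_mul] at t1 t2
  rw [t1, t2]

lemma subP_block {o : Type} [Fintype o] [DecidableEq o] {M : o → A → Matrix α α ℂ}
    (h : ∀ l, SubP (M l)) : SubP (fun a => blockDiagonal (fun l => M l a)) := by
  refine ⟨fun a => psd_block fun l => (h l).1 a, ?_⟩
  rw [block_sum]
  exact psd_one_sub_block fun l => (h l).2

variable {LA LB : Type} [Fintype LA] [DecidableEq LA] [Fintype LB] [DecidableEq LB]

lemma core_coord [Nonempty X] [Nonempty Y] {μ : X × Y → ℝ} (h0 : ∀ ζ, 0 ≤ μ ζ) (h1 : ∑ ζ, μ ζ = 1)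
    {V : X → Y → A → B → Bool} {v θ L : ℝ} (hR : Round μ V v θ L)
    (Ψ : Matrix α β ℂ)
    {P : LA → (ι → X) → Matrix α α ℂ} (hP : ∀ l x, Ctr (P l x))
    {Q : LB → (ι → Y) → Matrix β β ℂ} (hQ : ∀ l y, Ctr (Q l y))
    (P' : LA → A → (ι → X) → Matrix α α ℂ) (hP' : ∀ l a x, (P' l a x).PosSemidef)
    (hPP : ∀ l x, ∑ a, P' l a x = P l x)
    (Q' : LB → B → (ι → Y) → Matrix β β ℂ) (hQ' : ∀ l b y, (Q' l b y).PosSemidef)
    (hQQ : ∀ l y, ∑ b, Q' l b y = Q l y)
    (w : (ι → X × Y) → LA → LB → ℝ) (hw0 : ∀ z l l', 0 ≤ w z l l') {S S' : Finset ι} {i : ι}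
    (hi : i ∉ S) (hi' : i ∉ S') (hd : ∀ j ∈ S', j ∉ S) (hwi : ∀ z ζ, w (update z i ζ) = w z)
    (hw : ∀ j ∈ S, ∀ z ζ, w (update z j ζ) = w z) (hw' : ∀ j ∈ S', ∀ z ζ, w (update z j ζ) = w z)
    {p : ℝ} (hp : 0 < p) :
    ∃ n : X × Y → ℝ, (∀ ζ, 0 ≤ n ζ) ∧
      (∀ g : X × Y → ℝ, ∑ ζ, μ ζ * (g ζ * n ζ ^ 2) =
        Ex μ (fun z => g (z i) * FF Prod.fst Prod.snd Ψ P Q w z)) ∧
      ∑ l, ∑ l', ∑ a, ∑ b, Ex μ (fun z => (w z l l' * if V (z i).1 (z i).2 a b then 1 else 0) *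
        ev Ψ (P' l a (fun j => (z j).1)) (Q' l' b (fun j => (z j).2))) ≤ p * (v + θ) +
      L * (∑ l, ∑ l', Ex μ (fun z => w z l l' *
          ev Ψ (Dm (avg μ Prod.fst Prod.snd S (P l) z) (avg μ Prod.fst Prod.snd (insert i S) (P l) z))
            (avg μ Prod.snd Prod.fst S' (Q l') z)) +
        ∑ l', ∑ l, Ex μ (fun z => w z l l' *
          ev Ψᴴ (Dm (avg μ Prod.snd Prod.fst S' (Q l') z)
            (avg μ Prod.snd Prod.fst (insert i S') (Q l') z)) (avg μ Prod.fst Prod.snd S (P l) z)) +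
        ∑ ζ, μ ζ * (n ζ - √p) ^ 2) := by
  classical
  obtain ⟨x₀⟩ := ‹Nonempty X›
  obtain ⟨y₀⟩ := ‹Nonempty Y›
  let aP : Finset ι → LA → (ι → X × Y) → Matrix α α ℂ := fun T l z => avg μ Prod.fst Prod.snd T (P l) z
  let aQ : Finset ι → LB → (ι → X × Y) → Matrix β β ℂ := fun T l z => avg μ Prod.snd Prod.fst T (Q l) z
  have cP : ∀ T l z, Ctr (aP T l z) := fun T l z => ctr_avg h0 _ _ T (hP l) z
  have cQ : ∀ T l z, Ctr (aQ T l z) := fun T l z => ctr_avg h0 _ _ T (hQ l) z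
  obtain ⟨SA, hSA⟩ := exists_dil (I := Finset ι × LA × (ι → X × Y)) (fun t => aP t.1 t.2.1 t.2.2)
    (fun t => cP _ _ _)
  obtain ⟨SB, hSB⟩ := exists_dil (I := Finset ι × LB × (ι → X × Y)) (fun t => aQ t.1 t.2.1 t.2.2)
    (fun t => cQ _ _ _)
  have gA : ∀ T l z T' l' z', (SA (aP T l z))ᴴ * SA (aP T' l' z') = Gm (aP T l z) (aP T' l' z') :=
    fun T l z T' l' z' => hSA (T, l, z) (T', l', z')
  have gB : ∀ T l z T' l' z', (SB (aQ T l z))ᴴ * SB (aQ T' l' z') = Gm (aQ T l z) (aQ T' l' z') :=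
    fun T l z T' l' z' => hSB (T, l, z) (T', l', z')
  have sA : ∀ T l z, (SA (aP T l z))ᴴ * SA (aP T l z) = aP T l z := fun T l z => by
    rw [gA, Gm_self (cP _ _ _)]
  have sB : ∀ T l z, (SB (aQ T l z))ᴴ * SB (aQ T l z) = aQ T l z := fun T l z => by
    rw [gB, Gm_self (cQ _ _ _)]
  have dA : ∀ T T' l z, (SA (aP T l z) - SA (aP T' l z))ᴴ * (SA (aP T l z) - SA (aP T' l z)) =
      Dm (aP T l z) (aP T' l z) := fun T T' l z => by
    simp only [conjTranspose_sub, Matrix.sub_mul, Matrix.mul_sub, gA, Dm]; abel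
  have dB : ∀ T T' l z, (SB (aQ T l z) - SB (aQ T' l z))ᴴ * (SB (aQ T l z) - SB (aQ T' l z)) =
      Dm (aQ T l z) (aQ T' l z) := fun T T' l z => by
    simp only [conjTranspose_sub, Matrix.sub_mul, Matrix.mul_sub, gB, Dm]; abel
  let c : (ι → X × Y) × LA × LB → ℝ := fun t => √(PW μ t.1 * w t.1 t.2.1 t.2.2)
  have hc : ∀ t, c t ^ 2 = PW μ t.1 * w t.1 t.2.1 t.2.2 := fun t =>
    Real.sq_sqrt (mul_nonneg (PW_nonneg h0 _) (hw0 _ _ _))
  let blk := fun (T T' : Finset ι) (ζ : X × Y) => blockDiagonal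
    (fun t : (ι → X × Y) × LA × LB =>
      c t • (SA (aP T t.2.1 (update t.1 i ζ)) * Ψ * (SB (aQ T' t.2.2 (update t.1 i ζ)))ᴴ))
  -- resampling
  have res : ∀ G : (ι → X × Y) → LA → LB → ℝ,
      ∑ ζ, μ ζ * ∑ t : (ι → X × Y) × LA × LB, c t ^ 2 * G (update t.1 i ζ) t.2.1 t.2.2 =
      ∑ l, ∑ l', Ex μ (fun z => w z l l' * G z l l') := by
    intro G
    simp only [← Ex_sum]
    rw [← Ex_resample h1 i]
    refine Finset.sum_congr rfl fun ζ _ => ?_
    congr 1
    simp only [hc, Fintype.sum_prod_type, Ex, Finset.mul_sum, hwi, mul_assoc]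
  have upd : ∀ (z : ι → X × Y) ζ ξ, update z i ξ = update (update z i ζ) i ξ := fun z ζ ξ => by simp
  have pout : ∀ l z (ζ : X × Y), aP S l (update z i (ζ.1, y₀)) = aP S l (update z i ζ) :=
    fun l z ζ => by rw [upd z ζ]; exact avg_out _ _ hi _ _ (by simp)
  have qout : ∀ l z (ζ : X × Y), aQ S' l (update z i (x₀, ζ.2)) = aQ S' l (update z i ζ) :=
    fun l z ζ => by rw [upd z ζ]; exact avg_out _ _ hi' _ _ (by simp)
  have pin : ∀ l z (ζ : X × Y), aP (insert i S) l (update z i (x₀, ζ.2)) =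
      aP (insert i S) l (update z i ζ) :=
    fun l z ζ => by rw [upd z ζ]; exact avg_in _ _ (Finset.mem_insert_self _ _) _ _ (by simp)
  have qin : ∀ l z (ζ : X × Y), aQ (insert i S') l (update z i (ζ.1, y₀)) =
      aQ (insert i S') l (update z i ζ) :=
    fun l z ζ => by rw [upd z ζ]; exact avg_in _ _ (Finset.mem_insert_self _ _) _ _ (by simp)
  -- measurements
  have lA : ∀ (x : X) (t : (ι → X × Y) × LA × LB), ∃ Mh : A → Matrix (α × Finset ι × LA × (ι → X × Y)) (α × Finset ι × LA × (ι → X × Y)) ℂ, SubP Mh ∧ ∀ a,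
      (SA (aP S t.2.1 (update t.1 i (x, y₀))))ᴴ * Mh a * SA (aP S t.2.1 (update t.1 i (x, y₀))) =
        avg μ Prod.fst Prod.snd S (P' t.2.1 a) (update t.1 i (x, y₀)) := fun x t =>
    exists_lift _ (fun a => psd_avg h0 _ _ S (hP' _ a) _) _ (by
      rw [sA, ← avg_sum]; simp only [hPP, aP])
  have lB : ∀ (y : Y) (t : (ι → X × Y) × LA × LB), ∃ Nh : B → Matrix (β × Finset ι × LB × (ι → X × Y)) (β × Finset ι × LB × (ι → X × Y)) ℂ, SubP Nh ∧ ∀ b,
      (SB (aQ S' t.2.2 (update t.1 i (x₀, y))))ᴴ * Nh b * SB (aQ S' t.2.2 (update t.1 i (x₀, y))) =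
        avg μ Prod.snd Prod.fst S' (Q' t.2.2 b) (update t.1 i (x₀, y)) := fun y t =>
    exists_lift _ (fun b => psd_avg h0 _ _ S' (hQ' _ b) _) _ (by
      rw [sB, ← avg_sum]; simp only [hQQ, aQ])
  choose Mh hMh1 hMh2 using lA
  choose Nh hNh1 hNh2 using lB
  have key := hR _ _ (fun ζ => blk S S' ζ) (fun x => blk S (insert i S') (x, y₀))
    (fun y => blk (insert i S) S' (x₀, y)) (fun x a => blockDiagonal (fun t => Mh x t a))
    (fun y b => blockDiagonal (fun t => Nh y t b)) p hp (fun x => subP_block (hMh1 x))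
    (fun y => subP_block (hNh1 y))
  refine ⟨fun ζ => nrm (blk S S' ζ), fun ζ => nrm_nonneg _, fun g => ?_, ?_⟩
  · have := res (fun z l l' => g (z i) * ev Ψ (aP S l z) (aQ S' l' z))
    simp only [update_self] at this
    have e : ∀ l l', Ex μ (fun z => w z l l' * (g (z i) * ev Ψ (aP S l z) (aQ S' l' z))) =
        Ex μ (fun z => g (z i) * (w z l l' * ev Ψ (P l (fun j => (z j).1)) (Q l' (fun j => (z j).2)))) := by
      intro l l'
      have := tower2 h0 Prod.fst Prod.snd Ψ (P l) (Q l') (fun z => w z l l' * g (z i)) hd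
        (fun j hj z ζ => by rw [hw j hj, update_of_ne (ne_of_mem_of_not_mem hj hi).symm])
        (fun j hj z ζ => by rw [hw' j hj, update_of_ne (ne_of_mem_of_not_mem hj hi').symm])
      simp only [mul_assoc] at this
      rw [this]
      congr 1; funext z; ring
    simp only [e, ← Ex_sum, ← Finset.mul_sum] at this
    refine Eq.trans ?_ this
    refine Finset.sum_congr rfl fun ζ _ => ?_
    congr 1
    simp only [blk, nrm_block, Finset.mul_sum]
    refine Finset.sum_congr rfl fun t _ => ?_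
    rw [nrm_smul, mul_pow, sq_abs, ← ev_factor, sA, sB]; ring
  · convert key using 2
    · have := res (fun z l l' => ∑ a, ∑ b, (if V (z i).1 (z i).2 a b then 1 else 0) *
        ev Ψ (avg μ Prod.fst Prod.snd S (P' l a) z) (avg μ Prod.snd Prod.fst S' (Q' l' b) z))
      simp only [update_self] at this
      refine Eq.trans ?_ (this.symm.trans ?_)
      · refine Finset.sum_congr rfl fun l _ => Finset.sum_congr rfl fun l' _ => ?_
        simp only [Finset.mul_sum, Ex_sum]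
        refine Finset.sum_congr rfl fun a _ => Finset.sum_congr rfl fun b _ => ?_
        have := tower2 h0 Prod.fst Prod.snd Ψ (P' l a) (Q' l' b)
          (fun z => w z l l' * if V (z i).1 (z i).2 a b then 1 else 0) hd
          (fun j hj z ζ => by rw [hw j hj, update_of_ne (ne_of_mem_of_not_mem hj hi).symm])
          (fun j hj z ζ => by rw [hw' j hj, update_of_ne (ne_of_mem_of_not_mem hj hi').symm])
        rw [← this]
        congr 1; funext z; ring
      · refine Finset.sum_congr rfl fun ζ _ => ?_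
        congr 1
        simp only [qf, blk, ev_block, Finset.mul_sum]
        rw [Finset.sum_comm]
        refine Finset.sum_congr rfl fun a _ => ?_
        rw [Finset.sum_comm]
        refine Finset.sum_congr rfl fun b _ => ?_
        split_ifs
        · refine Finset.sum_congr rfl fun t _ => ?_
          have e1 := hMh2 ζ.1 t a
          have e2 := hNh2 ζ.2 t b
          rw [pout, upd t.1 ζ (ζ.1, y₀), avg_out _ _ hi _ (update t.1 i ζ) (by simp)] at e1
          rw [qout, upd t.1 ζ (x₀, ζ.2), avg_out _ _ hi' _ (update t.1 i ζ) (by simp)] at e2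
          rw [ev_smul, ev_sandwich, e1, e2, one_mul]
        · simp
    · congr 1
      congr 1
      congr 1
      · rw [← res (fun z l l' => ev Ψ (Dm (aP S l z) (aP (insert i S) l z)) (aQ S' l' z))]
        refine Finset.sum_congr rfl fun ζ _ => ?_
        congr 1
        simp only [blk, ← blockDiagonal_sub, nrm_block]
        refine Finset.sum_congr rfl fun t _ => ?_
        rw [Pi.sub_apply, pin, qout, ← smul_sub, ← Matrix.sub_mul, ← Matrix.sub_mul, nrm_smul,
          mul_pow, sq_abs, ← ev_factor, dA, sB]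
      · rw [Finset.sum_comm]
        simp only [ev_swap]
        rw [← res (fun z l l' => ev Ψ (aP S l z) (Dm (aQ S' l' z) (aQ (insert i S') l' z)))]
        refine Finset.sum_congr rfl fun ζ _ => ?_
        congr 1
        simp only [blk, ← blockDiagonal_sub, nrm_block]
        refine Finset.sum_congr rfl fun t _ => ?_
        rw [Pi.sub_apply, pout, qin, ← smul_sub, ← Matrix.mul_sub, ← conjTranspose_sub, nrm_smul,
          mul_pow, sq_abs, ← ev_factor, dB, sA]

end Crest.Agent.PR
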