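import Crest.Agent.PR.Fn

/-! Canonical dilation `A = ∫ g_s(A)² ds` and the operator entropy gap. -/

set_option linter.unusedSectionVars false

namespace Crest.Agent.PR

open Matrix
open scoped ComplexOrder MatrixOrder

variable {α β γ : Type} [Fintype α] [Fintype β] [Fintype γ]
  [DecidableEq α] [DecidableEq β] [DecidableEq γ]

/-- entrywise continuity on `[0,1]` -/
def MC (F : ℝ → Matrix α β ℂ) : Prop := ∀ j k, ContinuousOn (fun s => F s j k) (Set.Icc 0 1)

/-- matrix integral over `[0,1]` -/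
noncomputable def mint (F : ℝ → Matrix α β ℂ) : Matrix α β ℂ :=
  Matrix.of (∫ s in (0:ℝ)..1, (Matrix.of.symm (F s) : α → β → ℂ))

lemma MC.int {F : ℝ → Matrix α β ℂ} (h : MC F) :
    IntervalIntegrable (fun s => (Matrix.of.symm (F s) : α → β → ℂ)) MeasureTheory.volume 0 1 := by
  apply ContinuousOn.intervalIntegrable_of_Icc zero_le_one
  exact continuousOn_pi.2 fun j => continuousOn_pi.2 fun k => h j k

lemma lin_mint {E : Type} [NormedAddCommGroup E] [NormedSpace ℝ E] [CompleteSpace E]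
    (L : Matrix α β ℂ →ₗ[ℝ] E) {F : ℝ → Matrix α β ℂ} (h : MC F) :
    L (mint F) = ∫ s in (0:ℝ)..1, L (F s) := by
  let L' : (α → β → ℂ) →ₗ[ℝ] E := L ∘ₗ (Matrix.ofLinearEquiv ℝ).toLinearMap
  have := (LinearMap.toContinuousLinearMap L').intervalIntegral_comp_comm h.int
  exact this.symm

lemma MC.const (M : Matrix α β ℂ) : MC (fun _ => M) := fun _ _ => continuousOn_const
lemma MC.add {F G : ℝ → Matrix α β ℂ} (h : MC F) (h' : MC G) : MC (fun s => F s + G s) :=
  fun j k => (h j k).add (h' j k)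
lemma MC.sub {F G : ℝ → Matrix α β ℂ} (h : MC F) (h' : MC G) : MC (fun s => F s - G s) :=
  fun j k => (h j k).sub (h' j k)
lemma MC.smul {F : ℝ → Matrix α β ℂ} (c : ℝ) (h : MC F) : MC (fun s => c • F s) :=
  fun j k => (h j k).const_smul c
lemma MC.sum {ι : Type} (t : Finset ι) {F : ι → ℝ → Matrix α β ℂ} (h : ∀ i, MC (F i)) :
    MC (fun s => ∑ i ∈ t, F i s) := by
  intro j k
  simp only [Matrix.sum_apply]
  exact continuousOn_finsetSum _ fun i _ => h i j k
lemma MC.mul {F : ℝ → Matrix α β ℂ} {G : ℝ → Matrix β γ ℂ} (h : MC F) (h' : MC G) :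
    MC (fun s => F s * G s) := by
  intro j k
  simp only [Matrix.mul_apply]
  exact continuousOn_finsetSum _ fun i _ => (h j i).mul (h' i k)
lemma MC.ct {F : ℝ → Matrix α β ℂ} (h : MC F) : MC (fun s => (F s)ᴴ) := by
  intro j k
  simp only [conjTranspose_apply]
  exact (h k j).star
lemma MC.fn (A : Matrix α α ℂ) {f : ℝ → ℝ → ℝ}
    (h : ∀ i, ContinuousOn (fun s => f s (eg A i)) (Set.Icc 0 1)) : MC (fun s => fn A (f s)) := by
  intro j k
  simp only [fn_apply]
  refine continuousOn_finsetSum _ fun i _ => ContinuousOn.mul ?_ continuousOn_const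
  exact Complex.continuous_ofReal.comp_continuousOn (h i)

/-- entry as a linear map -/
noncomputable def entL (j : α) (k : β) : Matrix α β ℂ →ₗ[ℝ] ℂ where
  toFun M := M j k
  map_add' _ _ := rfl
  map_smul' _ _ := rfl

lemma mint_apply {F : ℝ → Matrix α β ℂ} (h : MC F) (j : α) (k : β) :
    mint F j k = ∫ s in (0:ℝ)..1, F s j k := lin_mint (entL j k) h

lemma MC.eint {F : ℝ → Matrix α β ℂ} (h : MC F) (j : α) (k : β) :
    IntervalIntegrable (fun s => F s j k) MeasureTheory.volume 0 1 :=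
  (h j k).intervalIntegrable_of_Icc zero_le_one

lemma mint_add {F G : ℝ → Matrix α β ℂ} (h : MC F) (h' : MC G) :
    mint (fun s => F s + G s) = mint F + mint G := by
  ext j k
  rw [Matrix.add_apply, mint_apply h, mint_apply h', mint_apply (h.add h')]
  exact intervalIntegral.integral_add (h.eint j k) (h'.eint j k)

lemma mint_sub {F G : ℝ → Matrix α β ℂ} (h : MC F) (h' : MC G) :
    mint (fun s => F s - G s) = mint F - mint G := by
  ext j k
  rw [Matrix.sub_apply, mint_apply h, mint_apply h', mint_apply (h.sub h')]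
  exact intervalIntegral.integral_sub (h.eint j k) (h'.eint j k)

lemma mint_smul (c : ℝ) {F : ℝ → Matrix α β ℂ} (h : MC F) :
    mint (fun s => c • F s) = c • mint F := by
  ext j k
  rw [Matrix.smul_apply, mint_apply h, mint_apply (h.smul c)]
  exact intervalIntegral.integral_smul c _

lemma mint_sum {ι : Type} (t : Finset ι) {F : ι → ℝ → Matrix α β ℂ} (h : ∀ i, MC (F i)) :
    mint (fun s => ∑ i ∈ t, F i s) = ∑ i ∈ t, mint (F i) := by
  ext j k
  rw [mint_apply (MC.sum t h), Matrix.sum_apply]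
  simp only [Matrix.sum_apply, fun i => mint_apply (h i)]
  exact intervalIntegral.integral_finsetSum fun i _ => (h i).eint j k

lemma mint_fn (A : Matrix α α ℂ) {f : ℝ → ℝ → ℝ}
    (h : ∀ i, ContinuousOn (fun s => f s (eg A i)) (Set.Icc 0 1)) :
    mint (fun s => fn A (f s)) = fn A (fun a => ∫ s in (0:ℝ)..1, f s a) := by
  ext j k
  rw [mint_apply (MC.fn A h)]
  simp only [fn_apply]
  rw [intervalIntegral.integral_finsetSum]
  · refine Finset.sum_congr rfl fun i _ => ?_
    rw [intervalIntegral.integral_mul_const, intervalIntegral.integral_ofReal]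
  · intro i _
    refine ContinuousOn.intervalIntegrable_of_Icc zero_le_one (ContinuousOn.mul ?_ continuousOn_const)
    exact Complex.continuous_ofReal.comp_continuousOn (h i)

lemma mint_psd {F : ℝ → Matrix α α ℂ} (h : MC F)
    (hp : ∀ s ∈ Set.Ioo (0:ℝ) 1, (F s).PosSemidef) : (mint F).PosSemidef := by
  have key : ∀ (L : Matrix α α ℂ →ₗ[ℝ] ℝ), (∀ s ∈ Set.Ioo (0:ℝ) 1, 0 ≤ L (F s)) →
      0 ≤ L (mint F) := by
    intro L hL
    rw [lin_mint L h, intervalIntegral.integral_of_le zero_le_one,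
      MeasureTheory.integral_Ioc_eq_integral_Ioo]
    exact MeasureTheory.setIntegral_nonneg measurableSet_Ioo hL
  have key0 : ∀ (L : Matrix α α ℂ →ₗ[ℝ] ℝ), (∀ s ∈ Set.Ioo (0:ℝ) 1, L (F s) = 0) →
      L (mint F) = 0 := by
    intro L hL
    apply le_antisymm
    · have := key (-L) fun s hs => by simp [hL s hs]
      simpa using this
    · exact key L fun s hs => (hL s hs).ge
  refine PosSemidef.of_dotProduct_mulVec_nonneg ?_ fun x => ?_
  · ext j k
    let L : Matrix α α ℂ →ₗ[ℝ] ℂ :=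
      { toFun := fun M => star (M k j) - M j k
        map_add' := fun M N => by simp; ring
        map_smul' := fun c M => by simp; ring }
    have hL : ∀ s ∈ Set.Ioo (0:ℝ) 1, L (F s) = 0 := fun s hs => by
      have := congrFun (congrFun (hp s hs).1 j) k
      rw [conjTranspose_apply] at this
      simp only [L, LinearMap.coe_mk, AddHom.coe_mk, this, sub_self]
    have h1 := key0 (Complex.reLm ∘ₗ L) fun s hs => by simp [hL s hs]
    have h2 := key0 (Complex.imLm ∘ₗ L) fun s hs => by simp [hL s hs]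
    have h3 : L (mint F) = 0 := Complex.ext h1 h2
    rw [conjTranspose_apply]
    exact sub_eq_zero.mp h3
  · let L : Matrix α α ℂ →ₗ[ℝ] ℂ :=
      { toFun := fun M => star x ⬝ᵥ (M *ᵥ x)
        map_add' := fun M N => by simp [add_mulVec]
        map_smul' := fun c M => by simp [smul_mulVec] }
    have h1 := key (Complex.reLm ∘ₗ L) fun s hs =>
      (Complex.nonneg_iff.mp ((hp s hs).dotProduct_mulVec_nonneg x)).1
    have h2 := key0 (Complex.imLm ∘ₗ L) fun s hs =>
      (Complex.nonneg_iff.mp ((hp s hs).dotProduct_mulVec_nonneg x)).2.symm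
    exact Complex.nonneg_iff.mpr ⟨h1, h2.symm⟩

/-- scalar dilation kernel -/
noncomputable def gs (s a : ℝ) : ℝ := a / (s + (1 - s) * a)
/-- scalar entropy density -/
noncomputable def ps (s a : ℝ) : ℝ := a * (1 - a) / (s + (1 - s) * a)

lemma den_pos {s a : ℝ} (hs : s ∈ Set.Icc (0:ℝ) 1) (ha : 0 < a) (ha1 : a ≤ 1) :
    0 < s + (1 - s) * a := by
  have := hs.1; have := hs.2; nlinarith

lemma gs_cont {a : ℝ} (ha : 0 ≤ a) (ha1 : a ≤ 1) : ContinuousOn (fun s => gs s a) (Set.Icc 0 1) := by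
  rcases ha.eq_or_lt with h | h
  · subst h; simp [gs, continuousOn_const]
  · exact ContinuousOn.div continuousOn_const (by fun_prop) fun s hs => (den_pos hs h ha1).ne'

lemma ps_cont {a : ℝ} (ha : 0 ≤ a) (ha1 : a ≤ 1) : ContinuousOn (fun s => ps s a) (Set.Icc 0 1) := by
  rcases ha.eq_or_lt with h | h
  · subst h; simp [ps, continuousOn_const]
  · exact ContinuousOn.div continuousOn_const (by fun_prop) fun s hs => (den_pos hs h ha1).ne'

lemma int_gs {a : ℝ} (ha : 0 ≤ a) (ha1 : a ≤ 1) : ∫ s in (0:ℝ)..1, gs s a * gs s a = a := by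
  rcases ha.eq_or_lt with h | h
  · subst h; simp [gs]
  · have := intervalIntegral.integral_eq_sub_of_hasDerivAt (a := 0) (b := 1)
      (f := fun s => a * s / (s + (1 - s) * a)) (f' := fun s => gs s a * gs s a) ?_ ?_
    · rw [this]; simp
    · intro s hs
      rw [Set.uIcc_of_le zero_le_one] at hs
      have hd := (den_pos hs h ha1).ne'
      have h1 : HasDerivAt (fun s => a * s) a s := by simpa using (hasDerivAt_id s).const_mul a
      have h2 : HasDerivAt (fun s => s + (1 - s) * a) (1 - a) s := by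
        have := (hasDerivAt_id s).add (((hasDerivAt_id s).const_sub 1).mul_const a)
        exact this.congr_deriv (by ring)
      refine (h1.div h2 hd).congr_deriv ?_
      unfold gs; field_simp; ring
    · exact ((gs_cont ha ha1).mul (gs_cont ha ha1)).intervalIntegrable_of_Icc zero_le_one

lemma int_ps {a : ℝ} (ha : 0 ≤ a) (ha1 : a ≤ 1) : ∫ s in (0:ℝ)..1, ps s a = Real.negMulLog a := by
  rcases ha.eq_or_lt with h | h
  · subst h; simp [ps]
  · have := intervalIntegral.integral_eq_sub_of_hasDerivAt (a := 0) (b := 1)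
      (f := fun s => a * Real.log (s + (1 - s) * a)) (f' := fun s => ps s a) ?_ ?_
    · rw [this]; simp [Real.negMulLog]
    · intro s hs
      rw [Set.uIcc_of_le zero_le_one] at hs
      have hd := (den_pos hs h ha1).ne'
      have h2 : HasDerivAt (fun s => s + (1 - s) * a) (1 - a) s := by
        have := (hasDerivAt_id s).add (((hasDerivAt_id s).const_sub 1).mul_const a)
        exact this.congr_deriv (by ring)
      refine ((h2.log hd).const_mul a).congr_deriv ?_
      unfold ps; field_simp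
    · exact (ps_cont ha ha1).intervalIntegrable_of_Icc zero_le_one

/-- positive contraction -/
def Ctr (A : Matrix α α ℂ) : Prop := A.PosSemidef ∧ (1 - A).PosSemidef

lemma Ctr.nn {A : Matrix α α ℂ} (h : Ctr A) (i : α) : 0 ≤ eg A i := eg_nonneg h.1 i
lemma Ctr.le {A : Matrix α α ℂ} (h : Ctr A) (i : α) : eg A i ≤ 1 := eg_le_one h.1.1 h.2 i
lemma Ctr.mcg {A : Matrix α α ℂ} (h : Ctr A) : MC (fun s => fn A (gs s)) :=
  MC.fn A fun i => gs_cont (h.nn i) (h.le i)
lemma Ctr.mcp {A : Matrix α α ℂ} (h : Ctr A) : MC (fun s => fn A (ps s)) :=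
  MC.fn A fun i => ps_cont (h.nn i) (h.le i)

/-- Gram kernel -/
noncomputable def Gm (A B : Matrix α α ℂ) : Matrix α α ℂ :=
  mint (fun s => fn A (gs s) * fn B (gs s))

/-- operator entropy -/
noncomputable def eta (A : Matrix α α ℂ) : Matrix α α ℂ := fn A Real.negMulLog

/-- squared operator distance -/
noncomputable def Dm (A B : Matrix α α ℂ) : Matrix α α ℂ := Gm A A - Gm A B - Gm B A + Gm B B

lemma Gm_self {A : Matrix α α ℂ} (h : Ctr A) : Gm A A = A := by
  unfold Gm
  simp only [fn_mul]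
  rw [mint_fn A (f := fun s x => gs s x * gs s x)
    fun i => (gs_cont (h.nn i) (h.le i)).mul (gs_cont (h.nn i) (h.le i))]
  conv_rhs => rw [← fn_id h.1.1]
  exact fn_congr fun i => int_gs (h.nn i) (h.le i)

lemma eta_eq {A : Matrix α α ℂ} (h : Ctr A) : eta A = mint (fun s => fn A (ps s)) := by
  rw [mint_fn A fun i => ps_cont (h.nn i) (h.le i)]
  exact fn_congr fun i => (int_ps (h.nn i) (h.le i)).symm

lemma Dm_eq {A B : Matrix α α ℂ} (hA : Ctr A) (hB : Ctr B) :
    Dm A B = mint (fun s => (fn A (gs s) - fn B (gs s))ᴴ * (fn A (gs s) - fn B (gs s))) := by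
  unfold Dm Gm
  rw [← mint_sub (hA.mcg.mul hA.mcg) (hA.mcg.mul hB.mcg),
    ← mint_sub ((hA.mcg.mul hA.mcg).sub (hA.mcg.mul hB.mcg)) (hB.mcg.mul hA.mcg),
    ← mint_add (((hA.mcg.mul hA.mcg).sub (hA.mcg.mul hB.mcg)).sub (hB.mcg.mul hA.mcg))
      (hB.mcg.mul hB.mcg)]
  congr 1; funext s
  rw [conjTranspose_sub, fn_herm, fn_herm]
  simp only [Matrix.sub_mul, Matrix.mul_sub]
  abel

lemma eta_psd {A : Matrix α α ℂ} (h : Ctr A) : (eta A).PosSemidef :=
  fn_psd fun i => Real.negMulLog_nonneg (h.nn i) (h.le i)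

lemma eta_le {A : Matrix α α ℂ} (h : Ctr A) {c : ℝ} (hc : 0 < c) :
    ((Real.log (1 / c) - 1) • A + c • (1 : Matrix α α ℂ) - eta A).PosSemidef := by
  have : (Real.log (1 / c) - 1) • A + c • (1 : Matrix α α ℂ) - eta A =
      fn A (fun x => (Real.log (1 / c) - 1) * x + c * 1 - Real.negMulLog x) := by
    rw [← fn_sub, ← fn_add, ← fn_smul, ← fn_smul, fn_one, fn_id h.1.1]; rfl
  rw [this]
  refine fn_psd fun i => ?_
  have h0 := h.nn i
  generalize eg A i = a at h0
  rcases h0.eq_or_lt with h1 | h1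
  · subst h1; simp [hc.le]
  · have := Real.log_le_sub_one_of_pos (div_pos hc h1)
    rw [Real.log_div hc.ne' h1.ne'] at this
    rw [one_div, Real.log_inv, Real.negMulLog]
    have h2 : a * (c / a - 1) = c - a := by field_simp
    nlinarith [mul_le_mul_of_nonneg_left this h1.le]

/-- the pointwise resolvent identity -/
lemma point_gap {A B : Matrix α α ℂ} (hA : Ctr A) (hB : Ctr B) {s : ℝ} (hs : s ∈ Set.Ioo (0:ℝ) 1) :
    ∃ RB : Matrix α α ℂ, RB = fn B (fun a => (s + (1 - s) * a)⁻¹) ∧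
      (fn B (ps s) - fn A (ps s) - (fn A (gs s) - fn B (gs s))ᴴ * (fn A (gs s) - fn B (gs s)) -
        ((1 - s)⁻¹ • (A - B) - (s / (1 - s)) • (RB * (A - B) * RB))).PosSemidef := by
  refine ⟨_, rfl, ?_⟩
  have hs0 := hs.1
  have hu : 0 < 1 - s := by linarith [hs.2]
  have dpos : ∀ {M : Matrix α α ℂ}, Ctr M → ∀ i, 0 < s + (1 - s) * eg M i := fun hM i => by
    have := hM.nn i; positivity
  have hR : ∀ {M : Matrix α α ℂ}, Ctr M →
      fn M (fun a => (s + (1 - s) * a)⁻¹) * (s • (1 : Matrix α α ℂ) + (1 - s) • M) = 1 ∧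
      (s • (1 : Matrix α α ℂ) + (1 - s) • M) * fn M (fun a => (s + (1 - s) * a)⁻¹) = 1 := by
    intro M hM
    have e : s • (1 : Matrix α α ℂ) + (1 - s) • M = fn M (fun a => s * 1 + (1 - s) * a) := by
      rw [← fn_add, ← fn_smul, ← fn_smul, fn_one, fn_id hM.1.1]
    rw [e, fn_mul, fn_mul, ← fn_one M]
    exact ⟨fn_congr fun i => by have := (dpos hM i).ne'; field_simp,
      fn_congr fun i => by have := (dpos hM i).ne'; field_simp⟩
  have hg : ∀ {M : Matrix α α ℂ}, Ctr M → fn M (gs s) =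
      (1 - s)⁻¹ • (1 : Matrix α α ℂ) - (s / (1 - s)) • fn M (fun a => (s + (1 - s) * a)⁻¹) := by
    intro M hM
    rw [← fn_one M, fn_smul, fn_smul, fn_sub]
    refine fn_congr fun i => ?_
    have := (dpos hM i).ne'
    have hu' := hu.ne'
    unfold gs
    generalize eg M i = a at this
    have e : a = (1 - s)⁻¹ * ((s + (1 - s) * a) - s) := by field_simp; ring
    generalize s + (1 - s) * a = D at this e
    rw [e]; field_simp
  have hp : ∀ {M : Matrix α α ℂ}, Ctr M → fn M (ps s) = (1 - s)⁻¹ • (fn M (gs s) - M) := by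
    intro M hM
    conv_rhs => rw [← fn_id hM.1.1]
    rw [fn_id hM.1.1]
    have : fn M (gs s) - M = fn M (fun a => gs s a - a) := by rw [← fn_sub, fn_id hM.1.1]
    rw [this, fn_smul]
    refine fn_congr fun i => ?_
    have := (dpos hM i).ne'
    have hu' := hu.ne'
    unfold gs ps
    generalize eg M i = a at this
    rw [div_eq_iff this, mul_assoc, sub_mul, div_mul_cancel₀ _ this]
    field_simp; ring
  set RA := fn A (fun a => (s + (1 - s) * a)⁻¹) with hRA
  set RB := fn B (fun a => (s + (1 - s) * a)⁻¹) with hRB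
  set Δ := A - B with hΔ
  have hN : (s • (1 : Matrix α α ℂ) + (1 - s) • A) - (s • (1 : Matrix α α ℂ) + (1 - s) • B) =
      (1 - s) • Δ := by rw [hΔ]; module
  have r1 : RB - RA = (1 - s) • (RA * Δ * RB) := by
    rw [← Matrix.smul_mul, ← Matrix.mul_smul, ← hN, Matrix.mul_sub, Matrix.sub_mul, (hR hA).1,
      Matrix.mul_assoc, (hR hB).2]; simp
  have r2 : RB - RA = (1 - s) • (RB * Δ * RA) := by
    rw [← Matrix.smul_mul, ← Matrix.mul_smul, ← hN, Matrix.mul_sub, Matrix.sub_mul, (hR hB).1,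
      Matrix.mul_assoc, (hR hA).2]; simp
  have r3 : RA = RB - (1 - s) • (RB * Δ * RB) + ((1 - s) * (1 - s)) • (RB * Δ * RA * Δ * RB) := by
    have e1 : RA = RB - (1 - s) • (RA * Δ * RB) := by rw [← r1]; abel
    have e2 : RB * Δ * RA = RB * Δ * RB - (1 - s) • (RB * Δ * RA * Δ * RB) := by
      conv_lhs => rw [e1]
      simp only [Matrix.mul_sub, Matrix.mul_smul, Matrix.mul_assoc]
    have e3 : RA = RB - (1 - s) • (RB * Δ * RA) := by rw [← r2]; abel
    conv_lhs => rw [e3, e2]
    module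
  have g1 : fn A (gs s) - fn B (gs s) = s • (RA * Δ * RB) := by
    rw [hg hA, hg hB]
    have : (1 - s)⁻¹ • (1 : Matrix α α ℂ) - (s / (1 - s)) • RA -
        ((1 - s)⁻¹ • (1 : Matrix α α ℂ) - (s / (1 - s)) • RB) = (s / (1 - s)) • (RB - RA) := by
      module
    rw [this, r1, smul_smul]; congr 1; field_simp
  have hΔh : Δᴴ = Δ := by rw [hΔ, conjTranspose_sub, hA.1.1, hB.1.1]
  have hRAh : RAᴴ = RA := fn_herm _ _
  have hRBh : RBᴴ = RB := fn_herm _ _
  have p1 : fn B (ps s) - fn A (ps s) = (1 - s)⁻¹ • Δ - (s / (1 - s)) • (RB * Δ * RB) +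
      s • (RB * Δ * RA * Δ * RB) := by
    rw [hp hA, hp hB, hg hA, hg hB, ← hRA, ← hRB]
    have : (1 - s)⁻¹ • ((1 - s)⁻¹ • (1 : Matrix α α ℂ) - (s / (1 - s)) • RB - B) -
        (1 - s)⁻¹ • ((1 - s)⁻¹ • (1 : Matrix α α ℂ) - (s / (1 - s)) • RA - A) =
        (1 - s)⁻¹ • Δ + ((1 - s)⁻¹ * (s / (1 - s))) • (RA - RB) := by rw [hΔ]; module
    rw [this]
    have e : RA - RB = - (1 - s) • (RB * Δ * RB) + ((1 - s) * (1 - s)) • (RB * Δ * RA * Δ * RB) := by
      conv_lhs => rw [r3]
      module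
    rw [e]
    match_scalars <;> field_simp
  have hM : (s • RA - (s * s) • (RA * RA)).PosSemidef := by
    rw [hRA, fn_mul, fn_smul, fn_smul, fn_sub]
    refine fn_psd fun i => ?_
    have h1 := dpos hA i
    have h2 := hA.nn i
    have h3 : s * (s + (1 - s) * eg A i)⁻¹ ≤ 1 := by
      rw [← div_eq_mul_inv, div_le_one h1]; nlinarith
    have h4 : 0 ≤ s * (s + (1 - s) * eg A i)⁻¹ := by positivity
    nlinarith
  have := hM.conjTranspose_mul_mul_same (Δ * RB)
  convert this using 1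
  rw [p1, g1]
  simp only [conjTranspose_smul, conjTranspose_mul, hΔh, hRAh, hRBh, Matrix.mul_sub, Matrix.sub_mul,
    Matrix.mul_smul, Matrix.smul_mul, Matrix.mul_assoc, star_trivial, smul_smul]
  abel

/-- the operator entropy gap dominates the dilation distance -/
lemma gap_psd {Z : Type} [Fintype Z] (κ : Z → ℝ) (hκ : ∀ z, 0 ≤ κ z) (h1 : ∑ z, κ z = 1)
    (A : Z → Matrix α α ℂ) (hA : ∀ z, Ctr (A z)) {B : Matrix α α ℂ} (hB : Ctr B)
    (hAB : B = ∑ z, κ z • A z) :
    (eta B - ∑ z, κ z • eta (A z) - ∑ z, κ z • Dm (A z) B).PosSemidef := by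
  have m1 : ∀ z, MC (fun s => (fn (A z) (gs s) - fn B (gs s))ᴴ * (fn (A z) (gs s) - fn B (gs s))) :=
    fun z => ((hA z).mcg.sub hB.mcg).ct.mul ((hA z).mcg.sub hB.mcg)
  have m2 := MC.sum Finset.univ fun z => ((hA z).mcp.smul (κ z))
  have m3 := MC.sum Finset.univ fun z => ((m1 z).smul (κ z))
  have e : eta B - ∑ z, κ z • eta (A z) - ∑ z, κ z • Dm (A z) B =
      mint (fun s => fn B (ps s) - ∑ z, κ z • fn (A z) (ps s) -
        ∑ z, κ z • ((fn (A z) (gs s) - fn B (gs s))ᴴ * (fn (A z) (gs s) - fn B (gs s)))) := by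
    rw [mint_sub (hB.mcp.sub m2) m3, mint_sub hB.mcp m2, mint_sum _ fun z => ((hA z).mcp.smul (κ z)),
      mint_sum _ fun z => ((m1 z).smul (κ z)), eta_eq hB]
    simp only [fun z => mint_smul (κ z) (hA z).mcp, fun z => mint_smul (κ z) (m1 z),
      fun z => eta_eq (hA z), fun z => Dm_eq (hA z) hB]
  rw [e]
  refine mint_psd ((hB.mcp.sub m2).sub m3) fun s hs => ?_
  set RB := fn B (fun a => (s + (1 - s) * a)⁻¹) with hRB
  have hz : ∀ z, (fn B (ps s) - fn (A z) (ps s) -
      (fn (A z) (gs s) - fn B (gs s))ᴴ * (fn (A z) (gs s) - fn B (gs s)) -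
        ((1 - s)⁻¹ • (A z - B) - (s / (1 - s)) • (RB * (A z - B) * RB))).PosSemidef := by
    intro z
    obtain ⟨R, hR, h⟩ := point_gap (hA z) hB hs
    rw [hR] at h; exact h
  have := posSemidef_sum Finset.univ fun z _ => (hz z).smul (hκ z)
  convert this using 1
  have h0 : ∑ z, κ z • (A z - B) = 0 := by
    simp only [smul_sub, Finset.sum_sub_distrib, ← Finset.sum_smul, h1, one_smul, ← hAB, sub_self]
  have h2 : ∑ z, κ z • ((1 - s)⁻¹ • (A z - B) - (s / (1 - s)) • (RB * (A z - B) * RB)) = 0 := by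
    have : ∀ z, κ z • ((1 - s)⁻¹ • (A z - B) - (s / (1 - s)) • (RB * (A z - B) * RB)) =
        (1 - s)⁻¹ • (κ z • (A z - B)) - (s / (1 - s)) • (RB * (κ z • (A z - B)) * RB) := by
      intro z
      rw [Matrix.mul_smul, Matrix.smul_mul]; module
    simp only [this, Finset.sum_sub_distrib, ← Finset.smul_sum, ← Matrix.sum_mul, ← Matrix.mul_sum,
      h0]
    simp
  rw [← sub_eq_zero]
  simp only [smul_sub (κ _) (_ - _ - _), Finset.sum_sub_distrib, h2]
  simp only [smul_sub, Finset.sum_sub_distrib, ← Finset.sum_smul, h1, one_smul]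
  abel

/-- existence of a finite-dimensional canonical dilation -/
lemma exists_dil {I : Type} [Fintype I] [DecidableEq I] (A : I → Matrix α α ℂ)
    (hA : ∀ i, Ctr (A i)) :
    ∃ S : Matrix α α ℂ → Matrix (α × I) α ℂ, ∀ i j, (S (A i))ᴴ * S (A j) = Gm (A i) (A j) := by
  classical
  let W : ℝ → Matrix α (α × I) ℂ := fun s => Matrix.of fun h q => fn (A q.2) (gs s) h q.1
  have hW : MC W := fun h q => (hA q.2).mcg h q.1
  have hG : (mint (fun s => (W s)ᴴ * W s)).PosSemidef :=
    mint_psd (hW.ct.mul hW) fun s _ => posSemidef_conjTranspose_mul_self _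
  obtain ⟨P, hP⟩ := exists_factor hG
  let S₀ : I → Matrix (α × I) α ℂ := fun i => Matrix.of fun q h => P q (h, i)
  have h0 : ∀ i j, (S₀ i)ᴴ * S₀ j = Gm (A i) (A j) := by
    intro i j
    ext h h'
    have := congrFun (congrFun hP (h, i)) (h', j)
    rw [mint_apply (hW.ct.mul hW)] at this
    unfold Gm
    rw [mint_apply ((hA i).mcg.mul (hA j).mcg)]
    refine Eq.trans ?_ (this.symm.trans ?_)
    · simp [S₀, Matrix.mul_apply]
    · congr 1; funext s
      conv_rhs => rw [← fn_herm (A i)]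
      simp [W, Matrix.mul_apply]
  refine ⟨fun M => if h : ∃ i, A i = M then S₀ h.choose else 0, fun i j => ?_⟩
  have hi : ∃ i', A i' = A i := ⟨i, rfl⟩
  have hj : ∃ i', A i' = A j := ⟨j, rfl⟩
  simp only [dif_pos hi, dif_pos hj]
  rw [h0, hi.choose_spec, hj.choose_spec]

end Crest.Agent.PR
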