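import Crest.Agent.PR.Dil
import Crest.Agent.PR.Avg

/-! The martingale bound on the Dirichlet energy of the dilated states. -/

set_option linter.unusedSectionVars false

namespace Crest.Agent.PR

open Matrix Function
open scoped ComplexOrder MatrixOrder

variable {α β : Type} [Fintype α] [Fintype β] [DecidableEq α] [DecidableEq β]
variable {ι Z X Y : Type} [Fintype ι] [DecidableEq ι] [Fintype Z] [DecidableEq Z]
  [Fintype X] [DecidableEq X] [Fintype Y] [DecidableEq Y]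
variable {μ : Z → ℝ}

lemma psd_avg (h0 : ∀ ζ, 0 ≤ μ ζ) (π₁ : Z → X) (π₂ : Z → Y) (S : Finset ι)
    {A : (ι → X) → Matrix α α ℂ} (hA : ∀ x, (A x).PosSemidef) (z : ι → Z) :
    (avg μ π₁ π₂ S A z).PosSemidef :=
  posSemidef_sum _ fun x _ => (hA x).smul (aw_nonneg π₁ π₂ h0 S z x)

lemma ctr_avg (h0 : ∀ ζ, 0 ≤ μ ζ) (π₁ : Z → X) (π₂ : Z → Y) (S : Finset ι)
    {A : (ι → X) → Matrix α α ℂ} (hA : ∀ x, Ctr (A x)) (z : ι → Z) :
    Ctr (avg μ π₁ π₂ S A z) := by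
  refine ⟨psd_avg h0 π₁ π₂ S (fun x => (hA x).1) z, ?_⟩
  have e : 1 - avg μ π₁ π₂ S A z = (1 - ∑ x, aw μ π₁ π₂ S z x) • (1 : Matrix α α ℂ) +
      avg μ π₁ π₂ S (fun x => 1 - A x) z := by
    unfold avg
    simp only [smul_sub, Finset.sum_sub_distrib, ← Finset.sum_smul, sub_smul, one_smul]
    abel
  rw [e]
  exact (PosSemidef.one.smul (sub_nonneg.mpr (aw_sum_le π₁ π₂ h0 S z))).add
    (psd_avg h0 π₁ π₂ S (fun x => (hA x).2) z)

lemma ctr_of_sum {L : Type} [Fintype L] [DecidableEq L] {A : L → Matrix α α ℂ}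
    (hA : ∀ l, (A l).PosSemidef) (h : ∑ l, A l = 1) (l : L) : Ctr (A l) := by
  refine ⟨hA l, ?_⟩
  rw [← h, ← Finset.add_sum_erase _ _ (Finset.mem_univ l), add_sub_cancel_left]
  exact posSemidef_sum _ fun l _ => hA l

lemma dir_step (h0 : ∀ ζ, 0 ≤ μ ζ) (π₁ : Z → X) (π₂ : Z → Y) (Ψ : Matrix α β ℂ)
    {A : (ι → X) → Matrix α α ℂ} (hA : ∀ x, Ctr (A x))
    {B : (ι → Y) → Matrix β β ℂ} (hB : ∀ y, (B y).PosSemidef)
    (w : (ι → Z) → ℝ) (hw0 : ∀ z, 0 ≤ w z) {S S' : Finset ι} {i : ι} (hi : i ∉ S) (hi' : i ∉ S')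
    (hd : ∀ j ∈ S', j ∉ S) (hwi : ∀ z ζ, w (update z i ζ) = w z)
    (hw : ∀ j ∈ S', ∀ z ζ, w (update z j ζ) = w z) :
    Ex μ (fun z => w z * ev Ψ (Dm (avg μ π₁ π₂ S A z) (avg μ π₁ π₂ (insert i S) A z))
      (avg μ π₂ π₁ S' B z)) ≤
    Ex μ (fun z => w z * ev Ψ (eta (avg μ π₁ π₂ (insert i S) A z)) (B (fun j => π₂ (z j)))) -
    Ex μ (fun z => w z * ev Ψ (eta (avg μ π₁ π₂ S A z)) (B (fun j => π₂ (z j)))) := by
  have tw : ∀ T : Finset ι, (∀ j ∈ S', j ∉ T) →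
      Ex μ (fun z => w z * ev Ψ (eta (avg μ π₁ π₂ T A z)) (B (fun j => π₂ (z j)))) =
      Ex μ (fun z => w z * ev Ψ (eta (avg μ π₁ π₂ T A z)) (avg μ π₂ π₁ S' B z)) := by
    intro T hT
    have := tower π₂ π₁ h0 S' B (fun z => w z • evR Ψ (eta (avg μ π₁ π₂ T A z)))
      (fun j hj z ζ h => by rw [hw j hj, avg_out π₁ π₂ (hT j hj) A z h])
    simpa using this.symm
  rw [tw S hd, tw (insert i S) (fun j hj => by
    simp only [Finset.mem_insert, not_or]; exact ⟨fun h => hi' (h ▸ hj), hd j hj⟩)]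
  rw [← Ex_stat (cond_stat h0 π₂) i (fun z => w z * ev Ψ (Dm _ _) _),
    ← Ex_stat (cond_stat h0 π₂) i (fun z => w z * ev Ψ (eta (avg μ π₁ π₂ S A z)) _), ← Ex_sub]
  refine Ex_mono' h0 fun z hz => ?_
  have hg := gap_psd (cond μ π₂ (z i)) (cond_nonneg h0 π₂ (z i)) (cond_sum_eq h0 π₂ (hz i))
    (fun ζ => avg μ π₁ π₂ S A (update z i ζ)) (fun ζ => ctr_avg h0 π₁ π₂ S hA _)
    (ctr_avg h0 π₁ π₂ (insert i S) hA z) (avg_step π₁ π₂ hi A z)
  have h1 := mul_nonneg (hw0 z) (ev_nonneg Ψ hg (psd_avg h0 π₂ π₁ S' hB z))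
  simp only [ev_sub_left, ev_sum_left, ev_smul_left, mul_sub, Finset.mul_sum] at h1
  have e1 : ∀ ζ, cond μ π₂ (z i) ζ * (w (update z i ζ) *
      ev Ψ (Dm (avg μ π₁ π₂ S A (update z i ζ)) (avg μ π₁ π₂ (insert i S) A (update z i ζ)))
        (avg μ π₂ π₁ S' B (update z i ζ))) = w z * (cond μ π₂ (z i) ζ *
      ev Ψ (Dm (avg μ π₁ π₂ S A (update z i ζ)) (avg μ π₁ π₂ (insert i S) A z))
        (avg μ π₂ π₁ S' B z)) := by
    intro ζ
    by_cases h : cond μ π₂ (z i) ζ = 0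
    · simp [h]
    · rw [hwi, avg_in π₁ π₂ (Finset.mem_insert_self i S) A z (cond_ne h),
        avg_out π₂ π₁ hi' B z (cond_ne h)]
      ring
  have e2 : ∀ ζ, cond μ π₂ (z i) ζ * (w (update z i ζ) *
      ev Ψ (eta (avg μ π₁ π₂ S A (update z i ζ))) (avg μ π₂ π₁ S' B (update z i ζ))) =
      w z * (cond μ π₂ (z i) ζ *
      ev Ψ (eta (avg μ π₁ π₂ S A (update z i ζ))) (avg μ π₂ π₁ S' B z)) := by
    intro ζ
    by_cases h : cond μ π₂ (z i) ζ = 0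
    · simp [h]
    · rw [hwi, avg_out π₂ π₁ hi' B z (cond_ne h)]
      ring
  simp only [e1, e2]
  linarith

variable {LA LB : Type} [Fintype LA] [DecidableEq LA] [Fintype LB] [DecidableEq LB]

/-- weighted success function -/
noncomputable def FF (π₁ : Z → X) (π₂ : Z → Y) (Ψ : Matrix α β ℂ)
    (A : LA → (ι → X) → Matrix α α ℂ) (B : LB → (ι → Y) → Matrix β β ℂ)
    (w : (ι → Z) → LA → LB → ℝ) (z : ι → Z) : ℝ :=
  ∑ l, ∑ l', w z l l' * ev Ψ (A l (fun j => π₁ (z j))) (B l' (fun j => π₂ (z j)))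

lemma FF_bounds (π₁ : Z → X) (π₂ : Z → Y) {Ψ : Matrix α β ℂ} (hΨ : nrm Ψ ^ 2 = 1)
    {A : LA → (ι → X) → Matrix α α ℂ} (hA : ∀ l x, (A l x).PosSemidef) (hA1 : ∀ x, ∑ l, A l x = 1)
    {B : LB → (ι → Y) → Matrix β β ℂ} (hB : ∀ l y, (B l y).PosSemidef) (hB1 : ∀ y, ∑ l, B l y = 1)
    {w : (ι → Z) → LA → LB → ℝ} {m : ℝ} (hwm : ∀ z l l', m ≤ w z l l') (hw1 : ∀ z l l', w z l l' ≤ 1)
    (z : ι → Z) : m ≤ FF π₁ π₂ Ψ A B w z ∧ FF π₁ π₂ Ψ A B w z ≤ 1 := by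
  have tot : ∑ l, ∑ l', ev Ψ (A l (fun j => π₁ (z j))) (B l' (fun j => π₂ (z j))) = 1 := by
    simp only [← ev_sum_right, ← ev_sum_left, hA1, hB1, ev_one_one, hΨ]
  constructor
  · rw [← mul_one m, ← tot]
    simp only [Finset.mul_sum]
    exact Finset.sum_le_sum fun l _ => Finset.sum_le_sum fun l' _ =>
      mul_le_mul_of_nonneg_right (hwm z l l') (ev_nonneg _ (hA _ _) (hB _ _))
  · rw [← tot]
    refine Finset.sum_le_sum fun l _ => Finset.sum_le_sum fun l' _ => ?_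
    have := mul_le_mul_of_nonneg_right (hw1 z l l') (ev_nonneg Ψ (hA l (fun j => π₁ (z j)))
      (hB l' (fun j => π₂ (z j))))
    simpa using this

lemma dirichlet_sum (h0 : ∀ ζ, 0 ≤ μ ζ) (h1 : ∑ ζ, μ ζ = 1) (π₁ : Z → X) (π₂ : Z → Y)
    {Ψ : Matrix α β ℂ} (hΨ : nrm Ψ ^ 2 = 1)
    {A : LA → (ι → X) → Matrix α α ℂ} (hA : ∀ l x, (A l x).PosSemidef) (hA1 : ∀ x, ∑ l, A l x = 1)
    {B : LB → (ι → Y) → Matrix β β ℂ} (hB : ∀ l y, (B l y).PosSemidef) (hB1 : ∀ y, ∑ l, B l y = 1)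
    {w : (ι → Z) → LA → LB → ℝ} {m : ℝ} (hm : 0 < m) (hwm : ∀ z l l', m ≤ w z l l')
    (hw1 : ∀ z l l', w z l l' ≤ 1) (D : Finset ι) (hw : ∀ j ∈ D, ∀ z ζ, w (update z j ζ) = w z)
    (r : ι → ℤ) (hr : Injective r) [Nonempty LA] :
    ∑ i ∈ D, ∑ l, ∑ l', Ex μ (fun z => w z l l' *
      ev Ψ (Dm (avg μ π₁ π₂ (D.filter (fun j => r i < r j)) (A l) z)
        (avg μ π₁ π₂ (insert i (D.filter (fun j => r i < r j))) (A l) z))
      (avg μ π₂ π₁ (D.filter (fun j => r j < r i)) (B l') z)) ≤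
    Ex μ (FF π₁ π₂ Ψ A B w) * Real.log (Fintype.card LA / m) := by
  have hAc : ∀ l x, Ctr (A l x) := fun l x => ctr_of_sum (fun l => hA l x) (hA1 x) l
  let F : Finset ι → ℝ := fun T => ∑ l, ∑ l', Ex μ (fun z => w z l l' *
    ev Ψ (eta (avg μ π₁ π₂ T (A l) z)) (B l' (fun j => π₂ (z j))))
  have hw0 : ∀ z l l', 0 ≤ w z l l' := fun z l l' => hm.le.trans (hwm z l l')
  have s1 : ∀ i ∈ D, ∑ l, ∑ l', Ex μ (fun z => w z l l' *
      ev Ψ (Dm (avg μ π₁ π₂ (D.filter (fun j => r i < r j)) (A l) z)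
        (avg μ π₁ π₂ (insert i (D.filter (fun j => r i < r j))) (A l) z))
      (avg μ π₂ π₁ (D.filter (fun j => r j < r i)) (B l') z)) ≤
      F (insert i (D.filter (fun j => r i < r j))) - F (D.filter (fun j => r i < r j)) := by
    intro i hi
    simp only [F, ← Finset.sum_sub_distrib]
    refine Finset.sum_le_sum fun l _ => Finset.sum_le_sum fun l' _ => ?_
    refine dir_step h0 π₁ π₂ Ψ (hAc l) (hB l') (fun z => w z l l') (fun z => hw0 z l l')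
      (by simp) (by simp) ?_ (fun z ζ => by rw [hw i hi]) ?_
    · intro j hj
      simp only [Finset.mem_filter, not_and, not_lt] at hj ⊢
      exact fun _ => hj.2.le
    · intro j hj z ζ
      rw [hw j (Finset.mem_filter.mp hj).1]
  refine (Finset.sum_le_sum s1).trans ?_
  rw [telescope r hr F D]
  have f0 : 0 ≤ F ∅ := by
    refine Finset.sum_nonneg fun l _ => Finset.sum_nonneg fun l' _ => ?_
    rw [← Ex_const (ι := ι) h1 0]
    exact Ex_mono h0 fun z => mul_nonneg (hw0 _ _ _)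
      (ev_nonneg _ (eta_psd (ctr_avg h0 π₁ π₂ _ (hAc l) z)) (hB _ _))
  have hc : (0:ℝ) < Fintype.card LA := by exact_mod_cast Fintype.card_pos
  set c := m / Fintype.card LA with hcd
  have hc0 : 0 < c := div_pos hm hc
  have f1 : F D ≤ ∑ l, ∑ l', ((Real.log (1 / c) - 1) * Ex μ (fun z => w z l l' *
      ev Ψ (A l (fun j => π₁ (z j))) (B l' (fun j => π₂ (z j)))) +
      c * Ex μ (fun z => ev Ψ 1 (B l' (fun j => π₂ (z j))))) := by
    refine Finset.sum_le_sum fun l _ => Finset.sum_le_sum fun l' _ => ?_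
    have tw := tower π₁ π₂ h0 D (A l) (fun z => w z l l' • evL Ψ (B l' (fun j => π₂ (z j))))
      (fun j hj z ζ h => by
        rw [hw j hj]
        congr 3
        funext j'
        by_cases hj' : j' = j
        · subst hj'; simp [h]
        · simp [update_of_ne hj'])
    simp only [LinearMap.smul_apply, evL_apply, smul_eq_mul] at tw
    rw [← tw, ← Ex_mul, ← Ex_mul, ← Ex_add]
    refine Ex_mono h0 fun z => ?_
    have h2 := ev_nonneg Ψ (eta_le (ctr_avg h0 π₁ π₂ D (hAc l) z) hc0) (hB l' (fun j => π₂ (z j)))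
    rw [ev_sub_left, ev_add_left, ev_smul_left, ev_smul_left] at h2
    have h3 := mul_nonneg (hw0 z l l') h2
    have h4 := mul_nonneg hc0.le (mul_nonneg (sub_nonneg.mpr (hw1 z l l'))
      (ev_nonneg Ψ PosSemidef.one (hB l' (fun j => π₂ (z j)))))
    nlinarith
  have e1 : ∑ l, ∑ l', Ex μ (fun z => w z l l' *
      ev Ψ (A l (fun j => π₁ (z j))) (B l' (fun j => π₂ (z j)))) = Ex μ (FF π₁ π₂ Ψ A B w) := by
    simp only [← Ex_sum]; rfl
  have e2 : ∑ l', Ex μ (fun z : ι → Z => ev Ψ 1 (B l' (fun j => π₂ (z j)))) = 1 := by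
    simp only [← Ex_sum, ← ev_sum_right, hB1, ev_one_one, hΨ, Ex_const h1]
  simp only [Finset.sum_add_distrib, ← Finset.mul_sum, e1, e2, Finset.sum_const, Finset.card_univ,
    nsmul_eq_mul, mul_one] at f1
  have hp : m ≤ Ex μ (FF π₁ π₂ Ψ A B w) := by
    rw [← Ex_const (ι := ι) h1 m]
    exact Ex_mono h0 fun z => (FF_bounds π₁ π₂ hΨ hA hA1 hB hB1 hwm hw1 z).1
  have e3 : 1 / c = Fintype.card LA / m := by rw [hcd]; field_simp
  have e4 : (Fintype.card LA : ℝ) * c = m := by rw [hcd]; field_simp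
  rw [e3] at f1
  nlinarith

end Crest.Agent.PR
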