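import Crest.Agent.PR.Mat

/-! Elementary functional calculus for Hermitian matrices and lifting of measurements. -/

set_option linter.unusedSectionVars false

namespace Crest.Agent.PR

open Matrix
open scoped ComplexOrder MatrixOrder

variable {α β γ : Type} [Fintype α] [Fintype β] [Fintype γ]
  [DecidableEq α] [DecidableEq β] [DecidableEq γ]

/-- eigenvalues -/
noncomputable def eg (A : Matrix α α ℂ) : α → ℝ :=
  if h : A.IsHermitian then h.eigenvalues else 0

/-- eigenvector unitary -/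
noncomputable def eU (A : Matrix α α ℂ) : Matrix α α ℂ :=
  if h : A.IsHermitian then (h.eigenvectorUnitary : Matrix α α ℂ) else 1

/-- real diagonal matrix -/
noncomputable def dR (d : α → ℝ) : Matrix α α ℂ := diagonal (fun i => (d i : ℂ))

/-- function of a matrix -/
noncomputable def fn (A : Matrix α α ℂ) (f : ℝ → ℝ) : Matrix α α ℂ :=
  eU A * dR (fun i => f (eg A i)) * (eU A)ᴴ

lemma eU_star_mul (A : Matrix α α ℂ) : (eU A)ᴴ * eU A = 1 := by
  unfold eU
  split_ifs with h
  · exact Unitary.coe_star_mul_self h.eigenvectorUnitary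
  · simp

lemma eU_mul_star (A : Matrix α α ℂ) : eU A * (eU A)ᴴ = 1 :=
  mul_eq_one_comm.mp (eU_star_mul A)

lemma dR_mul (d e : α → ℝ) : dR d * dR e = dR (fun i => d i * e i) := by
  simp [dR, diagonal_mul_diagonal]

lemma dR_herm (d : α → ℝ) : (dR d)ᴴ = dR d := by
  simp [dR, diagonal_conjTranspose, Pi.star_def]

lemma dR_one : dR (fun _ : α => (1 : ℝ)) = 1 := by simp [dR]

lemma dR_add (d e : α → ℝ) : dR d + dR e = dR (fun i => d i + e i) := by
  simp [dR, diagonal_add]

lemma dR_sub (d e : α → ℝ) : dR d - dR e = dR (fun i => d i - e i) := by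
  simp [dR, diagonal_sub]

lemma dR_smul (c : ℝ) (d : α → ℝ) : c • dR d = dR (fun i => c * d i) := by
  ext i j; by_cases h : i = j <;> simp [dR, diagonal_apply, h]

lemma dR_psd {d : α → ℝ} (h : ∀ i, 0 ≤ d i) : (dR d).PosSemidef :=
  PosSemidef.diagonal fun i => by simpa using h i

lemma fn_id {A : Matrix α α ℂ} (h : A.IsHermitian) : fn A (fun x => x) = A := by
  have := h.spectral_theorem
  rw [Unitary.conjStarAlgAut_apply] at this
  unfold fn eU eg dR
  simp only [h, dif_pos]
  exact this.symm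

lemma fn_mul (A : Matrix α α ℂ) (f g : ℝ → ℝ) : fn A f * fn A g = fn A (fun x => f x * g x) := by
  unfold fn
  rw [← dR_mul]
  simp only [Matrix.mul_assoc]
  rw [← Matrix.mul_assoc (eU A)ᴴ, eU_star_mul, Matrix.one_mul]

lemma fn_one (A : Matrix α α ℂ) : fn A (fun _ => 1) = 1 := by
  unfold fn; rw [dR_one, Matrix.mul_one, eU_mul_star]

lemma fn_add (A : Matrix α α ℂ) (f g : ℝ → ℝ) : fn A f + fn A g = fn A (fun x => f x + g x) := by
  unfold fn; rw [← dR_add, Matrix.mul_add, Matrix.add_mul]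

lemma fn_sub (A : Matrix α α ℂ) (f g : ℝ → ℝ) : fn A f - fn A g = fn A (fun x => f x - g x) := by
  unfold fn; rw [← dR_sub, Matrix.mul_sub, Matrix.sub_mul]

lemma fn_smul (A : Matrix α α ℂ) (c : ℝ) (f : ℝ → ℝ) : c • fn A f = fn A (fun x => c * f x) := by
  unfold fn; rw [← dR_smul, Matrix.mul_smul, Matrix.smul_mul]

lemma fn_zero (A : Matrix α α ℂ) : fn A (fun _ => 0) = 0 := by
  unfold fn dR; simp

lemma fn_congr {A : Matrix α α ℂ} {f g : ℝ → ℝ} (h : ∀ i, f (eg A i) = g (eg A i)) :
    fn A f = fn A g := by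
  unfold fn; simp only [h]

lemma fn_herm (A : Matrix α α ℂ) (f : ℝ → ℝ) : (fn A f)ᴴ = fn A f := by
  unfold fn
  simp only [conjTranspose_mul, conjTranspose_conjTranspose, dR_herm, Matrix.mul_assoc]

lemma fn_psd {A : Matrix α α ℂ} {f : ℝ → ℝ} (h : ∀ i, 0 ≤ f (eg A i)) : (fn A f).PosSemidef :=
  (dR_psd h).mul_mul_conjTranspose_same _

lemma fn_psd_iff {A : Matrix α α ℂ} {f : ℝ → ℝ} (h : (fn A f).PosSemidef) (i : α) :
    0 ≤ f (eg A i) := by
  have h1 := h.conjTranspose_mul_mul_same (eU A)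
  unfold fn at h1
  simp only [Matrix.mul_assoc] at h1
  rw [eU_star_mul, Matrix.mul_one, ← Matrix.mul_assoc, eU_star_mul, Matrix.one_mul] at h1
  have := h1.diag_nonneg (i := i)
  simpa [dR] using this

lemma eg_nonneg {A : Matrix α α ℂ} (h : A.PosSemidef) (i : α) : 0 ≤ eg A i := by
  have : (fn A (fun x => x)).PosSemidef := by rwa [fn_id h.1]
  exact fn_psd_iff this i

lemma eg_le_one {A : Matrix α α ℂ} (hA : A.IsHermitian) (h : (1 - A).PosSemidef) (i : α) :
    eg A i ≤ 1 := by
  have : (fn A (fun x => 1 - x)).PosSemidef := by rwa [← fn_sub, fn_one, fn_id hA]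
  have := fn_psd_iff this i
  linarith

lemma fn_apply (A : Matrix α α ℂ) (f : ℝ → ℝ) (j k : α) :
    fn A f j k = ∑ i, (f (eg A i) : ℂ) * (eU A j i * star (eU A k i)) := by
  unfold fn dR
  rw [Matrix.mul_apply]
  refine Finset.sum_congr rfl fun i _ => ?_
  rw [Matrix.mul_diagonal, conjTranspose_apply]; ring

lemma psd_one_sub_of_idem {E : Matrix α α ℂ} (h1 : Eᴴ = E) (h2 : E * E = E) :
    (1 - E).PosSemidef := by
  have : 1 - E = (1 - E)ᴴ * (1 - E) := by
    rw [conjTranspose_sub, conjTranspose_one, h1]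
    simp only [Matrix.sub_mul, Matrix.mul_sub, Matrix.one_mul, Matrix.mul_one, h2]
    abel
  rw [this]; exact posSemidef_conjTranspose_mul_self _

/-- lifting a decomposition of `Sᴴ S` to a sub-measurement on the target of `S` -/
lemma exists_lift {A : Type} [Fintype A] (M : A → Matrix α α ℂ) (hM : ∀ a, (M a).PosSemidef)
    (S : Matrix β α ℂ) (hS : Sᴴ * S = ∑ a, M a) :
    ∃ Mh : A → Matrix β β ℂ, SubP Mh ∧ ∀ a, Sᴴ * Mh a * S = M a := by
  set T := ∑ a, M a with hT
  have hTp : T.PosSemidef := posSemidef_sum _ fun a _ => hM a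
  set Tp := fn T (fun x => x⁻¹) with hTpd
  set P := fn T (fun x => x * x⁻¹) with hP
  have hTid : fn T (fun x => x) = T := fn_id hTp.1
  have e1 : T * Tp = P := by
    conv_lhs => rw [← hTid]
    rw [hTpd, hTid, hP, ← fn_mul, hTid]
  have e2 : Tp * T = P := by
    have := congrArg conjTranspose e1
    rwa [conjTranspose_mul, hTpd, fn_herm, hTp.1, hP, fn_herm] at this
  have e3 : T * P = T := by
    have : fn T (fun x => x) * P = fn T (fun x => x) := by
      rw [hP, fn_mul]
      refine fn_congr fun i => ?_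
      by_cases h : eg T i = 0
      · simp [h]
      · field_simp
    rwa [hTid] at this
  have e4 : P * Tp = Tp := by
    rw [hP, hTpd, fn_mul]
    refine fn_congr fun i => ?_
    by_cases h : eg T i = 0
    · simp [h]
    · field_simp
  have hPh : Pᴴ = P := fn_herm _ _
  have e5 : ∀ a, M a * P = M a := by
    intro a
    have h0 : ∑ a, (1 - P)ᴴ * M a * (1 - P) = 0 := by
      rw [← Finset.sum_mul, ← Finset.mul_sum, ← hT, Matrix.mul_assoc, Matrix.mul_sub,
        Matrix.mul_one, e3]; simp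
    have h1 : ∀ a, ((1 - P)ᴴ * M a * (1 - P)).PosSemidef := fun a =>
      (hM a).conjTranspose_mul_mul_same _
    have h2 : (1 - P)ᴴ * M a * (1 - P) = 0 := by
      have := (Finset.sum_eq_zero_iff_of_nonneg (fun a _ => (h1 a).nonneg)).mp h0 a
        (Finset.mem_univ _)
      exact this
    obtain ⟨R, hR⟩ := exists_factor (hM a)
    have h3 : (R * (1 - P))ᴴ * (R * (1 - P)) = 0 := by
      rw [← h2, hR, conjTranspose_mul]; simp only [Matrix.mul_assoc]
    have h4 : R * (1 - P) = 0 := conjTranspose_mul_self_eq_zero.mp h3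
    have h5 : M a * (1 - P) = 0 := by rw [hR, Matrix.mul_assoc, h4]; simp
    rw [Matrix.mul_sub, Matrix.mul_one, sub_eq_zero] at h5
    exact h5.symm
  have e6 : ∀ a, P * M a = M a := by
    intro a
    have := congrArg conjTranspose (e5 a)
    rwa [conjTranspose_mul, hPh, (hM a).1] at this
  have hTph : Tpᴴ = Tp := fn_herm _ _
  refine ⟨fun a => (S * Tp) * M a * (S * Tp)ᴴ, ⟨fun a => (hM a).mul_mul_conjTranspose_same _, ?_⟩,
    fun a => ?_⟩
  · have e7 : ∑ a, (S * Tp) * M a * (S * Tp)ᴴ = S * Tp * Sᴴ := by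
      rw [← Matrix.sum_mul, ← Matrix.mul_sum, ← hT, conjTranspose_mul, hTph]
      simp only [Matrix.mul_assoc]
      rw [← Matrix.mul_assoc T, e1, ← Matrix.mul_assoc Tp]
      have : Tp * P = Tp := by
        have := congrArg conjTranspose e4
        rwa [conjTranspose_mul, hTph, hPh] at this
      rw [this]
    rw [e7]
    apply psd_one_sub_of_idem
    · simp only [conjTranspose_mul, conjTranspose_conjTranspose, hTph, Matrix.mul_assoc]
    · simp only [Matrix.mul_assoc]
      rw [← Matrix.mul_assoc Sᴴ S, hS, ← Matrix.mul_assoc Tp T, e2, ← Matrix.mul_assoc P, e4]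
  · rw [conjTranspose_mul, hTph]
    simp only [Matrix.mul_assoc]
    rw [hS, ← Matrix.mul_assoc Sᴴ S, hS, e2, e5, ← Matrix.mul_assoc T, e1, e6]

end Crest.Agent.PR
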