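import Mathlib

/-! A finite embezzling gadget with randomised rounding of scales. -/

set_option linter.unusedSectionVars false

namespace Crest.Agent.PR

lemma sum_div_shift {n : ℕ} (hn : 0 < n) (σ : ℕ) : ∑ θ ∈ Finset.range n, (σ + θ) / n = σ := by
  induction σ with
  | zero => exact Finset.sum_eq_zero fun θ h => by simp [Nat.div_eq_of_lt (Finset.mem_range.mp h)]
  | succ σ ih =>
    have h1 := Finset.sum_range_succ (fun θ => (σ + θ) / n) n
    have h2 := Finset.sum_range_succ' (fun θ => (σ + θ) / n) n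
    simp only [Nat.add_div_right _ hn, add_zero] at h1 h2
    have h3 : ∑ θ ∈ Finset.range n, (σ + 1 + θ) / n = ∑ θ ∈ Finset.range n, (σ + (θ + 1)) / n :=
      Finset.sum_congr rfl fun θ _ => by congr 1; ring
    omega

lemma count_ne {n : ℕ} (hn : 0 < n) (σ σ' : ℕ) :
    ∑ θ : Fin n, (if (σ + θ) / n = (σ' + θ) / n then (0:ℝ) else 1) ≤ |(σ:ℝ) - σ'| := by
  wlog h : σ ≤ σ' generalizing σ σ'
  · rw [abs_sub_comm]
    refine le_trans (le_of_eq ?_) (this σ' σ (by omega))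
    exact Finset.sum_congr rfl fun θ _ => by simp only [eq_comm]
  have e : |(σ:ℝ) - σ'| = ∑ θ : Fin n, ((((σ' + θ) / n : ℕ) : ℝ) - (((σ + θ) / n : ℕ) : ℝ)) := by
    rw [Finset.sum_sub_distrib, ← Nat.cast_sum, ← Nat.cast_sum,
      Fin.sum_univ_eq_sum_range (fun θ => (σ' + θ) / n), Fin.sum_univ_eq_sum_range (fun θ => (σ + θ) / n),
      sum_div_shift hn, sum_div_shift hn, abs_sub_comm, abs_of_nonneg (by simpa using h)]
  rw [e]
  refine Finset.sum_le_sum fun θ _ => ?_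
  have h1 : (σ + θ) / n ≤ (σ' + θ) / n := Nat.div_le_div_right (by omega)
  split_ifs with h2
  · rw [h2]; simp
  · have : (σ + θ) / n + 1 ≤ (σ' + θ) / n := by omega
    have : (((σ + θ) / n : ℕ) : ℝ) + 1 ≤ (((σ' + θ) / n : ℕ) : ℝ) := by exact_mod_cast this
    linarith

lemma count_le (D : ℕ) {y : ℝ} (hy : 0 ≤ y) :
    ∑ ρ : Fin D, (if (ρ : ℝ) + 1 ≤ y then (1:ℝ) else 0) ≤ y := by
  rw [Finset.sum_boole]
  refine le_trans ?_ (Nat.floor_le hy)
  have : (Finset.univ.filter fun ρ : Fin D => (ρ : ℝ) + 1 ≤ y).card ≤ (Finset.range ⌊y⌋₊).card := by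
    refine Finset.card_le_card_of_injOn (fun ρ => ρ.val) (fun ρ hρ => ?_) fun a _ b _ h => Fin.ext h
    simp only [Finset.coe_filter, Finset.mem_univ, true_and, Set.mem_ofPred_eq] at hρ
    simp only [Finset.coe_range, Set.mem_Iio]
    exact (Nat.le_floor_iff hy).mpr (by push_cast; exact hρ)
  rw [Finset.card_range] at this
  exact_mod_cast this

lemma count_lt {D D' : ℕ} (h : D ≤ D') (c : ℝ) :
    ∑ ρ : Fin D', (if (ρ : ℕ) < D then c else 0) = D * c := by
  rw [Fin.sum_univ_eq_sum_range (fun ρ => if ρ < D then c else 0), ← Finset.sum_filter]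
  have : (Finset.range D').filter (fun ρ => ρ < D) = Finset.range D := by
    ext ρ; simp only [Finset.mem_filter, Finset.mem_range]; omega
  rw [this]; simp

lemma scale_bounds {n : ℕ} (hn : 0 < n) {t : ℝ} (ht : 0 < t) (ht1 : t ≤ 1) {θ : ℕ} (hθ : θ < n) :
    let lam : ℝ := (n + 1) / n
    let m := (⌊n * (Real.log (1 / t) / Real.log lam)⌋₊ + θ) / n
    t / lam ≤ (lam ^ m)⁻¹ ∧ (lam ^ m)⁻¹ ≤ lam ^ 2 * t := by
  intro lam m
  have hn' : (0:ℝ) < n := by exact_mod_cast hn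
  have hl : 1 < lam := by rw [lt_div_iff₀ hn']; linarith
  have hlog : 0 < Real.log lam := Real.log_pos hl
  set s := Real.log (1 / t) / Real.log lam with hs
  have hs0 : 0 ≤ s := div_nonneg (Real.log_nonneg (by rw [le_div_iff₀ ht]; linarith)) hlog.le
  set σ := ⌊n * s⌋₊ with hσ
  have h1 : (σ:ℝ) ≤ n * s := Nat.floor_le (by positivity)
  have h2 : n * s < σ + 1 := Nat.lt_floor_add_one _
  have h3 : n * m ≤ σ + θ := Nat.mul_div_le _ _
  have h4 : σ + θ < n * (m + 1) := Nat.lt_mul_div_succ _ hn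
  have h3' : (n:ℝ) * m ≤ σ + θ := by exact_mod_cast h3
  have h4' : (σ:ℝ) + θ + 1 ≤ n * (m + 1) := by exact_mod_cast h4
  have hθ' : (θ:ℝ) + 1 ≤ n := by exact_mod_cast hθ
  have hθ0 : (0:ℝ) ≤ θ := Nat.cast_nonneg θ
  have m1 : (m:ℝ) ≤ s + 1 := by
    have : (n:ℝ) * m ≤ n * (s + 1) := by linarith
    exact le_of_mul_le_mul_left this hn'
  have m2 : s ≤ m + 2 := by
    have : (n:ℝ) * s ≤ n * (m + 2) := by linarith
    exact le_of_mul_le_mul_left this hn'
  have et : Real.log t = - (s * Real.log lam) := by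
    rw [hs, div_mul_cancel₀ _ hlog.ne', one_div, Real.log_inv, neg_neg]
  have l0 : 0 < lam := by linarith
  constructor
  · rw [← Real.log_le_log_iff (by positivity) (by positivity), Real.log_div ht.ne' l0.ne',
      Real.log_inv, Real.log_pow, et]
    nlinarith
  · rw [← Real.log_le_log_iff (by positivity) (by positivity), Real.log_mul (by positivity) ht.ne',
      Real.log_inv, Real.log_pow, Real.log_pow, et]
    push_cast
    nlinarith

lemma scale_diff {n : ℕ} (hn : 0 < n) {t t' : ℝ} (ht : 0 < t) (ht1 : t ≤ 1) (ht' : 0 < t')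
    (ht1' : t' ≤ 1) {P : ℝ} (hP1 : P ≤ n) :
    let lam : ℝ := (n + 1) / n
    P ≤ |(⌊n * (Real.log (1 / t) / Real.log lam)⌋₊ : ℝ) - ⌊n * (Real.log (1 / t') / Real.log lam)⌋₊| →
    t * P ≤ t + 4 * n * n * |t - t'| := by
  intro lam hP
  have hn' : (1:ℝ) ≤ n := by exact_mod_cast hn
  have hn0 : (0:ℝ) < n := by linarith
  have hl : 1 < lam := by rw [lt_div_iff₀ hn0]; linarith
  have hlog : 1 / (2 * n) ≤ Real.log lam := by
    have := Real.one_sub_inv_le_log_of_pos (show 0 < lam by linarith)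
    refine le_trans ?_ this
    rw [inv_div, div_le_iff₀ (by positivity)]
    have : (1 - (n:ℝ) / (n + 1)) = 1 / (n + 1) := by field_simp; ring
    rw [this, div_mul_eq_mul_div, le_div_iff₀ (by positivity)]; linarith
  have hlog0 : 0 < Real.log lam := Real.log_pos hl
  have ha := abs_nonneg (t - t')
  by_cases h : t ≤ 2 * t'
  · have fl : ∀ a b : ℝ, 0 ≤ a → 0 ≤ b → |(⌊a⌋₊ : ℝ) - ⌊b⌋₊| ≤ |a - b| + 1 := fun a b ha hb => by
      have := Nat.floor_le ha; have := Nat.floor_le hb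
      have := Nat.lt_floor_add_one a; have := Nat.lt_floor_add_one b
      have := le_abs_self (a - b); have := neg_abs_le (a - b)
      rw [abs_le]; constructor <;> linarith
    have p1 : ∀ {u : ℝ}, 0 < u → u ≤ 1 → 0 ≤ n * (Real.log (1 / u) / Real.log lam) := fun hu hu1 =>
      mul_nonneg hn0.le (div_nonneg (Real.log_nonneg (by rw [le_div_iff₀ hu]; linarith)) hlog0.le)
    have h1 := hP.trans (fl _ _ (p1 ht ht1) (p1 ht' ht1'))
    rw [← mul_sub, ← sub_div, abs_mul, abs_div, abs_of_pos hn0, abs_of_pos hlog0, one_div, one_div,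
      Real.log_inv, Real.log_inv] at h1
    have h2 : t * |-Real.log t - -Real.log t'| ≤ 2 * |t - t'| := by
      have a1 := Real.log_le_sub_one_of_pos (div_pos ht ht')
      have a2 := Real.log_le_sub_one_of_pos (div_pos ht' ht)
      rw [Real.log_div ht.ne' ht'.ne'] at a1
      rw [Real.log_div ht'.ne' ht.ne'] at a2
      have b1 : t' * (t / t' - 1) = t - t' := by field_simp
      have b2 : t * (t' / t - 1) = t' - t := by field_simp
      have c1 := mul_le_mul_of_nonneg_left a1 ht'.le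
      have c2 := mul_le_mul_of_nonneg_left a2 ht.le
      have := le_abs_self (t - t'); have := neg_abs_le (t - t')
      rcases abs_cases (-Real.log t - -Real.log t') with ⟨e, e'⟩ | ⟨e, e'⟩
      · rw [e]; linarith
      · rw [e]; nlinarith
    have h3 : |-Real.log t - -Real.log t'| / Real.log lam ≤ |-Real.log t - -Real.log t'| * (2 * n) := by
      rw [div_le_iff₀ hlog0, mul_assoc]
      refine le_mul_of_one_le_right (abs_nonneg _) ?_
      rw [div_le_iff₀ (by positivity)] at hlog; linarith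
    generalize |-Real.log t - -Real.log t'| = x at *
    have h4 : P ≤ n * (x * (2 * n)) + 1 := by nlinarith
    have h5 := mul_le_mul_of_nonneg_left h4 ht.le
    have h6 := mul_le_mul_of_nonneg_left h2 (show 0 ≤ 2 * (n:ℝ) * n by positivity)
    nlinarith
  · have h1 : t ≤ 2 * |t - t'| := by have := le_abs_self (t - t'); linarith
    have h2 := mul_le_mul_of_nonneg_left hP1 ht.le
    have h3 := mul_le_mul_of_nonneg_left h1 hn0.le
    have h4 : (n:ℝ) * |t - t'| * 1 ≤ n * |t - t'| * n := by gcongr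
    nlinarith

/-- amplitudes of the gadget -/
noncomputable def gξ (n L : ℕ) (d : ℕ → ℕ) (e : Fin n × Fin L × Fin (d L ^ 2)) : ℝ :=
  if (e.2.2 : ℕ) < d e.2.1 ^ 2 then 1 / d e.2.1 else 0

/-- shift relation of the gadget -/
def gr {n L : ℕ} {d : ℕ → ℕ} (p : Prop) (m : Fin n → ℕ) (e e' : Fin n × Fin L × Fin (d L ^ 2)) :
    Prop :=
  p ∧ e'.1 = e.1 ∧ (e'.2.1 : ℕ) = e.2.1 + m e.1 ∧ e'.2.2 = e.2.2 ∧ (e.2.2 : ℕ) < d e.2.1 ^ 2

section
variable {n L : ℕ} {d : ℕ → ℕ} {c lam : ℝ} (hc : 0 < c) (hl : 1 < lam)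
  (hd : ∀ j ≤ L, (d j : ℝ) = c * lam ^ j)
include hc hl hd

lemma gd_pos {j : ℕ} (hj : j ≤ L) : (0:ℝ) < d j := by rw [hd j hj]; positivity

lemma gd_mono {j j' : ℕ} (h : j ≤ j') (h' : j' ≤ L) : d j ^ 2 ≤ d j' ^ 2 := by
  have : (d j : ℝ) ≤ d j' := by
    rw [hd j (h.trans h'), hd j' h']
    exact mul_le_mul_of_nonneg_left (pow_le_pow_right₀ hl.le h) hc.le
  exact Nat.pow_le_pow_left (by exact_mod_cast this) 2

lemma g_norm : ∑ e, gξ n L d e ^ 2 = n * L := by
  have : ∀ (θ : Fin n) (j : Fin L), ∑ ρ : Fin (d L ^ 2), gξ n L d (θ, j, ρ) ^ 2 = 1 := by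
    intro θ j
    have e : ∀ ρ : Fin (d L ^ 2), gξ n L d (θ, j, ρ) ^ 2 =
        if (ρ : ℕ) < d j ^ 2 then (1 / (d j : ℝ)) ^ 2 else 0 := fun ρ => by
      unfold gξ; split_ifs <;> simp
    simp only [e]
    rw [count_lt (gd_mono hc hl hd j.2.le le_rfl)]
    have := gd_pos hc hl hd j.2.le
    push_cast; field_simp
  simp only [Fintype.sum_prod_type, this]
  simp

open Classical in
lemma g_ran (P : Fin n × Fin L × Fin (d L ^ 2) → Prop) {T : ℝ} (hT : 0 ≤ T)
    (h : ∀ e, P e → ∃ p m e', gr p m e' e ∧ (lam ^ m e'.1)⁻¹ ≤ T) :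
    ∑ e, (if P e then gξ n L d e ^ 2 else 0) ≤ n * L * T ^ 2 := by
  have k1 : ∀ e, P e → (e.2.2 : ℝ) + 1 ≤ d e.2.1 ^ 2 * T ^ 2 := by
    intro e he
    obtain ⟨p, m, e', ⟨h0, h1, h2, h3, h4⟩, a2⟩ := h e he
    have a1 : ((e'.2.2 : ℕ) : ℝ) + 1 ≤ (d e'.2.1 : ℝ) ^ 2 := by exact_mod_cast h4
    rw [h3]
    refine a1.trans ?_
    rw [hd _ e.2.1.2.le, hd _ e'.2.1.2.le, h2, pow_add]
    have a3 : 1 ≤ lam ^ m e'.1 * T := by
      rw [inv_le_iff_one_le_mul₀' (by positivity)] at a2; exact a2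
    have a4 : (1:ℝ) ≤ (lam ^ m e'.1 * T) ^ 2 := one_le_pow₀ a3
    have a5 : (c * (lam ^ (e'.2.1 : ℕ) * lam ^ m e'.1)) ^ 2 * T ^ 2 =
        (c * lam ^ (e'.2.1 : ℕ)) ^ 2 * (lam ^ m e'.1 * T) ^ 2 := by ring
    rw [a5]
    exact le_mul_of_one_le_right (by positivity) a4
  have k2 : ∀ e, (if P e then gξ n L d e ^ 2 else 0) ≤
      (1 / (d e.2.1 : ℝ)) ^ 2 * if (e.2.2 : ℝ) + 1 ≤ d e.2.1 ^ 2 * T ^ 2 then 1 else 0 := by
    intro e
    by_cases h : P e
    · rw [if_pos h, if_pos (k1 e h)]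
      unfold gξ; split_ifs <;> simp
    · rw [if_neg h]; split_ifs <;> positivity
  refine (Finset.sum_le_sum fun e _ => k2 e).trans ?_
  have k3 : ∀ j' : Fin L, ∑ ρ : Fin (d L ^ 2), (1 / (d j' : ℝ)) ^ 2 *
      (if (ρ : ℝ) + 1 ≤ d j' ^ 2 * T ^ 2 then (1:ℝ) else 0) ≤ T ^ 2 := fun j' => by
    have := gd_pos hc hl hd j'.2.le
    rw [← Finset.mul_sum]
    refine (mul_le_mul_of_nonneg_left (count_le _ (by positivity)) (by positivity)).trans
      (le_of_eq ?_)
    field_simp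
  rw [Fintype.sum_prod_type]
  refine (Finset.sum_le_sum fun θ _ => ?_).trans (le_of_eq (?_ : ∑ _θ : Fin n, L * T ^ 2 = _))
  · rw [Fintype.sum_prod_type]
    refine (Finset.sum_le_sum fun j' _ => k3 j').trans ?_
    simp
  · simp [mul_assoc]

open Classical in
lemma g_corr (m m' : Fin n → ℕ) {p p' : Prop} (hp : p) (hp' : p') :
    ∑ e, ∑ e', (if gr p m e e' ∧ gr p' m' e e' then gξ n L d e * gξ n L d e' else 0) =
      ∑ θ : Fin n, if m θ = m' θ then ((L - m θ : ℕ) : ℝ) * (lam ^ m θ)⁻¹ else 0 := by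
  have k1 : ∀ e, ∑ e', (if gr p m e e' ∧ gr p' m' e e' then gξ n L d e * gξ n L d e' else 0) =
      if (e.2.2 : ℕ) < d e.2.1 ^ 2 then (if m e.1 = m' e.1 then (if (e.2.1 : ℕ) < L - m e.1 then
        (1 / (d e.2.1 : ℝ)) ^ 2 * (lam ^ m e.1)⁻¹ else 0) else 0) else 0 := by
    intro e
    split_ifs with h1 h2 h3
    · have hlt : (e.2.1 : ℕ) + m e.1 < L := by omega
      rw [Finset.sum_eq_single (e.1, ⟨_, hlt⟩, e.2.2)]
      · have : gr p m e (e.1, ⟨_, hlt⟩, e.2.2) ∧ gr p' m' e (e.1, ⟨_, hlt⟩, e.2.2) :=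
          ⟨⟨hp, rfl, rfl, rfl, h1⟩, ⟨hp', rfl, by simp [h2], rfl, h1⟩⟩
        rw [if_pos this]
        have h4 : (e.2.2 : ℕ) < d (e.2.1 + m e.1) ^ 2 :=
          h1.trans_le (gd_mono hc hl hd (by omega) hlt.le)
        simp only [gξ, h1, h4, if_true]
        rw [hd _ hlt.le, hd _ e.2.1.2.le, pow_add]
        field_simp
      · rintro ⟨a, b, c⟩ _ hne
        rw [if_neg]
        rintro ⟨⟨_, k1, k2, k3, _⟩, _⟩
        simp only at k1 k2 k3
        exact hne (by simp only [Prod.mk.injEq]; exact ⟨k1, Fin.ext k2, k3⟩)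
      · simp
    · refine Finset.sum_eq_zero fun e' _ => if_neg ?_
      rintro ⟨⟨_, _, k2, _⟩, _⟩
      have := e'.2.1.2
      omega
    · refine Finset.sum_eq_zero fun e' _ => if_neg ?_
      rintro ⟨⟨_, _, k2, _⟩, ⟨_, _, k3, _⟩⟩
      omega
    · exact Finset.sum_eq_zero fun e' _ => if_neg fun h => h1 h.1.2.2.2.2
  simp only [k1]
  rw [Fintype.sum_prod_type]
  refine Finset.sum_congr rfl fun θ _ => ?_
  rw [Fintype.sum_prod_type]
  simp only [fun j' : Fin L => count_lt (gd_mono hc hl hd j'.2.le le_rfl)]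
  split_ifs with h
  · rw [← count_lt (Nat.sub_le L _)]
    refine Finset.sum_congr rfl fun j' _ => ?_
    have := gd_pos hc hl hd j'.2.le
    split_ifs
    · push_cast; field_simp
    · simp
  · simp

end

lemma term_bound {L m y t u : ℝ} (hL : 0 < L) (hm0 : 0 ≤ m) (ht : 0 < t) (hu : 0 < u) (hu1 : u ≤ 1)
    (hm : m ≤ L * u) (b1 : t / (1 + u) ≤ y) (b2 : y ≤ (1 + u) ^ 2 * t) :
    |(L - m) * y - L * t| ≤ L * (3 * t * u) := by
  have y0 : 0 ≤ y := le_trans (by positivity) b1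
  have b3 : t * (1 - u) ≤ y := by
    refine le_trans ?_ b1
    rw [le_div_iff₀ (by positivity)]; nlinarith [mul_pos ht (mul_pos hu hu)]
  rw [abs_le]
  constructor
  · have f1 : L * (1 - u) * (t * (1 - u)) ≤ (L - m) * y :=
      mul_le_mul (by linarith) b3 (mul_nonneg ht.le (by linarith)) (by nlinarith)
    nlinarith [mul_pos hL (mul_pos ht hu), mul_nonneg hL.le (mul_nonneg ht.le (sq_nonneg u))]
  · have f1 : (L - m) * y ≤ L * ((1 + u) ^ 2 * t) :=
      mul_le_mul (by linarith) b2 y0 hL.le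
    have f2 : u * u ≤ u := by nlinarith
    nlinarith [mul_le_mul_of_nonneg_left f2 (mul_pos hL ht).le]

open Classical in
theorem gadget {I : Type} [Fintype I] {n : ℕ} (hn : 0 < n) (t : I → ℝ) (ht0 : ∀ i, 0 ≤ t i)
    (ht1 : ∀ i, t i ≤ 1) :
    ∃ (E : Type) (_ : Fintype E) (_ : DecidableEq E) (ξ : E → ℝ) (r : I → E → E → Prop) (Nn : ℝ),
      0 < Nn ∧ ∑ e, ξ e ^ 2 = Nn ∧
      (∀ i e e₁ e₂, r i e e₁ → r i e e₂ → e₁ = e₂) ∧ (∀ i e₁ e₂ e, r i e₁ e → r i e₂ e → e₁ = e₂) ∧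
      (∀ i j, ∑ e, (if (∃ e', r i e' e) ∨ (∃ e', r j e' e) then ξ e ^ 2 else 0) ≤
        Nn * ((1 + 1 / n) ^ 2 * max (t i) (t j)) ^ 2) ∧
      (∀ i j, |∑ e, ∑ e', (if r i e e' ∧ r j e e' then ξ e * ξ e' else 0) - Nn * t i| ≤
        Nn * (4 * t i / n + 4 * n * |t i - t j|)) := by
  have hn' : (1:ℝ) ≤ n := by exact_mod_cast hn
  have hn0 : (0:ℝ) < n := by linarith
  obtain ⟨lam, hlam0⟩ : ∃ lam : ℝ, lam = (n + 1) / n := ⟨_, rfl⟩
  have hlam : 1 + 1 / (n:ℝ) = lam := by rw [hlam0]; field_simp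
  have hl : 1 < lam := by rw [hlam0, lt_div_iff₀ hn0]; linarith
  have hl0 : 0 < lam := by linarith
  obtain ⟨σ, hσ⟩ : ∃ σ : I → ℕ, ∀ i, σ i = ⌊n * (Real.log (1 / t i) / Real.log lam)⌋₊ := ⟨_, fun _ => rfl⟩
  obtain ⟨m, hm⟩ : ∃ m : I → Fin n → ℕ, ∀ i θ, m i θ = (σ i + θ) / n := ⟨_, fun _ _ => rfl⟩
  obtain ⟨L, hL0, hmL⟩ : ∃ L : ℕ, 0 < L ∧ ∀ i θ, n * m i θ ≤ L := by
    refine ⟨n * ∑ i, (σ i + 1) + 1, by positivity, fun i θ => ?_⟩
    have h1 : σ i + 1 ≤ ∑ i, (σ i + 1) := Finset.single_le_sum (f := fun i => σ i + 1)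
      (fun _ _ => Nat.zero_le _) (Finset.mem_univ i)
    have h2 : m i θ ≤ σ i + 1 := by
      rw [hm]
      apply Nat.div_le_of_le_mul
      have := θ.2
      nlinarith
    have := Nat.mul_le_mul_left n (h2.trans h1)
    omega
  have hL0' : (0:ℝ) < L := by exact_mod_cast hL0
  obtain ⟨d, hd⟩ : ∃ d : ℕ → ℕ, ∀ j ≤ L, (d j : ℝ) = n ^ L * lam ^ j := by
    refine ⟨fun j => (n + 1) ^ j * n ^ (L - j), fun j hj => ?_⟩
    obtain ⟨c, hc⟩ := Nat.exists_eq_add_of_le hj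
    simp only [hc, Nat.add_sub_cancel_left, hlam0]
    push_cast
    rw [div_pow, pow_add]; field_simp
  have hc : (0:ℝ) < n ^ L := by positivity
  have sb : ∀ i, 0 < t i → ∀ θ : Fin n, t i / lam ≤ (lam ^ m i θ)⁻¹ ∧ (lam ^ m i θ)⁻¹ ≤ lam ^ 2 * t i := by
    intro i hi θ
    rw [hm, hσ, hlam0]
    exact scale_bounds hn hi (ht1 i) θ.2
  refine ⟨Fin n × Fin L × Fin (d L ^ 2), inferInstance, inferInstance, gξ n L d,
    fun i => gr (0 < t i) (m i), n * L, by positivity, g_norm hc hl hd, ?_, ?_, ?_, ?_⟩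
  · rintro i e ⟨a, b, c⟩ ⟨a', b', c'⟩ h h'
    simp only [gr] at h h'
    simp only [Prod.mk.injEq]
    exact ⟨h.2.1.trans h'.2.1.symm, Fin.ext (h.2.2.1.trans h'.2.2.1.symm),
      h.2.2.2.1.trans h'.2.2.2.1.symm⟩
  · rintro i ⟨a, b, c⟩ ⟨a', b', c'⟩ e h h'
    simp only [gr] at h h'
    simp only [Prod.mk.injEq]
    have h1 : a = a' := h.2.1.symm.trans h'.2.1
    subst h1
    exact ⟨rfl, Fin.ext (by omega), h.2.2.2.1.symm.trans h'.2.2.2.1⟩
  · intro i j
    rw [hlam]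
    have := ht0 i
    convert g_ran hc hl hd (fun e => (∃ e', gr (0 < t i) (m i) e' e) ∨ (∃ e', gr (0 < t j) (m j) e' e))
      (T := lam ^ 2 * max (t i) (t j)) (by positivity) ?_
    rintro e (⟨e', h⟩ | ⟨e', h⟩)
    · exact ⟨_, _, e', h, (sb i h.1 e'.1).2.trans (by gcongr; exact le_max_left _ _)⟩
    · exact ⟨_, _, e', h, (sb j h.1 e'.1).2.trans (by gcongr; exact le_max_right _ _)⟩
  · intro i j
    have hab := abs_nonneg (t i - t j)
    by_cases hij : 0 < t i ∧ 0 < t j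
    swap
    · have : ∀ e e' : Fin n × Fin L × Fin (d L ^ 2),
          ¬ (gr (0 < t i) (m i) e e' ∧ gr (0 < t j) (m j) e e') := fun e e' h => hij ⟨h.1.1, h.2.1⟩
      simp only [this, if_false, Finset.sum_const_zero, zero_sub, abs_neg]
      rw [abs_of_nonneg (mul_nonneg (by positivity) (ht0 i))]
      refine mul_le_mul_of_nonneg_left ?_ (by positivity)
      have h3 : 0 ≤ 4 * t i / n := by have := ht0 i; positivity
      rcases (ht0 i).eq_or_lt with h | h
      · have : 0 ≤ 4 * n * |t i - t j| := by positivity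
        linarith
      · have : t j = 0 := le_antisymm (not_lt.mp fun h' => hij ⟨h, h'⟩) (ht0 j)
        rw [this, sub_zero, abs_of_pos h]; nlinarith
    have k2 := g_corr hc hl hd (m i) (m j) hij.1 hij.2
    have hP := scale_diff hn hij.1 (ht1 i) hij.2 (ht1 j)
      (P := ∑ θ : Fin n, (if m i θ = m j θ then (0:ℝ) else 1)) (by
        refine (Finset.sum_le_card_nsmul _ _ 1 fun θ _ => by split_ifs <;> norm_num).trans ?_
        simp) (by
        simp only [hm, hσ, hlam0]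
        exact count_ne hn _ _)
    have hti := hij.1
    have k3 : ∀ θ : Fin n, |(if m i θ = m j θ then ((L - m i θ : ℕ) : ℝ) * (lam ^ m i θ)⁻¹ else 0) -
        L * t i| ≤ L * (3 * t i * (1 / n)) + L * (t i * if m i θ = m j θ then 0 else 1) := by
      intro θ
      split_ifs with h
      · obtain ⟨b1, b2⟩ := sb i hti θ
        have c1 := hmL i θ
        have c2 : m i θ ≤ L := le_trans (Nat.le_mul_of_pos_left _ hn) c1
        have c1' : (n:ℝ) * m i θ ≤ L := by exact_mod_cast c1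
        rw [Nat.cast_sub c2, mul_zero, mul_zero, add_zero]
        refine term_bound hL0' (Nat.cast_nonneg _) hti (by positivity)
          (by rw [div_le_one hn0]; exact hn') ?_ (by rwa [hlam]) (by rwa [hlam])
        rw [mul_one_div, le_div_iff₀ hn0]; linarith
      · rw [zero_sub, abs_neg, abs_of_nonneg (by positivity), mul_one]
        have : 0 ≤ L * (3 * t i * (1 / n)) := by positivity
        linarith
    have e1 : (n:ℝ) * L * t i = ∑ _θ : Fin n, (L:ℝ) * t i := by simp [mul_assoc]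
    refine le_trans (le_of_eq (congrArg abs (congrArg₂ (· - ·) (Eq.trans ?_ k2) e1))) ?_
    · congr!
    rw [← Finset.sum_sub_distrib]
    refine (Finset.abs_sum_le_sum_abs _ _).trans ((Finset.sum_le_sum fun θ _ => k3 θ).trans ?_)
    rw [Finset.sum_add_distrib, ← Finset.mul_sum, ← Finset.mul_sum, ← Finset.mul_sum,
      ← Finset.mul_sum]
    have e2 : ∑ _θ : Fin n, 1 / (n:ℝ) = 1 := by simp [hn0.ne']
    have e3 : n * L * (4 * t i / n + 4 * n * |t i - t j|) =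
        L * (3 * t i * 1) + L * (t i + 4 * n * n * |t i - t j|) := by field_simp; ring
    rw [e2, e3]
    gcongr

end Crest.Agent.PR
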