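import Mathlib

/-! Matrix basics for parallel repetition: bipartite states as matrices. -/

set_option linter.unusedSectionVars false

namespace Crest.Agent.PR

open Matrix
open scoped ComplexOrder MatrixOrder

variable {α β γ δ : Type} [Fintype α] [Fintype β] [Fintype γ] [Fintype δ]
  [DecidableEq α] [DecidableEq β] [DecidableEq γ] [DecidableEq δ]

/-- expectation of `M ⊗ Nᵀ` in the state `Ψ` -/
noncomputable def ev (Ψ : Matrix α β ℂ) (M : Matrix α α ℂ) (N : Matrix β β ℂ) : ℝ :=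
  (trace (Ψᴴ * M * Ψ * N)).re

/-- matrix as a Euclidean vector -/
noncomputable def tv (Φ : Matrix α β ℂ) : EuclideanSpace ℂ (α × β) :=
  WithLp.toLp 2 (fun p => Φ p.1 p.2)

/-- Hilbert-Schmidt norm -/
noncomputable def nrm (Φ : Matrix α β ℂ) : ℝ := ‖tv Φ‖

lemma tv_add (Φ Φ' : Matrix α β ℂ) : tv (Φ + Φ') = tv Φ + tv Φ' := by
  ext p; simp [tv]

lemma tv_sub (Φ Φ' : Matrix α β ℂ) : tv (Φ - Φ') = tv Φ - tv Φ' := by
  ext p; simp [tv]

lemma tv_smul (c : ℝ) (Φ : Matrix α β ℂ) : tv (c • Φ) = c • tv Φ := by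
  ext p; simp [tv]

lemma tv_zero : tv (0 : Matrix α β ℂ) = 0 := by
  ext p; simp [tv]

lemma nrm_nonneg (Φ : Matrix α β ℂ) : 0 ≤ nrm Φ := norm_nonneg _

lemma nrm_zero : nrm (0 : Matrix α β ℂ) = 0 := by simp [nrm, tv_zero]

lemma nrm_add_le (Φ Φ' : Matrix α β ℂ) : nrm (Φ + Φ') ≤ nrm Φ + nrm Φ' := by
  unfold nrm; rw [tv_add]; exact norm_add_le _ _

lemma nrm_sub_comm (Φ Φ' : Matrix α β ℂ) : nrm (Φ - Φ') = nrm (Φ' - Φ) := by
  unfold nrm; rw [tv_sub, tv_sub]; exact norm_sub_rev _ _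

lemma nrm_tri (Φ Φ' Φ'' : Matrix α β ℂ) : nrm (Φ - Φ'') ≤ nrm (Φ - Φ') + nrm (Φ' - Φ'') := by
  have := nrm_add_le (Φ - Φ') (Φ' - Φ'')
  simpa using this

lemma nrm_le_add (Φ Φ' : Matrix α β ℂ) : nrm Φ ≤ nrm Φ' + nrm (Φ - Φ') := by
  have := nrm_add_le Φ' (Φ - Φ')
  simpa using this

lemma nrm_smul (c : ℝ) (Φ : Matrix α β ℂ) : nrm (c • Φ) = |c| * nrm Φ := by
  unfold nrm; rw [tv_smul, norm_smul]; simp

lemma nrm_sum_le {ι : Type} (s : Finset ι) (F : ι → Matrix α β ℂ) :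
    nrm (∑ i ∈ s, F i) ≤ ∑ i ∈ s, nrm (F i) := by
  classical
  induction s using Finset.induction_on with
  | empty => simp [nrm_zero]
  | insert a s ha ih =>
    rw [Finset.sum_insert ha, Finset.sum_insert ha]
    exact (nrm_add_le _ _).trans (by linarith)

lemma nrm_sq_sum (Φ : Matrix α β ℂ) : nrm Φ ^ 2 = ∑ i, ∑ j, ‖Φ i j‖ ^ 2 := by
  unfold nrm
  rw [EuclideanSpace.norm_sq_eq, Fintype.sum_prod_type]
  simp [tv]

lemma nrm_sq (Φ : Matrix α β ℂ) : nrm Φ ^ 2 = (trace (Φᴴ * Φ)).re := by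
  rw [nrm_sq_sum, Finset.sum_comm]
  simp only [trace, diag, mul_apply, conjTranspose_apply, Complex.re_sum]
  refine Finset.sum_congr rfl fun j _ => Finset.sum_congr rfl fun i _ => ?_
  rw [Complex.star_def, Complex.conj_mul']
  norm_cast

lemma ev_one_one (Φ : Matrix α β ℂ) : ev Φ 1 1 = nrm Φ ^ 2 := by
  simp [ev, nrm_sq]

lemma exists_factor {M : Matrix α α ℂ} (hM : M.PosSemidef) : ∃ P : Matrix α α ℂ, M = Pᴴ * P := by
  obtain ⟨B, hB⟩ := CStarAlgebra.nonneg_iff_eq_star_mul_self.mp hM.nonneg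
  exact ⟨B, hB⟩

lemma ev_sandwich (Ψ : Matrix α β ℂ) (S : Matrix γ α ℂ) (T : Matrix δ β ℂ)
    (M : Matrix γ γ ℂ) (N : Matrix δ δ ℂ) :
    ev (S * Ψ * Tᴴ) M N = ev Ψ (Sᴴ * M * S) (Tᴴ * N * T) := by
  unfold ev
  simp only [conjTranspose_mul, conjTranspose_conjTranspose, Matrix.mul_assoc]
  rw [trace_mul_comm T]
  simp only [Matrix.mul_assoc]

lemma ev_factor (Ψ : Matrix α β ℂ) (P : Matrix γ α ℂ) (Q : Matrix δ β ℂ) :
    ev Ψ (Pᴴ * P) (Qᴴ * Q) = nrm (P * Ψ * Qᴴ) ^ 2 := by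
  rw [← ev_one_one, ev_sandwich]; simp

lemma ev_nonneg (Ψ : Matrix α β ℂ) {M : Matrix α α ℂ} {N : Matrix β β ℂ}
    (hM : M.PosSemidef) (hN : N.PosSemidef) : 0 ≤ ev Ψ M N := by
  obtain ⟨P, rfl⟩ := exists_factor hM
  obtain ⟨Q, rfl⟩ := exists_factor hN
  rw [ev_factor]; positivity

lemma ev_swap (Ψ : Matrix α β ℂ) (M : Matrix α α ℂ) (N : Matrix β β ℂ) :
    ev Ψᴴ N M = ev Ψ M N := by
  unfold ev
  rw [conjTranspose_conjTranspose]
  have : trace (Ψ * N * Ψᴴ * M) = trace (Ψᴴ * M * Ψ * N) := by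
    rw [Matrix.mul_assoc (Ψ * N), trace_mul_comm]
    simp only [Matrix.mul_assoc]
  rw [this]

/-- `ev` as a real-linear map in the left operator -/
noncomputable def evL (Ψ : Matrix α β ℂ) (N : Matrix β β ℂ) : Matrix α α ℂ →ₗ[ℝ] ℝ where
  toFun M := ev Ψ M N
  map_add' M M' := by simp [ev, Matrix.mul_add, Matrix.add_mul]
  map_smul' c M := by simp [ev]

/-- `ev` as a real-linear map in the right operator -/
noncomputable def evR (Ψ : Matrix α β ℂ) (M : Matrix α α ℂ) : Matrix β β ℂ →ₗ[ℝ] ℝ where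
  toFun N := ev Ψ M N
  map_add' N N' := by simp [ev, Matrix.mul_add]
  map_smul' c N := by simp [ev]

@[simp] lemma evL_apply (Ψ : Matrix α β ℂ) (M : Matrix α α ℂ) (N : Matrix β β ℂ) :
    evL Ψ N M = ev Ψ M N := rfl
@[simp] lemma evR_apply (Ψ : Matrix α β ℂ) (M : Matrix α α ℂ) (N : Matrix β β ℂ) :
    evR Ψ M N = ev Ψ M N := rfl

lemma ev_add_left (Ψ : Matrix α β ℂ) (M M' : Matrix α α ℂ) (N : Matrix β β ℂ) :
    ev Ψ (M + M') N = ev Ψ M N + ev Ψ M' N := (evL Ψ N).map_add M M'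
lemma ev_add_right (Ψ : Matrix α β ℂ) (M : Matrix α α ℂ) (N N' : Matrix β β ℂ) :
    ev Ψ M (N + N') = ev Ψ M N + ev Ψ M N' := (evR Ψ M).map_add N N'
lemma ev_sub_left (Ψ : Matrix α β ℂ) (M M' : Matrix α α ℂ) (N : Matrix β β ℂ) :
    ev Ψ (M - M') N = ev Ψ M N - ev Ψ M' N := (evL Ψ N).map_sub M M'
lemma ev_sub_right (Ψ : Matrix α β ℂ) (M : Matrix α α ℂ) (N N' : Matrix β β ℂ) :
    ev Ψ M (N - N') = ev Ψ M N - ev Ψ M N' := (evR Ψ M).map_sub N N'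
lemma ev_smul_left (Ψ : Matrix α β ℂ) (c : ℝ) (M : Matrix α α ℂ) (N : Matrix β β ℂ) :
    ev Ψ (c • M) N = c * ev Ψ M N := (evL Ψ N).map_smul c M
lemma ev_smul_right (Ψ : Matrix α β ℂ) (c : ℝ) (M : Matrix α α ℂ) (N : Matrix β β ℂ) :
    ev Ψ M (c • N) = c * ev Ψ M N := (evR Ψ M).map_smul c N
lemma ev_sum_left {ι : Type} (s : Finset ι) (Ψ : Matrix α β ℂ) (M : ι → Matrix α α ℂ)
    (N : Matrix β β ℂ) : ev Ψ (∑ i ∈ s, M i) N = ∑ i ∈ s, ev Ψ (M i) N := map_sum (evL Ψ N) M s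
lemma ev_sum_right {ι : Type} (s : Finset ι) (Ψ : Matrix α β ℂ) (M : Matrix α α ℂ)
    (N : ι → Matrix β β ℂ) : ev Ψ M (∑ i ∈ s, N i) = ∑ i ∈ s, ev Ψ M (N i) := map_sum (evR Ψ M) N s
lemma ev_zero_left (Ψ : Matrix α β ℂ) (N : Matrix β β ℂ) : ev Ψ 0 N = 0 := (evL Ψ N).map_zero
lemma ev_zero_right (Ψ : Matrix α β ℂ) (M : Matrix α α ℂ) : ev Ψ M 0 = 0 := (evR Ψ M).map_zero

lemma ev_smul (c : ℝ) (Ψ : Matrix α β ℂ) (M : Matrix α α ℂ) (N : Matrix β β ℂ) :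
    ev (c • Ψ) M N = c ^ 2 * ev Ψ M N := by
  unfold ev
  simp [conjTranspose_smul, smul_smul, sq]

lemma ev_mono_left (Ψ : Matrix α β ℂ) {M M' : Matrix α α ℂ} {N : Matrix β β ℂ}
    (h : (M' - M).PosSemidef) (hN : N.PosSemidef) : ev Ψ M N ≤ ev Ψ M' N := by
  have := ev_nonneg Ψ h hN
  rw [ev_sub_left] at this; linarith

lemma ev_mono_right (Ψ : Matrix α β ℂ) {M : Matrix α α ℂ} {N N' : Matrix β β ℂ}
    (hM : M.PosSemidef) (h : (N' - N).PosSemidef) : ev Ψ M N ≤ ev Ψ M N' := by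
  have := ev_nonneg Ψ hM h
  rw [ev_sub_right] at this; linarith

lemma sq_add_le {a b θ : ℝ} (hθ : 0 < θ) : (a + b) ^ 2 ≤ (1 + θ) * a ^ 2 + (1 + 1 / θ) * b ^ 2 := by
  have h : 0 ≤ (θ * a - b) ^ 2 / θ := by positivity
  have e : (θ * a - b) ^ 2 / θ = θ * a ^ 2 - 2 * a * b + 1 / θ * b ^ 2 := by field_simp; ring
  nlinarith

lemma sq_le_of_le_add {x a b θ : ℝ} (hx : 0 ≤ x) (h : x ≤ a + b) (hθ : 0 < θ) :
    x ^ 2 ≤ (1 + θ) * a ^ 2 + (1 + 1 / θ) * b ^ 2 :=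
  (pow_le_pow_left₀ hx h 2).trans (sq_add_le hθ)

lemma ev_peter (Φ Φ' : Matrix α β ℂ) {M : Matrix α α ℂ} {N : Matrix β β ℂ}
    (hM : M.PosSemidef) (hN : N.PosSemidef) {θ : ℝ} (hθ : 0 < θ) :
    ev Φ M N ≤ (1 + θ) * ev Φ' M N + (1 + 1 / θ) * ev (Φ - Φ') M N := by
  obtain ⟨P, rfl⟩ := exists_factor hM
  obtain ⟨Q, rfl⟩ := exists_factor hN
  simp only [ev_factor]
  refine sq_le_of_le_add (nrm_nonneg _) ?_ hθ
  have := nrm_le_add (P * Φ * Qᴴ) (P * Φ' * Qᴴ)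
  rwa [← Matrix.sub_mul, ← Matrix.mul_sub] at this

lemma ev_cs {ι : Type} [Fintype ι] (ξ : ι → ℝ) (Y : ι → Matrix α β ℂ) {M : Matrix α α ℂ}
    {N : Matrix β β ℂ} (hM : M.PosSemidef) (hN : N.PosSemidef) :
    ev (∑ e, ξ e • Y e) M N ≤ (∑ e, ξ e ^ 2) * ∑ e, ev (Y e) M N := by
  obtain ⟨P, rfl⟩ := exists_factor hM
  obtain ⟨Q, rfl⟩ := exists_factor hN
  simp only [ev_factor]
  have h1 : nrm (P * (∑ e, ξ e • Y e) * Qᴴ) ≤ ∑ e, |ξ e| * nrm (P * Y e * Qᴴ) := by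
    rw [Matrix.mul_sum, Matrix.sum_mul]
    refine (nrm_sum_le _ _).trans (le_of_eq (Finset.sum_congr rfl fun e _ => ?_))
    rw [Matrix.mul_smul, Matrix.smul_mul, nrm_smul]
  refine (pow_le_pow_left₀ (nrm_nonneg _) h1 2).trans ?_
  refine (Finset.sum_mul_sq_le_sq_mul_sq _ _ _).trans (le_of_eq ?_)
  simp [sq_abs]

section block
variable {o : Type} [Fintype o] [DecidableEq o]

lemma ev_block (Φ : o → Matrix α β ℂ) (M : o → Matrix α α ℂ) (N : o → Matrix β β ℂ) :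
    ev (blockDiagonal Φ) (blockDiagonal M) (blockDiagonal N) = ∑ l, ev (Φ l) (M l) (N l) := by
  unfold ev
  rw [blockDiagonal_conjTranspose, ← blockDiagonal_mul, ← blockDiagonal_mul, ← blockDiagonal_mul,
    trace_blockDiagonal, Complex.re_sum]

lemma psd_block {M : o → Matrix α α ℂ} (h : ∀ l, (M l).PosSemidef) :
    (blockDiagonal M).PosSemidef := by
  choose P hP using fun l => exists_factor (h l)
  have : M = fun l => (P l)ᴴ * P l := funext hP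
  rw [this, blockDiagonal_mul, ← blockDiagonal_conjTranspose]
  exact posSemidef_conjTranspose_mul_self _

lemma block_sum {ι : Type} (s : Finset ι) (M : ι → o → Matrix α β ℂ) :
    ∑ i ∈ s, blockDiagonal (M i) = blockDiagonal (fun l => ∑ i ∈ s, M i l) := by
  have := map_sum (blockDiagonalAddMonoidHom α β o ℂ) M s
  simp only [blockDiagonalAddMonoidHom, AddMonoidHom.coe_mk, ZeroHom.coe_mk] at this
  rw [← this]; congr 1; ext l; simp [Finset.sum_apply]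

lemma nrm_block (Φ : o → Matrix α β ℂ) : nrm (blockDiagonal Φ) ^ 2 = ∑ l, nrm (Φ l) ^ 2 := by
  rw [← ev_one_one, ← blockDiagonal_one, ← blockDiagonal_one, ev_block]
  simp [ev_one_one]

lemma psd_one_sub_block {M : o → Matrix α α ℂ} (h : ∀ l, (1 - M l).PosSemidef) :
    (1 - blockDiagonal M).PosSemidef := by
  rw [← blockDiagonal_one, ← blockDiagonal_sub]
  exact psd_block h

end block

/-- sub-normalised measurement -/
def SubP {A : Type} [Fintype A] (M : A → Matrix α α ℂ) : Prop :=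
  (∀ a, (M a).PosSemidef) ∧ (1 - ∑ a, M a).PosSemidef

/-- winning quadratic form -/
noncomputable def qf {A B : Type} [Fintype A] [Fintype B] (V : A → B → Bool) (Φ : Matrix α β ℂ)
    (M : A → Matrix α α ℂ) (N : B → Matrix β β ℂ) : ℝ :=
  ∑ a, ∑ b, if V a b then ev Φ (M a) (N b) else 0

section qf
variable {A B : Type} [Fintype A] [Fintype B] (V : A → B → Bool)

lemma qf_nonneg (Φ : Matrix α β ℂ) {M : A → Matrix α α ℂ} {N : B → Matrix β β ℂ}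
    (hM : ∀ a, (M a).PosSemidef) (hN : ∀ b, (N b).PosSemidef) : 0 ≤ qf V Φ M N := by
  refine Finset.sum_nonneg fun a _ => Finset.sum_nonneg fun b _ => ?_
  split_ifs
  · exact ev_nonneg _ (hM a) (hN b)
  · exact le_rfl

lemma qf_le_ev (Φ : Matrix α β ℂ) {M : A → Matrix α α ℂ} {N : B → Matrix β β ℂ}
    (hM : ∀ a, (M a).PosSemidef) (hN : ∀ b, (N b).PosSemidef) :
    qf V Φ M N ≤ ev Φ (∑ a, M a) (∑ b, N b) := by
  rw [ev_sum_left]
  refine Finset.sum_le_sum fun a _ => ?_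
  rw [ev_sum_right]
  refine Finset.sum_le_sum fun b _ => ?_
  split_ifs
  · exact le_rfl
  · exact ev_nonneg _ (hM a) (hN b)

lemma qf_le_nrm (Φ : Matrix α β ℂ) {M : A → Matrix α α ℂ} {N : B → Matrix β β ℂ}
    (hM : SubP M) (hN : SubP N) : qf V Φ M N ≤ nrm Φ ^ 2 := by
  refine (qf_le_ev V Φ hM.1 hN.1).trans ?_
  rw [← ev_one_one]
  have h1 : (∑ b, N b).PosSemidef := posSemidef_sum _ fun b _ => hN.1 b
  exact (ev_mono_left Φ hM.2 h1).trans (ev_mono_right Φ PosSemidef.one hN.2)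

lemma qf_peter (Φ Φ' : Matrix α β ℂ) {M : A → Matrix α α ℂ} {N : B → Matrix β β ℂ}
    (hM : SubP M) (hN : SubP N) {θ : ℝ} (hθ : 0 < θ) :
    qf V Φ M N ≤ (1 + θ) * qf V Φ' M N + (1 + 1 / θ) * nrm (Φ - Φ') ^ 2 := by
  have h1 : qf V Φ M N ≤ (1 + θ) * qf V Φ' M N + (1 + 1 / θ) * qf V (Φ - Φ') M N := by
    unfold qf
    simp only [Finset.mul_sum, ← Finset.sum_add_distrib]
    refine Finset.sum_le_sum fun a _ => Finset.sum_le_sum fun b _ => ?_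
    split_ifs
    · exact ev_peter _ _ (hM.1 a) (hN.1 b) hθ
    · simp
  have h2 := qf_le_nrm V (Φ - Φ') hM hN
  have h3 : 0 ≤ 1 + 1 / θ := by positivity
  nlinarith [mul_le_mul_of_nonneg_left h2 h3]

lemma qf_smul (c : ℝ) (Φ : Matrix α β ℂ) (M : A → Matrix α α ℂ) (N : B → Matrix β β ℂ) :
    qf V (c • Φ) M N = c ^ 2 * qf V Φ M N := by
  unfold qf
  simp only [Finset.mul_sum, ev_smul]
  refine Finset.sum_congr rfl fun a _ => Finset.sum_congr rfl fun b _ => ?_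
  split_ifs <;> simp

end qf

end Crest.Agent.PR
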