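import Crest.Agent.PR.Bridge

/-! Rounding through a Poincaré inequality on the support components. -/

set_option linter.unusedSectionVars false

namespace Crest.Agent.PR

open Matrix Function Crest.MathPhysics.NonlocalGame
open scoped ComplexOrder MatrixOrder

variable {α β : Type} [Fintype α] [Fintype β] [DecidableEq α] [DecidableEq β]

lemma walk_bound {Z : Type} {H : SimpleGraph Z} (Φ : Z → Matrix α β ℂ) (e : Z → ℝ)
    (he : ∀ t, 0 ≤ e t) (h : ∀ u u', H.Adj u u' → nrm (Φ u - Φ u') ≤ e u + e u') {u w : Z}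
    (p : H.Walk u w) : nrm (Φ u - Φ w) + e u ≤ 2 * (p.support.map e).sum := by
  induction p with
  | nil => simp [nrm_zero]; linarith [he ‹_›]
  | cons hadj p ih =>
    rename_i a b c
    simp only [SimpleGraph.Walk.support_cons, List.map_cons, List.sum_cons]
    have := h _ _ hadj
    have := nrm_tri (Φ a) (Φ b) (Φ c)
    linarith

lemma mem_comp (G : Game) (z w : Fin G.nX × Fin G.nY) :
    w ∈ G.supportComponent z ↔ G.supportGraph.Reachable z w := by
  simp [Game.supportComponent]

lemma comp_bound (G : Game) (Φ : Fin G.nX × Fin G.nY → Matrix α β ℂ) (e : Fin G.nX × Fin G.nY → ℝ)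
    (he : ∀ t, 0 ≤ e t) (h : ∀ u u', G.supportGraph.Adj u u' → nrm (Φ u - Φ u') ≤ e u + e u')
    {u w : Fin G.nX × Fin G.nY} (hr : G.supportGraph.Reachable u w) :
    nrm (Φ u - Φ w) ^ 2 ≤ 8 * ((G.supportComponent u).card - 1 : ℝ) *
      ∑ t ∈ G.supportComponent u, e t ^ 2 := by
  have hS : 0 ≤ ∑ t ∈ G.supportComponent u, e t ^ 2 := Finset.sum_nonneg fun t _ => sq_nonneg _
  have hu : u ∈ G.supportComponent u := (mem_comp G u u).mpr (SimpleGraph.Reachable.refl u)
  by_cases huw : u = w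
  · subst huw
    have : (1:ℝ) ≤ (G.supportComponent u).card := by exact_mod_cast Finset.card_pos.mpr ⟨u, hu⟩
    simp only [sub_self, nrm_zero]
    have : 0 ≤ ((G.supportComponent u).card - 1 : ℝ) := by linarith
    rw [zero_pow two_ne_zero]
    positivity
  have h2 : (2:ℝ) ≤ (G.supportComponent u).card := by
    exact_mod_cast Finset.one_lt_card.mpr ⟨u, hu, w, (mem_comp G u w).mpr hr, huw⟩
  obtain ⟨p, hp⟩ := hr.exists_isPath
  have h1 := walk_bound Φ e he h p
  rw [← List.sum_toFinset _ hp.support_nodup] at h1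
  have h3 : ∑ t ∈ p.support.toFinset, e t ≤ ∑ t ∈ G.supportComponent u, e t := by
    refine Finset.sum_le_sum_of_subset_of_nonneg (fun t ht => ?_) fun t _ _ => he t
    rw [mem_comp]
    exact ⟨p.takeUntil t (List.mem_toFinset.mp ht)⟩
  have h4 : nrm (Φ u - Φ w) ≤ 2 * ∑ t ∈ G.supportComponent u, e t := by linarith [he u]
  have h5 := pow_le_pow_left₀ (nrm_nonneg _) h4 2
  have h6 := sq_sum_le_card_mul_sum_sq (s := G.supportComponent u) (f := e)
  nlinarith

lemma round_comp (G : Game) {v κ θ : ℝ} (hv1 : v ≤ 1) (hθ : 0 < θ) (hθ1 : θ ≤ 1) (hκ0 : 0 ≤ κ)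
    (hκ : ∀ z : Fin G.nX × Fin G.nY, 0 < G.prob z.1 z.2 → ∀ w ∈ G.supportComponent z,
      8 * ((G.supportComponent z).card - 1 : ℝ) * (∑ u ∈ G.supportComponent z, G.prob u.1 u.2)
        ≤ κ * G.prob w.1 w.2) (hval : Val (mu G) G.accept v) :
    Round (mu G) G.accept v (3 * θ) (10 * (1 + κ) / θ) := by
  classical
  intro α β _ _ _ _ Φ a b M N p hp hM hN
  have h0 := mu_nonneg G
  let H := G.supportGraph
  let c : Fin G.nX × Fin G.nY → Fin G.nX × Fin G.nY := fun z => (H.connectedComponentMk z).out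
  have hc : ∀ z, H.Reachable z (c z) := fun z =>
    SimpleGraph.ConnectedComponent.exact (H.connectedComponentMk z).out_eq.symm
  have hcc : ∀ z w, 0 < mu G z → 0 < mu G w → (z.1 = w.1 ∨ z.2 = w.2) → c z = c w := by
    intro z w hz hw h
    by_cases hzw : z = w
    · rw [hzw]
    · have : H.Adj z w := ⟨hzw, hz, hw, h⟩
      simp only [c, SimpleGraph.ConnectedComponent.connectedComponentMk_eq_of_adj this]
  let cA : Fin G.nX → Option (Fin G.nX × Fin G.nY) := fun x =>
    if h : ∃ y, 0 < mu G (x, y) then some (c (x, h.choose)) else none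
  let cB : Fin G.nY → Option (Fin G.nX × Fin G.nY) := fun y =>
    if h : ∃ x, 0 < mu G (x, y) then some (c (h.choose, y)) else none
  have hcA : ∀ z, 0 < mu G z → cA z.1 = some (c z) := fun z hz => by
    have h : ∃ y, 0 < mu G (z.1, y) := ⟨z.2, hz⟩
    simp only [cA, dif_pos h]
    rw [hcc _ z h.choose_spec hz (Or.inl rfl)]
  have hcB : ∀ z, 0 < mu G z → cB z.2 = some (c z) := fun z hz => by
    have h : ∃ x, 0 < mu G (x, z.2) := ⟨z.1, hz⟩
    simp only [cB, dif_pos h]
    rw [hcc _ z h.choose_spec hz (Or.inr rfl)]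
  have psd_ite : ∀ {γ : Type} [Fintype γ] [DecidableEq γ] (P : Prop) [Decidable P]
      {T : Matrix γ γ ℂ}, T.PosSemidef → (if P then T else 0).PosSemidef := by
    intro γ _ _ P _ T hT
    split_ifs; exacts [hT, PosSemidef.zero]
  have key := retry h0 hval (blockDiagonal Φ)
    (M := fun x a' => blockDiagonal fun t => if cA x = some t then M x a' else 0)
    (fun x a' => psd_block fun t => psd_ite _ ((hM x).1 a'))
    (p := fun x => blockDiagonal fun t => if cA x = some t then 1 else 0)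
    (fun x => by
      rw [block_sum, ← blockDiagonal_sub]
      refine psd_block fun t => ?_
      by_cases h : cA x = some t
      · simpa [h] using (hM x).2
      · simpa [h] using PosSemidef.zero)
    (fun x => psd_one_sub_block fun t => by
      by_cases h : cA x = some t
      · simpa [h] using PosSemidef.zero
      · simpa [h] using PosSemidef.one)
    (N := fun y b' => blockDiagonal fun t => if cB y = some t then N y b' else 0)
    (fun y b' => psd_block fun t => psd_ite _ ((hN y).1 b'))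
    (q := fun y => blockDiagonal fun t => if cB y = some t then 1 else 0)
    (fun y => by
      rw [block_sum, ← blockDiagonal_sub]
      refine psd_block fun t => ?_
      by_cases h : cB y = some t
      · simpa [h] using (hN y).2
      · simpa [h] using PosSemidef.zero)
    (fun y => psd_one_sub_block fun t => by
      by_cases h : cB y = some t
      · simpa [h] using PosSemidef.zero
      · simpa [h] using PosSemidef.one) hp
  have sc : ∀ f g : Fin G.nX × Fin G.nY → ℝ, (∀ z, 0 < mu G z → f z ≤ g z) →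
      ∑ z, mu G z * f z ≤ ∑ z, mu G z * g z := fun f g h => Finset.sum_le_sum fun z _ => by
    rcases (h0 z).eq_or_lt with h' | h'
    · simp [← h']
    · exact mul_le_mul_of_nonneg_left (h z h') h'.le
  have blk : ∀ (z : Fin G.nX × Fin G.nY) (P : Matrix α α ℂ) (Q : Matrix β β ℂ),
      ev (blockDiagonal Φ) (blockDiagonal fun t => if some z = some t then P else 0)
        (blockDiagonal fun t => if some z = some t then Q else 0) = ev (Φ z) P Q ∧
      ev (blockDiagonal Φ) (blockDiagonal fun t => if some z = some t then P else 0) 1 =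
        ev (Φ z) P 1 ∧
      ev (blockDiagonal Φ) 1 (blockDiagonal fun t => if some z = some t then Q else 0) =
        ev (Φ z) 1 Q := by
    intro z P Q
    refine ⟨?_, ?_, ?_⟩
    · rw [ev_block, Finset.sum_eq_single z (fun t _ ht => by simp [Ne.symm ht, ev_zero_left])
        (by simp)]; simp
    · rw [← blockDiagonal_one, ev_block,
        Finset.sum_eq_single z (fun t _ ht => by simp [Ne.symm ht, ev_zero_left]) (by simp)]; simp
    · rw [← blockDiagonal_one, ev_block,
        Finset.sum_eq_single z (fun t _ ht => by simp [Ne.symm ht, ev_zero_right]) (by simp)]; simp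
  have k1 : ∑ z, mu G z * qf (G.accept z.1 z.2) (Φ (c z)) (M z.1) (N z.2) ≤
      p * v + ∑ z, mu G z * max (nrm (Φ (c z)) ^ 2 - p) 0 := by
    refine le_trans (sc _ _ fun z hz => le_of_eq ?_) (key.trans (add_le_add le_rfl
      (sc _ _ fun z hz => le_of_eq ?_)))
    · unfold qf
      simp only [hcA z hz, hcB z hz, (blk _ _ _).1]
    · simp only [hcA z hz, hcB z hz, (blk _ _ _).1, (blk _ 1 1).2.1, (blk _ 1 1).2.2, ev_one_one]
      congr 1; ring
  -- Poincaré
  let e : Fin G.nX × Fin G.nY → ℝ := fun z => √(nrm (Φ z - b z.2) ^ 2 + nrm (Φ z - a z.1) ^ 2)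
  have he2 : ∀ z, e z ^ 2 = nrm (Φ z - b z.2) ^ 2 + nrm (Φ z - a z.1) ^ 2 := fun z =>
    Real.sq_sqrt (by positivity)
  have heb : ∀ z, nrm (Φ z - b z.2) ≤ e z := fun z =>
    Real.le_sqrt_of_sq_le (by nlinarith [sq_nonneg (nrm (Φ z - a z.1))])
  have hea : ∀ z, nrm (Φ z - a z.1) ≤ e z := fun z =>
    Real.le_sqrt_of_sq_le (by nlinarith [sq_nonneg (nrm (Φ z - b z.2))])
  have hadj : ∀ u u', H.Adj u u' → nrm (Φ u - Φ u') ≤ e u + e u' := by
    intro u u' h
    rcases h.2.2.2 with h' | h'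
    · have := nrm_tri (Φ u) (a u.1) (Φ u')
      rw [nrm_sub_comm (a u.1)] at this
      have h1 := hea u'
      rw [← h'] at h1
      linarith [hea u]
    · have := nrm_tri (Φ u) (b u.2) (Φ u')
      rw [nrm_sub_comm (b u.2)] at this
      have h1 := heb u'
      rw [← h'] at h1
      linarith [heb u]
  let mC : Fin G.nX × Fin G.nY → ℝ := fun z => ∑ u ∈ G.supportComponent z, mu G u
  have k2 : ∑ z, mu G z * nrm (Φ z - Φ (c z)) ^ 2 ≤ κ * ∑ z, mu G z * e z ^ 2 := by
    refine (sc _ (fun z => ∑ t, if H.Reachable z t then κ * (mu G t * e t ^ 2) / mC z else 0)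
      fun z hz => ?_).trans ?_
    · refine (comp_bound G Φ e (fun t => Real.sqrt_nonneg _) hadj (hc z)).trans ?_
      rw [Finset.mul_sum, ← Finset.sum_filter]
      have hm : 0 < mC z := hz.trans_le (Finset.single_le_sum (f := mu G) (fun u _ => h0 u)
        ((mem_comp G z z).mpr (SimpleGraph.Reachable.refl z)))
      have : G.supportComponent z = Finset.univ.filter (fun t => H.Reachable z t) := by
        ext t; simp [mem_comp, H]
      rw [← this]
      refine Finset.sum_le_sum fun t ht => ?_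
      rw [le_div_iff₀ hm]
      have := mul_le_mul_of_nonneg_right (hκ z hz t ht) (sq_nonneg (e t))
      change _ * mC z * _ ≤ κ * mu G t * _ at this
      linarith
    · simp only [Finset.mul_sum]
      rw [Finset.sum_comm]
      refine Finset.sum_le_sum fun t _ => ?_
      have e1 : ∀ z, mu G z * (if H.Reachable z t then κ * (mu G t * e t ^ 2) / mC z else 0) =
          κ * (mu G t * e t ^ 2) / mC t * (if z ∈ G.supportComponent t then mu G z else 0) := by
        intro z
        by_cases h : H.Reachable z t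
        · have : G.supportComponent z = G.supportComponent t := by
            ext u
            simp only [mem_comp]
            exact ⟨fun h' => h.symm.trans h', fun h' => h.trans h'⟩
          simp only [h, if_true, mC, this, (mem_comp G t z).mpr h.symm]; ring
        · have : z ∉ G.supportComponent t := fun h' => h ((mem_comp G t z).mp h').symm
          simp [h, this]
      simp only [e1, ← Finset.mul_sum, Finset.sum_ite_mem, Finset.univ_inter]
      change κ * (mu G t * e t ^ 2) / mC t * mC t ≤ _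
      have : 0 ≤ κ * (mu G t * e t ^ 2) := mul_nonneg hκ0 (mul_nonneg (h0 t) (sq_nonneg _))
      rw [div_mul_eq_mul_div, mul_div_assoc]
      exact mul_le_of_le_one_right this (div_self_le_one _)
  have k3 : ∑ z, mu G z * max (nrm (Φ (c z)) ^ 2 - p) 0 ≤ θ * p + (4 / θ) *
      (∑ z, mu G z * (nrm (Φ z) - √p) ^ 2 + ∑ z, mu G z * nrm (Φ z - Φ (c z)) ^ 2) := by
    have : ∑ z, mu G z * (θ * p + (4 / θ) * ((nrm (Φ z) - √p) ^ 2 + nrm (Φ z - Φ (c z)) ^ 2)) =
        θ * p + (4 / θ) *
      (∑ z, mu G z * (nrm (Φ z) - √p) ^ 2 + ∑ z, mu G z * nrm (Φ z - Φ (c z)) ^ 2) := by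
      simp only [mul_add, Finset.sum_add_distrib, ← Finset.sum_mul, mu_sum, one_mul,
        mul_left_comm (mu G _) (4 / θ), ← Finset.mul_sum]
    rw [← this]
    refine sc _ _ fun z _ => max_le ?_ (by positivity)
    have a1 := nrm_le_add (Φ (c z)) (Φ z)
    rw [nrm_sub_comm] at a1
    have a2 : nrm (Φ (c z)) ≤ √p + ((nrm (Φ z) - √p) + nrm (Φ z - Φ (c z))) := by linarith
    have a3 := sq_le_of_le_add (nrm_nonneg _) a2 hθ
    rw [Real.sq_sqrt hp.le] at a3
    have a4 : 1 + 1 / θ ≤ 2 / θ := by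
      rw [le_div_iff₀ hθ]; field_simp; linarith
    generalize nrm (Φ z) - √p = x at *
    generalize nrm (Φ z - Φ (c z)) = y at *
    have a5 : (x + y) ^ 2 ≤ 2 * (x ^ 2 + y ^ 2) := by nlinarith [sq_nonneg (x - y)]
    have a6 := mul_le_mul a4 a5 (sq_nonneg _) (by positivity)
    have a7 : 2 / θ * (2 * (x ^ 2 + y ^ 2)) = 4 / θ * (x ^ 2 + y ^ 2) := by ring
    linarith
  have k4 : ∑ z, mu G z * qf (G.accept z.1 z.2) (Φ z) (M z.1) (N z.2) ≤
      (1 + θ) * ∑ z, mu G z * qf (G.accept z.1 z.2) (Φ (c z)) (M z.1) (N z.2) +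
      (1 + 1 / θ) * ∑ z, mu G z * nrm (Φ z - Φ (c z)) ^ 2 := by
    simp only [Finset.mul_sum, ← Finset.sum_add_distrib]
    refine Finset.sum_le_sum fun z _ => ?_
    have := mul_le_mul_of_nonneg_left (qf_peter (G.accept z.1 z.2) (Φ z) (Φ (c z)) (hM z.1) (hN z.2) hθ)
      (h0 z)
    linarith
  have k5 : ∑ z, mu G z * e z ^ 2 = ∑ z, mu G z * nrm (Φ z - b z.2) ^ 2 +
      ∑ z, mu G z * nrm (Φ z - a z.1) ^ 2 := by
    simp only [he2, mul_add, Finset.sum_add_distrib]
  rw [← k5]
  have n1 : 0 ≤ ∑ z, mu G z * e z ^ 2 := Finset.sum_nonneg fun z _ => mul_nonneg (h0 z) (sq_nonneg _)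
  have n2 : 0 ≤ ∑ z, mu G z * (nrm (Φ z) - √p) ^ 2 :=
    Finset.sum_nonneg fun z _ => mul_nonneg (h0 z) (sq_nonneg _)
  have n3 : 0 ≤ ∑ z, mu G z * nrm (Φ z - Φ (c z)) ^ 2 :=
    Finset.sum_nonneg fun z _ => mul_nonneg (h0 z) (sq_nonneg _)
  generalize ∑ z, mu G z * e z ^ 2 = E at *
  generalize ∑ z, mu G z * (nrm (Φ z) - √p) ^ 2 = Hh at *
  generalize ∑ z, mu G z * nrm (Φ z - Φ (c z)) ^ 2 = D at *
  generalize ∑ z, mu G z * max (nrm (Φ (c z)) ^ 2 - p) 0 = U at *
  generalize ∑ z, mu G z * qf (G.accept z.1 z.2) (Φ (c z)) (M z.1) (N z.2) = Q at *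
  have a4 : 1 + 1 / θ ≤ 2 * (1 / θ) := by
    have : 1 ≤ 1 / θ := by rw [le_div_iff₀ hθ]; linarith
    linarith
  have i0 : 0 < 1 / θ := by positivity
  have e4 : 4 / θ = 4 * (1 / θ) := by ring
  have e10 : 10 * (1 + κ) / θ = 10 * (1 + κ) * (1 / θ) := by ring
  rw [e4] at k3; rw [e10]
  generalize 1 / θ = s at *
  have b1 : Q ≤ p * v + θ * p + 4 * s * (Hh + κ * E) := by nlinarith
  have b2 : (1 + θ) * Q ≤ (1 + θ) * (p * v + θ * p) + 2 * (4 * s * (Hh + κ * E)) := by
    have : 0 ≤ 4 * s * (Hh + κ * E) := by positivity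
    nlinarith
  have b3 : (1 + s) * D ≤ 2 * s * (κ * E) := mul_le_mul a4 k2 n3 (by positivity)
  have b4 : (1 + θ) * (p * v + θ * p) ≤ p * (v + 3 * θ) := by
    have c1 : θ * p * v ≤ θ * p * 1 := by gcongr
    have c2 : θ * p * θ ≤ θ * p * 1 := by gcongr
    nlinarith
  have b5 : 0 ≤ s * Hh := by positivity
  have b6 : 0 ≤ s * E := by positivity
  have b7 : 0 ≤ s * κ * Hh := by positivity
  nlinarith

end Crest.Agent.PR
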