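import Crest.Agent.PR.Bridge
import Crest.Agent.PR.Gadget

/-! Quantum correlated sampling with square-root loss. -/

set_option linter.unusedSectionVars false

namespace Crest.Agent.PR

open Matrix Function
open scoped ComplexOrder MatrixOrder Kronecker

variable {α β γ δ E : Type} [Fintype α] [Fintype β] [Fintype γ] [Fintype δ] [Fintype E]
  [DecidableEq α] [DecidableEq β] [DecidableEq γ] [DecidableEq δ] [DecidableEq E]

lemma svd (a : Matrix α β ℂ) : ∃ (U : Matrix α β ℂ) (τ : β → ℝ) (W : Matrix β β ℂ),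
    Wᴴ * W = 1 ∧ W * Wᴴ = 1 ∧ (∀ i, 0 ≤ τ i) ∧ a = U * dR τ * Wᴴ ∧ U * (Uᴴ * U) = U ∧
      Uᴴ * U * dR τ = dR τ ∧ ∑ i, τ i ^ 2 = nrm a ^ 2 := by
  have hH : (aᴴ * a).PosSemidef := posSemidef_conjTranspose_mul_self a
  set H := aᴴ * a with hHd
  let τ : β → ℝ := fun i => √(eg H i)
  have hτ : ∀ i, τ i * τ i = eg H i := fun i => Real.mul_self_sqrt (eg_nonneg hH i)
  have h1 : (eU H)ᴴ * H * eU H = dR (fun i => τ i * τ i) := by
    conv_lhs => rw [← fn_id hH.1]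
    rw [fn_id hH.1]
    have : (eU H)ᴴ * fn H (fun x => x) * eU H = dR (fun i => τ i * τ i) := by
      unfold fn
      simp only [Matrix.mul_assoc, eU_star_mul, Matrix.mul_one, hτ]
      rw [← Matrix.mul_assoc, eU_star_mul, Matrix.one_mul]
    rwa [fn_id hH.1] at this
  have h2 : ∀ d e : β → ℝ, (a * eU H * dR d)ᴴ * (a * eU H * dR e) =
      dR (fun i => d i * (τ i * τ i) * e i) := fun d e => by
    rw [← dR_mul, ← dR_mul, ← h1, hHd]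
    simp only [conjTranspose_mul, dR_herm, Matrix.mul_assoc]
  refine ⟨a * eU H * dR (fun i => (τ i)⁻¹), τ, eU H, eU_star_mul H, eU_mul_star H,
    fun i => Real.sqrt_nonneg _, ?_, ?_, ?_, ?_⟩
  · have h3 : a * eU H * dR (fun i => 1 - (τ i)⁻¹ * τ i) = 0 := by
      apply conjTranspose_mul_self_eq_zero.mp
      rw [h2]
      have : (fun i => (1 - (τ i)⁻¹ * τ i) * (τ i * τ i) * (1 - (τ i)⁻¹ * τ i)) = fun _ => 0 := by
        funext i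
        by_cases h : τ i = 0
        · simp [h]
        · rw [inv_mul_cancel₀ h]; simp
      rw [this]; simp [dR]
    rw [← dR_sub, dR_one, Matrix.mul_sub, Matrix.mul_one, sub_eq_zero] at h3
    rw [Matrix.mul_assoc (a * eU H), dR_mul, ← h3, Matrix.mul_assoc, eU_mul_star, Matrix.mul_one]
  · rw [h2, Matrix.mul_assoc (a * eU H), dR_mul]
    congr 2; funext i
    by_cases h : τ i = 0
    · simp [h]
    · field_simp
  · rw [h2, dR_mul]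
    congr 1; funext i
    by_cases h : τ i = 0
    · simp [h]
    · field_simp
  · have := congrArg (fun T => (trace T).re) h1
    rw [trace_mul_comm, ← Matrix.mul_assoc, eU_mul_star, Matrix.one_mul] at this
    rw [nrm_sq, ← hHd, this]
    simp [dR, sq]

lemma nrm_contr (Φ : Matrix α β ℂ) {P : Matrix γ α ℂ} {Q : Matrix δ β ℂ}
    (hP : (1 - Pᴴ * P).PosSemidef) (hQ : (1 - Qᴴ * Q).PosSemidef) :
    nrm (P * Φ * Qᴴ) ^ 2 ≤ nrm Φ ^ 2 := by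
  rw [← ev_factor, ← ev_one_one]
  exact (ev_mono_left Φ hP (posSemidef_conjTranspose_mul_self Q)).trans
    (ev_mono_right Φ PosSemidef.one hQ)

lemma contr1 {U : Matrix α β ℂ} (h : U * (Uᴴ * U) = U) : (1 - Uᴴ * U).PosSemidef :=
  psd_one_sub_of_idem (by simp) (by rw [Matrix.mul_assoc, h])

lemma contr2 {U : Matrix α β ℂ} (h : U * (Uᴴ * U) = U) : (1 - Uᴴᴴ * Uᴴ).PosSemidef :=
  psd_one_sub_of_idem (by simp) (by
    rw [conjTranspose_conjTranspose, ← Matrix.mul_assoc, Matrix.mul_assoc U, h])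

lemma psd_of_eq_one {T : Matrix α α ℂ} (h : T = 1) : (1 - T).PosSemidef := by
  rw [h, sub_self]; exact PosSemidef.zero

lemma ay_scalar (o b : ℂ) {s t : ℝ} (hs : 0 ≤ s) (ht : 0 ≤ t) :
    ‖o‖ ^ 2 * (s - t) ^ 2 ≤ ‖(s:ℂ) * o - b * t‖ ^ 2 + ‖star b * s - t * star o‖ ^ 2 := by
  simp only [Complex.sq_norm, Complex.normSq_apply]
  simp
  nlinarith [mul_nonneg (mul_nonneg hs ht) (add_nonneg (sq_nonneg (o.re - b.re)) (sq_nonneg (o.im - b.im))),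
    mul_nonneg (sq_nonneg (s - t)) (add_nonneg (sq_nonneg b.re) (sq_nonneg b.im))]

lemma ay {U U' : Matrix α β ℂ} {τ τ' : β → ℝ} {W W' : Matrix β β ℂ}
    (w1 : Wᴴ * W = 1) (w2 : W * Wᴴ = 1) (w1' : W'ᴴ * W' = 1) (w2' : W' * W'ᴴ = 1)
    (hτ : ∀ i, 0 ≤ τ i) (hτ' : ∀ i, 0 ≤ τ' i) (u1 : U * (Uᴴ * U) = U) (u1' : U' * (U'ᴴ * U') = U')
    (u2 : Uᴴ * U * dR τ = dR τ) (u2' : U'ᴴ * U' * dR τ' = dR τ') :
    ∑ i, ∑ j, ‖(Wᴴ * W') i j‖ ^ 2 * (τ i - τ' j) ^ 2 ≤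
      2 * nrm (U * dR τ * Wᴴ - U' * dR τ' * W'ᴴ) ^ 2 := by
  have a1 := nrm_contr (U * dR τ * Wᴴ - U' * dR τ' * W'ᴴ) (contr2 u1) (Q := W'ᴴ)
    (psd_of_eq_one (by simpa using w2'))
  have a2 := nrm_contr (U * dR τ * Wᴴ - U' * dR τ' * W'ᴴ) (contr2 u1') (Q := Wᴴ)
    (psd_of_eq_one (by simpa using w2))
  have e1 : Uᴴ * (U * dR τ * Wᴴ - U' * dR τ' * W'ᴴ) * W'ᴴᴴ =
      dR τ * (Wᴴ * W') - (Uᴴ * U') * dR τ' := by
    rw [conjTranspose_conjTranspose, Matrix.mul_sub, Matrix.sub_mul]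
    congr 1
    · rw [← Matrix.mul_assoc, ← Matrix.mul_assoc, u2, Matrix.mul_assoc]
    · simp only [Matrix.mul_assoc, w1', Matrix.mul_one]
  have e2 : U'ᴴ * (U * dR τ * Wᴴ - U' * dR τ' * W'ᴴ) * Wᴴᴴ =
      (Uᴴ * U')ᴴ * dR τ - dR τ' * (Wᴴ * W')ᴴ := by
    rw [conjTranspose_conjTranspose, Matrix.mul_sub, Matrix.sub_mul]
    congr 1
    · simp only [Matrix.mul_assoc, w1, Matrix.mul_one, conjTranspose_mul, conjTranspose_conjTranspose]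
    · rw [← Matrix.mul_assoc, ← Matrix.mul_assoc, u2', Matrix.mul_assoc]
      simp only [conjTranspose_mul, conjTranspose_conjTranspose]
  rw [e1, nrm_sq_sum] at a1
  rw [e2, nrm_sq_sum, Finset.sum_comm] at a2
  rw [two_mul]
  refine le_trans ?_ (add_le_add a1 a2)
  simp only [← Finset.sum_add_distrib]
  refine Finset.sum_le_sum fun i _ => Finset.sum_le_sum fun j _ => ?_
  generalize Wᴴ * W' = O
  generalize Uᴴ * U' = Bm
  simp only [Matrix.sub_apply, dR, diagonal_mul, mul_diagonal, conjTranspose_apply]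
  exact ay_scalar _ _ (hτ i) (hτ' j)

lemma row_sum {O : Matrix β β ℂ} (h : O * Oᴴ = 1) (i : β) : ∑ j, ‖O i j‖ ^ 2 = 1 := by
  have := congrArg Complex.re (congrFun (congrFun h i) i)
  simp only [Matrix.mul_apply, conjTranspose_apply, Complex.re_sum, one_apply_eq,
    Complex.one_re] at this
  rw [← this]
  refine Finset.sum_congr rfl fun j _ => ?_
  rw [Complex.star_def, Complex.mul_conj']
  norm_cast

lemma ev_dR (W : Matrix α β ℂ) (d : α → ℝ) (d' : β → ℝ) :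
    ev W (dR d) (dR d') = ∑ p, ∑ q, d p * d' q * ‖W p q‖ ^ 2 := by
  unfold ev
  rw [Finset.sum_comm]
  simp only [trace, diag, dR, mul_diagonal, Complex.re_sum]
  refine Finset.sum_congr rfl fun q _ => ?_
  rw [Matrix.mul_apply, Finset.sum_mul, Complex.re_sum]
  refine Finset.sum_congr rfl fun p _ => ?_
  rw [mul_diagonal, conjTranspose_apply]
  have : star (W p q) * (d p : ℂ) * W p q * d' q = ((d p * d' q * ‖W p q‖ ^ 2 : ℝ) : ℂ) := by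
    push_cast
    rw [← Complex.conj_mul', Complex.star_def]; ring
  rw [this, Complex.ofReal_re]

/-- a block of a matrix with an extra register -/
def sl (Y : Matrix (α × E) (β × E) ℂ) (e e' : E) : Matrix α β ℂ :=
  Matrix.of fun a b => Y (a, e) (b, e')

lemma sl_sandwich (P : Matrix γ α ℂ) (Y : Matrix (α × E) (β × E) ℂ) (Q : Matrix δ β ℂ) (e e' : E) :
    sl ((P ⊗ₖ (1 : Matrix E E ℂ)) * Y * (Q ⊗ₖ (1 : Matrix E E ℂ))ᴴ) e e' = P * sl Y e e' * Qᴴ := by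
  ext a b
  simp [sl, Matrix.mul_apply, Fintype.sum_prod_type, one_apply, apply_ite]

lemma nrm_sl (Y : Matrix (α × E) (β × E) ℂ) : ∑ e, nrm (sl Y e e) ^ 2 ≤ nrm Y ^ 2 := by
  simp only [nrm_sq_sum, Fintype.sum_prod_type, sl, of_apply]
  rw [Finset.sum_comm]
  refine Finset.sum_le_sum fun a _ => Finset.sum_le_sum fun e _ => Finset.sum_le_sum fun b _ => ?_
  exact Finset.single_le_sum (f := fun e' => ‖Y (a, e) (b, e')‖ ^ 2) (fun _ _ => sq_nonneg _)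
    (Finset.mem_univ e)

lemma ev_sl (ξ : E → ℝ) (Y : Matrix (α × E) (β × E) ℂ) {M : Matrix α α ℂ} {N : Matrix β β ℂ}
    (hM : M.PosSemidef) (hN : N.PosSemidef) :
    ev (∑ e, ξ e • sl Y e e) M N ≤
      (∑ e, ξ e ^ 2) * ev Y (M ⊗ₖ (1 : Matrix E E ℂ)) (N ⊗ₖ (1 : Matrix E E ℂ)) := by
  refine (ev_cs ξ _ hM hN).trans (mul_le_mul_of_nonneg_left ?_
    (Finset.sum_nonneg fun _ _ => sq_nonneg _))
  obtain ⟨P, rfl⟩ := exists_factor hM
  obtain ⟨Q, rfl⟩ := exists_factor hN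
  have e1 : (Pᴴ * P) ⊗ₖ (1 : Matrix E E ℂ) = (P ⊗ₖ (1 : Matrix E E ℂ))ᴴ * (P ⊗ₖ (1 : Matrix E E ℂ)) := by
    rw [conjTranspose_kronecker, ← mul_kronecker_mul]; simp
  have e2 : (Qᴴ * Q) ⊗ₖ (1 : Matrix E E ℂ) = (Q ⊗ₖ (1 : Matrix E E ℂ))ᴴ * (Q ⊗ₖ (1 : Matrix E E ℂ)) := by
    rw [conjTranspose_kronecker, ← mul_kronecker_mul]; simp
  rw [e1, e2]
  simp only [ev_factor, ← sl_sandwich]
  exact nrm_sl _

open Classical in
/-- controlled shift -/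
noncomputable def JJ (ρ : β → E → E → Prop) : Matrix (β × E) (β × E) ℂ :=
  Matrix.of fun p q => if p.1 = q.1 ∧ ρ p.1 p.2 q.2 then 1 else 0

open Classical in
/-- range indicator -/
noncomputable def ran (ρ : β → E → E → Prop) (q : β × E) : ℝ := if ∃ e, ρ q.1 e q.2 then 1 else 0

lemma JJ_mul (ρ : β → E → E → Prop) (h1 : ∀ i e e₁ e₂, ρ i e e₁ → ρ i e e₂ → e₁ = e₂)
    (h2 : ∀ i e₁ e₂ e, ρ i e₁ e → ρ i e₂ e → e₁ = e₂) : (JJ ρ)ᴴ * JJ ρ = dR (ran ρ) := by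
  classical
  ext ⟨i, e⟩ ⟨i', e'⟩
  simp only [Matrix.mul_apply, conjTranspose_apply, JJ, of_apply, dR, diagonal_apply, ran]
  by_cases h : ∃ e₀, ρ i e₀ e
  · obtain ⟨e₀, h0⟩ := h
    rw [Finset.sum_eq_single (i, e₀)]
    · have hex : ∃ e₀, ρ i e₀ e := ⟨e₀, h0⟩
      by_cases hh : (i, e) = (i', e')
      · obtain ⟨rfl, rfl⟩ := Prod.mk.inj hh
        simp [h0, hex]
      · rw [if_neg hh, if_neg (c := i = i' ∧ ρ i e₀ e')]
        · simp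
        · rintro ⟨rfl, h3⟩
          exact hh (by rw [h1 _ _ _ _ h0 h3])
    · rintro ⟨j, f⟩ _ hne
      rw [if_neg (c := j = i ∧ ρ j f e)]
      · simp
      · rintro ⟨rfl, h3⟩
        exact hne (by rw [h2 _ _ _ _ h3 h0])
    · simp
  · rw [if_neg h]
    simp only [Complex.ofReal_zero, ite_self]
    refine Finset.sum_eq_zero fun ⟨j, f⟩ _ => ?_
    rw [if_neg (c := j = i ∧ ρ j f e)]
    · simp
    · rintro ⟨rfl, h3⟩
      exact h ⟨f, h3⟩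

/-- the filter -/
noncomputable def KK (U : Matrix α β ℂ) (ρ : β → E → E → Prop) (W : Matrix β β ℂ) :
    Matrix (α × E) (β × E) ℂ :=
  (U ⊗ₖ (1 : Matrix E E ℂ)) * JJ ρ * (W ⊗ₖ (1 : Matrix E E ℂ))ᴴ

/-- acceptance projection -/
noncomputable def PP (ρ : β → E → E → Prop) (W : Matrix β β ℂ) : Matrix (β × E) (β × E) ℂ :=
  (W ⊗ₖ (1 : Matrix E E ℂ)) * dR (ran ρ) * (W ⊗ₖ (1 : Matrix E E ℂ))ᴴ

lemma kron_unit {W : Matrix β β ℂ} (w2 : W * Wᴴ = 1) :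
    (W ⊗ₖ (1 : Matrix E E ℂ)) * (W ⊗ₖ (1 : Matrix E E ℂ))ᴴ = 1 := by
  rw [conjTranspose_kronecker, ← mul_kronecker_mul, w2]; simp

lemma one_eq_PP {W : Matrix β β ℂ} (w2 : W * Wᴴ = 1) : (1 : Matrix (β × E) (β × E) ℂ) =
    (W ⊗ₖ (1 : Matrix E E ℂ)) * dR (fun _ => 1) * (W ⊗ₖ (1 : Matrix E E ℂ))ᴴ := by
  rw [dR_one, Matrix.mul_one, kron_unit w2]

lemma PP_le (ρ : β → E → E → Prop) {W : Matrix β β ℂ} (w2 : W * Wᴴ = 1) :
    (1 - PP ρ W).PosSemidef := by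
  rw [one_eq_PP (E := E) w2, PP, ← Matrix.sub_mul, ← Matrix.mul_sub, dR_sub]
  exact (dR_psd fun q => by unfold ran; split_ifs <;> norm_num).mul_mul_conjTranspose_same _

lemma KK_le {A : Type} [Fintype A] {U : Matrix α β ℂ} (hU : (1 - Uᴴ * U).PosSemidef)
    (ρ : β → E → E → Prop) (h1 : ∀ i e e₁ e₂, ρ i e e₁ → ρ i e e₂ → e₁ = e₂)
    (h2 : ∀ i e₁ e₂ e, ρ i e₁ e → ρ i e₂ e → e₁ = e₂) (W : Matrix β β ℂ) {M : A → Matrix α α ℂ}
    (hM : SubP M) :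
    (PP ρ W - ∑ a, (KK U ρ W)ᴴ * (M a ⊗ₖ (1 : Matrix E E ℂ)) * KK U ρ W).PosSemidef := by
  have h3 : (1 - Uᴴ * (∑ a, M a) * U).PosSemidef := by
    have := hU.add (hM.2.conjTranspose_mul_mul_same U)
    convert this using 1
    simp only [Matrix.mul_sub, Matrix.sub_mul, Matrix.mul_one]; abel
  have h4 := ((h3.kronecker (PosSemidef.one (n := E))).conjTranspose_mul_mul_same
    (JJ ρ)).mul_mul_conjTranspose_same (W ⊗ₖ (1 : Matrix E E ℂ))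
  refine (congrArg PosSemidef ?_).mpr h4
  have e1 : ∑ a, M a ⊗ₖ (1 : Matrix E E ℂ) = (∑ a, M a) ⊗ₖ (1 : Matrix E E ℂ) := by
    ext ⟨i, j⟩ ⟨i', j'⟩
    simp only [Matrix.sum_apply, kronecker_apply, Finset.sum_mul]
  have e2 : (1 - Uᴴ * (∑ a, M a) * U) ⊗ₖ (1 : Matrix E E ℂ) = 1 - (U ⊗ₖ (1 : Matrix E E ℂ))ᴴ *
      ((∑ a, M a) ⊗ₖ (1 : Matrix E E ℂ)) * (U ⊗ₖ (1 : Matrix E E ℂ)) := by
    rw [conjTranspose_kronecker, ← mul_kronecker_mul, ← mul_kronecker_mul, ← one_kronecker_one]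
    ext ⟨i, j⟩ ⟨i', j'⟩
    simp only [Matrix.sub_apply, kronecker_apply, conjTranspose_one, Matrix.mul_one]; ring
  rw [← Matrix.sum_mul, ← Matrix.mul_sum, e1, e2, PP, ← JJ_mul ρ h1 h2, KK]
  simp only [conjTranspose_mul, conjTranspose_conjTranspose, Matrix.mul_sub, Matrix.sub_mul,
    Matrix.mul_one, Matrix.mul_assoc]

lemma mid (W W' : Matrix β β ℂ) (ξ : E → ℝ) :
    (W ⊗ₖ (1 : Matrix E E ℂ))ᴴ * ((1 : Matrix β β ℂ) ⊗ₖ dR ξ) * (W' ⊗ₖ (1 : Matrix E E ℂ)) =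
      (Wᴴ * W') ⊗ₖ dR ξ := by
  rw [conjTranspose_kronecker, ← mul_kronecker_mul, ← mul_kronecker_mul]; simp

lemma ev_PP (W W' : Matrix β β ℂ) (ξ : E → ℝ) (d d' : β × E → ℝ) :
    ev ((1 : Matrix β β ℂ) ⊗ₖ dR ξ) ((W ⊗ₖ (1 : Matrix E E ℂ)) * dR d * (W ⊗ₖ (1 : Matrix E E ℂ))ᴴ)
      ((W' ⊗ₖ (1 : Matrix E E ℂ)) * dR d' * (W' ⊗ₖ (1 : Matrix E E ℂ))ᴴ) =
      ∑ i, ∑ j, ‖(Wᴴ * W') i j‖ ^ 2 * ∑ e, d (i, e) * d' (j, e) * ξ e ^ 2 := by
  have := ev_sandwich ((1 : Matrix β β ℂ) ⊗ₖ dR ξ) (W ⊗ₖ (1 : Matrix E E ℂ))ᴴ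
    (W' ⊗ₖ (1 : Matrix E E ℂ))ᴴ (dR d) (dR d')
  simp only [conjTranspose_conjTranspose] at this
  rw [← this, mid, ev_dR]
  simp only [Fintype.sum_prod_type, Finset.mul_sum]
  refine Finset.sum_congr rfl fun i _ => ?_
  rw [Finset.sum_comm]
  refine Finset.sum_congr rfl fun j _ => Finset.sum_congr rfl fun e _ => ?_
  rw [Finset.sum_eq_single e]
  · simp [dR, mul_pow]; ring
  · intro e' _ h
    simp [dR, Ne.symm h]
  · simp

open Classical in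
lemma u_eq (ρ ρ' : β → E → E → Prop) {W W' : Matrix β β ℂ} (w2 : W * Wᴴ = 1) (w2' : W' * W'ᴴ = 1)
    (ξ : E → ℝ) :
    ev ((1 : Matrix β β ℂ) ⊗ₖ dR ξ) (PP ρ W) 1 + ev ((1 : Matrix β β ℂ) ⊗ₖ dR ξ) 1 (PP ρ' W') -
      ev ((1 : Matrix β β ℂ) ⊗ₖ dR ξ) (PP ρ W) (PP ρ' W') =
    ∑ i, ∑ j, ‖(Wᴴ * W') i j‖ ^ 2 *
      ∑ e, (if (∃ e', ρ i e' e) ∨ (∃ e', ρ' j e' e) then ξ e ^ 2 else 0) := by
  conv_lhs =>
    congr
    · congr
      · rw [one_eq_PP (E := E) w2']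
      · rw [one_eq_PP (E := E) w2]
  simp only [PP, ev_PP, ← Finset.sum_add_distrib, ← Finset.sum_sub_distrib, ← mul_add, ← mul_sub]
  refine Finset.sum_congr rfl fun i _ => Finset.sum_congr rfl fun j _ => ?_
  congr 1
  refine Finset.sum_congr rfl fun e _ => ?_
  unfold ran
  by_cases h : ∃ e', ρ i e' e <;> by_cases h' : ∃ e', ρ' j e' e <;> simp [h, h']

open Classical in
lemma sl_sum (ρ ρ' : β → E → E → Prop) (U : Matrix α β ℂ) (W W' : Matrix β β ℂ) (ξ : E → ℝ) :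
    ∑ e, ξ e • sl (KK U ρ W * ((1 : Matrix β β ℂ) ⊗ₖ dR ξ) * (KK W' ρ' W')ᴴ) e e =
      U * (Matrix.of fun i j => ((∑ e, ∑ e', (if ρ i e e' ∧ ρ' j e e' then ξ e * ξ e' else 0) : ℝ) : ℂ) *
        (Wᴴ * W') i j) * W'ᴴ := by
  have e1 : KK U ρ W * ((1 : Matrix β β ℂ) ⊗ₖ dR ξ) * (KK W' ρ' W')ᴴ =
      (U ⊗ₖ (1 : Matrix E E ℂ)) * (JJ ρ * ((Wᴴ * W') ⊗ₖ dR ξ) * (JJ ρ')ᴴ) *
        (W' ⊗ₖ (1 : Matrix E E ℂ))ᴴ := by
    rw [← mid, KK, KK]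
    simp only [conjTranspose_mul, conjTranspose_conjTranspose, Matrix.mul_assoc]
  have e2 : ∀ (T : E → Matrix β β ℂ), ∑ e, ξ e • (U * T e * W'ᴴ) = U * (∑ e, ξ e • T e) * W'ᴴ := by
    intro T
    simp only [Matrix.mul_sum, Matrix.sum_mul, Matrix.mul_smul, Matrix.smul_mul]
  simp only [e1, sl_sandwich, e2]
  congr 2
  generalize Wᴴ * W' = O
  ext i j
  simp only [Matrix.sum_apply, Matrix.smul_apply, sl, of_apply, Complex.ofReal_sum, Finset.sum_mul]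
  refine Finset.sum_congr rfl fun e _ => ?_
  simp only [Matrix.mul_apply, Fintype.sum_prod_type, JJ, of_apply, conjTranspose_apply,
    kronecker_apply, dR, diagonal_apply, Finset.sum_mul, Finset.smul_sum]
  rw [Finset.sum_eq_single j (fun j' _ h => by simp [Ne.symm h]) (by simp)]
  refine Finset.sum_congr rfl fun e' _ => ?_
  rw [Finset.sum_eq_single i (fun i' _ h => by simp [Ne.symm h]) (by simp),
    Finset.sum_eq_single e' (fun e'' _ h => by simp [h]) (by simp)]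
  by_cases h : ρ i e e' <;> by_cases h' : ρ' j e e' <;> simp [h, h']
  ring

end Crest.Agent.PR
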