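import Crest.Agent.PR.QCS

/-! The rounding property for arbitrary games. -/

set_option linter.unusedSectionVars false

namespace Crest.Agent.PR

open Matrix Function
open scoped ComplexOrder MatrixOrder Kronecker

variable {X Y A B : Type} [Fintype X] [DecidableEq X] [Fintype Y] [DecidableEq Y]
  [Fintype A] [DecidableEq A] [Fintype B] [DecidableEq B]

lemma Round.mono {μ : X × Y → ℝ} (h0 : ∀ ζ, 0 ≤ μ ζ) {V : X → Y → A → B → Bool} {v θ L θ' L' : ℝ}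
    (h : Round μ V v θ L) (h1 : θ ≤ θ') (h2 : L ≤ L') : Round μ V v θ' L' := by
  intro α β _ _ _ _ Φ a b M N p hp hM hN
  refine (h α β Φ a b M N p hp hM hN).trans (add_le_add (by gcongr) ?_)
  refine mul_le_mul_of_nonneg_right h2 ?_
  exact add_nonneg (add_nonneg (Finset.sum_nonneg fun ζ _ => mul_nonneg (h0 ζ) (sq_nonneg _))
    (Finset.sum_nonneg fun ζ _ => mul_nonneg (h0 ζ) (sq_nonneg _)))
    (Finset.sum_nonneg fun ζ _ => mul_nonneg (h0 ζ) (sq_nonneg _))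

lemma arith1 {n u p A2 Dab eA eB h : ℝ} (hn : 1 ≤ n) (hu : 0 < u) (hu1 : u ≤ 1) (hp : 0 < p)
    (e1 : 0 ≤ eA) (e2 : 0 ≤ eB) (e3 : 0 ≤ h)
    (hA : A2 ≤ (1 + u) * p + (1 + n) * (2 * (h + eB))) (hD : Dab ≤ 2 * (eA + eB)) :
    (1 + u) ^ 4 * ((1 + u) * A2 + (1 + n) * (2 * Dab)) - p ≤ 63 * u * p + 256 * n * (eA + eB + h) := by
  have k1 : (1 + u) * A2 + (1 + n) * (2 * Dab) ≤ (1 + u) ^ 2 * p + 16 * n * (eA + eB + h) := by
    have a1 : (1 + u) * A2 ≤ (1 + u) * ((1 + u) * p + (1 + n) * (2 * (h + eB))) := by gcongr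
    have a2 : (1 + n) * (2 * Dab) ≤ (2 * n) * (2 * (2 * (eA + eB + h))) :=
      le_trans (by gcongr; linarith) (mul_le_mul_of_nonneg_right (by linarith) (by positivity))
    have a3 : (1 + u) * ((1 + n) * (2 * (h + eB))) ≤ 2 * ((2 * n) * (2 * (eA + eB + h))) :=
      mul_le_mul (by linarith) (mul_le_mul (by linarith) (by linarith) (by positivity) (by positivity))
        (by positivity) (by positivity)
    nlinarith
  have k2 : (1 + u) ^ 4 ≤ 16 := by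
    have : (1 + u) ^ 4 ≤ 2 ^ 4 := by gcongr; linarith
    linarith
  have k3 : (1 + u) ^ 6 ≤ 1 + 63 * u := by
    have b2 : u ^ 2 ≤ u := by nlinarith
    have b3 : u ^ 3 ≤ u := pow_le_of_le_one hu.le hu1 (by norm_num)
    have b4 : u ^ 4 ≤ u := pow_le_of_le_one hu.le hu1 (by norm_num)
    have b5 : u ^ 5 ≤ u := pow_le_of_le_one hu.le hu1 (by norm_num)
    have b6 : u ^ 6 ≤ u := pow_le_of_le_one hu.le hu1 (by norm_num)
    nlinarith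
  have k4 := mul_le_mul_of_nonneg_left k1 (show 0 ≤ (1 + u) ^ 4 by positivity)
  have k5 : (1 + u) ^ 4 * (16 * n * (eA + eB + h)) ≤ 16 * (16 * n * (eA + eB + h)) := by gcongr
  have k6 := mul_le_mul_of_nonneg_right k3 hp.le
  nlinarith

lemma arith2 {n u p A2 Dab eA eB h T : ℝ} (hn : 1 ≤ n) (hu : 0 < u) (hu1 : u ≤ 1) (hp : 0 < p)
    (e1 : 0 ≤ eA) (e2 : 0 ≤ eB) (e3 : 0 ≤ h)
    (hA : A2 ≤ (1 + u) * p + (1 + n) * (2 * (h + eB))) (hD : Dab ≤ 2 * (eA + eB))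
    (hT : T ≤ 2 * eB + 2 * (32 * u ^ 2 * A2 + 64 * n ^ 2 * Dab)) :
    T ≤ 128 * u ^ 2 * p + 514 * n ^ 2 * (eA + eB + h) := by
  have a1 : A2 ≤ 2 * p + 4 * n * (eA + eB + h) := by
    have : (1 + n) * (2 * (h + eB)) ≤ (2 * n) * (2 * (eA + eB + h)) :=
      mul_le_mul (by linarith) (by linarith) (by positivity) (by positivity)
    nlinarith
  have a2 : u ^ 2 * A2 ≤ u ^ 2 * (2 * p + 4 * n * (eA + eB + h)) := by gcongr
  have a3 : n ^ 2 * Dab ≤ n ^ 2 * (2 * (eA + eB + h)) := by gcongr; linarith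
  have a4 : u ^ 2 * n ≤ n ^ 2 := by
    have : u ^ 2 ≤ 1 := pow_le_one₀ hu.le hu1
    nlinarith
  have a5 := mul_le_mul_of_nonneg_right a4 (show 0 ≤ eA + eB + h by positivity)
  have a6 : 1 * (eA + eB + h) ≤ n ^ 2 * (eA + eB + h) := by gcongr; nlinarith
  nlinarith

theorem round_qcs {μ : X × Y → ℝ} (h0 : ∀ ζ, 0 ≤ μ ζ) (h1 : ∑ ζ, μ ζ = 1)
    {V : X → Y → A → B → Bool} {v : ℝ} (hv1 : v ≤ 1) (hval : Val μ V v) {n : ℕ} (hn : 0 < n) :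
    Round μ V v (383 / n) (1540 * n ^ 3) := by
  classical
  intro α β _ _ _ _ Φ a b M N p hp hM hN
  choose U τ W w1 w2 hτ ha u1 u2 hs using fun x => svd (a x)
  choose U' τ' W' w1' w2' hτ' hb u1' u2' hs' using fun y => svd (b y)
  obtain ⟨R, hR, hτR, hτR'⟩ : ∃ R : ℝ, 0 < R ∧ (∀ x i, τ x i ≤ R) ∧ (∀ y j, τ' y j ≤ R) := by
    have s1 : 0 ≤ ∑ q : X × β, τ q.1 q.2 := Finset.sum_nonneg fun q _ => hτ _ _
    have s2 : 0 ≤ ∑ q : Y × β, τ' q.1 q.2 := Finset.sum_nonneg fun q _ => hτ' _ _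
    refine ⟨1 + ∑ q : X × β, τ q.1 q.2 + ∑ q : Y × β, τ' q.1 q.2, by positivity, fun x i => ?_,
      fun y j => ?_⟩
    · have := Finset.single_le_sum (f := fun q : X × β => τ q.1 q.2) (fun q _ => hτ _ _)
        (Finset.mem_univ (x, i))
      simp only at this
      linarith
    · have := Finset.single_le_sum (f := fun q : Y × β => τ' q.1 q.2) (fun q _ => hτ' _ _)
        (Finset.mem_univ (y, j))
      simp only at this
      linarith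
  obtain ⟨E, _, _, ξ, r, Nn, hN0, hξ, r1, r2, g1, g2⟩ := gadget (I := (X × β) ⊕ (Y × β)) hn
    (Sum.elim (fun q => τ q.1 q.2 / R) (fun q => τ' q.1 q.2 / R))
    (by rintro (q | q); exacts [div_nonneg (hτ _ _) hR.le, div_nonneg (hτ' _ _) hR.le])
    (by rintro (q | q); exacts [(div_le_one hR).mpr (hτR _ _), (div_le_one hR).mpr (hτR' _ _)])
  let ρ : X → β → E → E → Prop := fun x i => r (Sum.inl (x, i))
  let ρ' : Y → β → E → E → Prop := fun y j => r (Sum.inr (y, j))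
  have key := retry h0 hval ((1 : Matrix β β ℂ) ⊗ₖ dR ξ)
    (M := fun x a' => (KK (U x) (ρ x) (W x))ᴴ * (M x a' ⊗ₖ (1 : Matrix E E ℂ)) * KK (U x) (ρ x) (W x))
    (fun x a' => (((hM x).1 a').kronecker PosSemidef.one).conjTranspose_mul_mul_same _)
    (p := fun x => PP (ρ x) (W x))
    (fun x => KK_le (contr1 (u1 x)) _ (fun i => r1 _) (fun i => r2 _) _ (hM x))
    (fun x => PP_le _ (w2 x))
    (N := fun y b' => (KK (W' y) (ρ' y) (W' y))ᴴ * (N y b' ⊗ₖ (1 : Matrix E E ℂ)) *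
      KK (W' y) (ρ' y) (W' y))
    (fun y b' => (((hN y).1 b').kronecker PosSemidef.one).conjTranspose_mul_mul_same _)
    (q := fun y => PP (ρ' y) (W' y))
    (fun y => KK_le (psd_of_eq_one (w1' y)) _ (fun i => r1 _) (fun i => r2 _) _ (hN y))
    (fun y => PP_le _ (w2' y)) (c := Nn / R ^ 2 * p) (by positivity)
  simp only [u_eq _ _ (w2 _) (w2' _)] at key
  have hn1 : (1:ℝ) ≤ n := by exact_mod_cast hn
  have hn0 : (0:ℝ) < n := by linarith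
  obtain ⟨u, hu⟩ : ∃ u : ℝ, u = 1 / n := ⟨_, rfl⟩
  have hu0 : 0 < u := by rw [hu]; positivity
  have hu1 : u ≤ 1 := by rw [hu, div_le_one hn0]; exact hn1
  have hun : 1 / u = n := by rw [hu]; simp
  have hun' : u * n = 1 := by rw [hu]; field_simp
  let C : X × Y → Matrix β β ℂ := fun ζ => Matrix.of fun i j =>
    ((∑ e, ∑ e', (if ρ ζ.1 i e e' ∧ ρ' ζ.2 j e e' then ξ e * ξ e' else 0) : ℝ) : ℂ) *
      ((W ζ.1)ᴴ * W' ζ.2) i j
  let Xt : X × Y → Matrix α β ℂ := fun ζ => (R / Nn) • (U ζ.1 * C ζ * (W' ζ.2)ᴴ)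
  let err : X × Y → ℝ := fun ζ =>
    nrm (Φ ζ - b ζ.2) ^ 2 + nrm (Φ ζ - a ζ.1) ^ 2 + (nrm (Φ ζ) - √p) ^ 2
  have rs : ∀ (ζ : X × Y) i, ∑ j, ‖((W ζ.1)ᴴ * W' ζ.2) i j‖ ^ 2 = 1 := fun ζ => row_sum (by
    rw [conjTranspose_mul, conjTranspose_conjTranspose, Matrix.mul_assoc, ← Matrix.mul_assoc (W' _),
      w2', Matrix.one_mul, w1])
  have rs2 : ∀ ζ : X × Y, ∑ i, ∑ j, ‖((W ζ.1)ᴴ * W' ζ.2) i j‖ ^ 2 * τ ζ.1 i ^ 2 = nrm (a ζ.1) ^ 2 :=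
    fun ζ => by simp only [← Finset.sum_mul, rs, one_mul, hs]
  have hay : ∀ ζ : X × Y, ∑ i, ∑ j, ‖((W ζ.1)ᴴ * W' ζ.2) i j‖ ^ 2 * (τ ζ.1 i - τ' ζ.2 j) ^ 2 ≤
      2 * nrm (a ζ.1 - b ζ.2) ^ 2 := fun ζ => by
    have := ay (w1 ζ.1) (w2 ζ.1) (w1' ζ.2) (w2' ζ.2) (hτ ζ.1) (hτ' ζ.2) (u1 _) (u1' _) (u2 _)
      (u2' _)
    rwa [← ha, ← hb] at this
  have hA : ∀ ζ : X × Y, nrm (a ζ.1) ^ 2 ≤ (1 + u) * p + (1 + n) *
      (2 * ((nrm (Φ ζ) - √p) ^ 2 + nrm (Φ ζ - a ζ.1) ^ 2)) := fun ζ => by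
    have a1 := nrm_le_add (a ζ.1) (Φ ζ)
    rw [nrm_sub_comm] at a1
    have a2 : nrm (a ζ.1) ≤ √p + ((nrm (Φ ζ) - √p) + nrm (Φ ζ - a ζ.1)) := by linarith
    have a3 := sq_le_of_le_add (nrm_nonneg _) a2 hu0
    rw [Real.sq_sqrt hp.le, hun] at a3
    refine a3.trans (add_le_add le_rfl (mul_le_mul_of_nonneg_left ?_ (by positivity)))
    nlinarith [sq_nonneg ((nrm (Φ ζ) - √p) - nrm (Φ ζ - a ζ.1))]
  have hD : ∀ ζ : X × Y, nrm (a ζ.1 - b ζ.2) ^ 2 ≤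
      2 * (nrm (Φ ζ - b ζ.2) ^ 2 + nrm (Φ ζ - a ζ.1) ^ 2) := fun ζ => by
    have a1 := nrm_tri (a ζ.1) (Φ ζ) (b ζ.2)
    rw [nrm_sub_comm (a ζ.1) (Φ ζ)] at a1
    have := pow_le_pow_left₀ (nrm_nonneg _) a1 2
    nlinarith [sq_nonneg (nrm (Φ ζ - b ζ.2) - nrm (Φ ζ - a ζ.1))]
  have hw : ∀ ζ : X × Y, qf (V ζ.1 ζ.2) (Xt ζ) (M ζ.1) (N ζ.2) ≤ R ^ 2 / Nn *
      qf (V ζ.1 ζ.2) ((1 : Matrix β β ℂ) ⊗ₖ dR ξ)
      (fun a' => (KK (U ζ.1) (ρ ζ.1) (W ζ.1))ᴴ * (M ζ.1 a' ⊗ₖ (1 : Matrix E E ℂ)) *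
        KK (U ζ.1) (ρ ζ.1) (W ζ.1))
      (fun b' => (KK (W' ζ.2) (ρ' ζ.2) (W' ζ.2))ᴴ * (N ζ.2 b' ⊗ₖ (1 : Matrix E E ℂ)) *
        KK (W' ζ.2) (ρ' ζ.2) (W' ζ.2)) := fun ζ => by
    have e : R ^ 2 / Nn = (R / Nn) ^ 2 * Nn := by field_simp
    rw [qf_smul, e, mul_assoc]
    refine mul_le_mul_of_nonneg_left ?_ (sq_nonneg _)
    unfold qf
    simp only [Finset.mul_sum]
    refine Finset.sum_le_sum fun a' _ => Finset.sum_le_sum fun b' _ => ?_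
    split_ifs
    · rw [← ev_sandwich, ← hξ]
      have := ev_sl ξ (KK (U ζ.1) (ρ ζ.1) (W ζ.1) * ((1 : Matrix β β ℂ) ⊗ₖ dR ξ) *
        (KK (W' ζ.2) (ρ' ζ.2) (W' ζ.2))ᴴ) ((hM ζ.1).1 a') ((hN ζ.2).1 b')
      rw [sl_sum] at this
      convert this
    · simp
  have hu' : ∀ ζ : X × Y, R ^ 2 / Nn * max (∑ i, ∑ j, ‖((W ζ.1)ᴴ * W' ζ.2) i j‖ ^ 2 *
      ∑ e, (if (∃ e', ρ ζ.1 i e' e) ∨ (∃ e', ρ' ζ.2 j e' e) then ξ e ^ 2 else 0) - Nn / R ^ 2 * p) 0 ≤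
      63 * u * p + 256 * n * err ζ := fun ζ => by
    rw [mul_max_of_nonneg _ _ (by positivity), mul_zero]
    refine max_le ?_ (by positivity)
    refine le_trans ?_ (arith1 hn1 hu0 hu1 hp (sq_nonneg _) (sq_nonneg _) (sq_nonneg _) (hA ζ) (hD ζ))
    rw [mul_sub]
    refine sub_le_sub ?_ (le_of_eq (by field_simp))
    have k : ∀ i j, R ^ 2 / Nn * (‖((W ζ.1)ᴴ * W' ζ.2) i j‖ ^ 2 *
        ∑ e, (if (∃ e', ρ ζ.1 i e' e) ∨ (∃ e', ρ' ζ.2 j e' e) then ξ e ^ 2 else 0)) ≤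
        (1 + u) ^ 4 * ((1 + u) * (‖((W ζ.1)ᴴ * W' ζ.2) i j‖ ^ 2 * τ ζ.1 i ^ 2) +
          (1 + n) * (‖((W ζ.1)ᴴ * W' ζ.2) i j‖ ^ 2 * (τ ζ.1 i - τ' ζ.2 j) ^ 2)) := by
      intro i j
      have a1 := g1 (Sum.inl (ζ.1, i)) (Sum.inr (ζ.2, j))
      simp only [Sum.elim_inl, Sum.elim_inr, max_div_div_right hR.le, ← hu] at a1
      have a2 : max (τ ζ.1 i) (τ' ζ.2 j) ≤ τ ζ.1 i + |τ ζ.1 i - τ' ζ.2 j| :=
        max_le (by linarith [abs_nonneg (τ ζ.1 i - τ' ζ.2 j)])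
          (by linarith [neg_abs_le (τ ζ.1 i - τ' ζ.2 j)])
      have a3 := sq_le_of_le_add (le_max_of_le_left (hτ _ _)) a2 hu0
      rw [sq_abs, hun] at a3
      have a4 : R ^ 2 / Nn * ∑ e, (if (∃ e', ρ ζ.1 i e' e) ∨ (∃ e', ρ' ζ.2 j e' e) then ξ e ^ 2 else 0)
          ≤ (1 + u) ^ 4 * max (τ ζ.1 i) (τ' ζ.2 j) ^ 2 := by
        refine (mul_le_mul_of_nonneg_left (le_trans (le_of_eq ?_) a1) (by positivity)).trans
          (le_of_eq ?_)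
        · congr!
        · field_simp
      have a5 := mul_le_mul_of_nonneg_left (a4.trans (mul_le_mul_of_nonneg_left a3 (by positivity)))
        (sq_nonneg ‖((W ζ.1)ᴴ * W' ζ.2) i j‖)
      refine le_trans (le_of_eq (by ring)) (a5.trans (le_of_eq (by ring)))
    simp only [Finset.mul_sum (a := R ^ 2 / Nn) Finset.univ (fun i : β => _)]
    refine (Finset.sum_le_sum fun i _ => Finset.sum_le_sum fun j _ => k i j).trans ?_
    simp only [← Finset.mul_sum, Finset.sum_add_distrib, rs2]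
    have := hay ζ
    gcongr
  have hx : ∀ ζ : X × Y, nrm (Φ ζ - Xt ζ) ^ 2 ≤ 128 * u ^ 2 * p + 514 * n ^ 2 * err ζ := fun ζ => by
    refine arith2 hn1 hu0 hu1 hp (sq_nonneg _) (sq_nonneg _) (sq_nonneg _) (hA ζ) (hD ζ) ?_
    have a1 := pow_le_pow_left₀ (nrm_nonneg _) (nrm_tri (Φ ζ) (a ζ.1) (Xt ζ)) 2
    have a2 : nrm (a ζ.1 - Xt ζ) ^ 2 ≤ 32 * u ^ 2 * nrm (a ζ.1) ^ 2 +
        64 * n ^ 2 * nrm (a ζ.1 - b ζ.2) ^ 2 := by
      have e : a ζ.1 - Xt ζ = U ζ.1 * (dR (τ ζ.1) * ((W ζ.1)ᴴ * W' ζ.2) - (R / Nn) • C ζ) *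
          (W' ζ.2)ᴴ := by
        rw [Matrix.mul_sub, Matrix.sub_mul, Matrix.mul_smul, Matrix.smul_mul]
        congr 1
        conv_lhs => rw [ha ζ.1]
        simp only [Matrix.mul_assoc, w2', Matrix.mul_one]
      rw [e]
      refine (nrm_contr _ (contr1 (u1 _)) (psd_of_eq_one (w1' _))).trans ?_
      rw [nrm_sq_sum, ← rs2]
      refine le_trans ?_ (add_le_add le_rfl (le_trans (mul_le_mul_of_nonneg_left (hay ζ)
        (show 0 ≤ 32 * (n:ℝ) ^ 2 by positivity)) (le_of_eq (by ring))))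
      simp only [Finset.mul_sum, ← Finset.sum_add_distrib]
      refine Finset.sum_le_sum fun i _ => Finset.sum_le_sum fun j _ => ?_
      have a1 := g2 (Sum.inl (ζ.1, i)) (Sum.inr (ζ.2, j))
      simp only [Sum.elim_inl, Sum.elim_inr, ← sub_div, abs_div, abs_of_pos hR] at a1
      obtain ⟨c, hc⟩ : ∃ c : ℝ, c = ∑ e, ∑ e',
        (if ρ ζ.1 i e e' ∧ ρ' ζ.2 j e e' then ξ e * ξ e' else 0) := ⟨_, rfl⟩
      have a2 : |c - Nn * (τ ζ.1 i / R)| ≤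
          Nn * (4 * (τ ζ.1 i / R) / n + 4 * n * (|τ ζ.1 i - τ' ζ.2 j| / R)) := by
        rw [hc]; convert a1
      have e2 : (dR (τ ζ.1) * ((W ζ.1)ᴴ * W' ζ.2) - (R / Nn) • C ζ) i j =
          ((τ ζ.1 i - R / Nn * c : ℝ) : ℂ) * ((W ζ.1)ᴴ * W' ζ.2) i j := by
        simp only [Matrix.sub_apply, Matrix.smul_apply, dR, diagonal_mul, C, of_apply, ← hc,
          Complex.real_smul]
        push_cast; ring
      have a3 : |τ ζ.1 i - R / Nn * c| ≤ 4 * u * τ ζ.1 i + 4 * n * |τ ζ.1 i - τ' ζ.2 j| := by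
        have : τ ζ.1 i - R / Nn * c = -(R / Nn) * (c - Nn * (τ ζ.1 i / R)) := by field_simp; ring
        rw [this, abs_mul, abs_neg, abs_of_pos (by positivity : 0 < R / Nn)]
        refine (mul_le_mul_of_nonneg_left a2 (by positivity)).trans (le_of_eq ?_)
        rw [hu]; field_simp
      have a4 := pow_le_pow_left₀ (abs_nonneg _) a3 2
      rw [e2, norm_mul, mul_pow, Complex.norm_real, Real.norm_eq_abs]
      have a5 : |τ ζ.1 i - R / Nn * c| ^ 2 ≤ 32 * u ^ 2 * τ ζ.1 i ^ 2 +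
          32 * n ^ 2 * (τ ζ.1 i - τ' ζ.2 j) ^ 2 := by
        rw [← sq_abs (τ ζ.1 i - τ' ζ.2 j)]
        nlinarith [sq_nonneg (u * τ ζ.1 i - n * |τ ζ.1 i - τ' ζ.2 j|)]
      have a6 := mul_le_mul_of_nonneg_right a5 (sq_nonneg ‖((W ζ.1)ᴴ * W' ζ.2) i j‖)
      refine a6.trans (le_of_eq (by ring))
    nlinarith [sq_nonneg (nrm (Φ ζ - a ζ.1) - nrm (a ζ.1 - Xt ζ))]
  have f1 : ∑ ζ, μ ζ * qf (V ζ.1 ζ.2) (Xt ζ) (M ζ.1) (N ζ.2) ≤
      p * v + (63 * u * p + 256 * n * ∑ ζ, μ ζ * err ζ) := by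
    have k := mul_le_mul_of_nonneg_left key (show 0 ≤ R ^ 2 / Nn by positivity)
    rw [mul_add, Finset.mul_sum, Finset.mul_sum] at k
    refine le_trans (Finset.sum_le_sum fun ζ _ => ?_) (k.trans (add_le_add (le_of_eq ?_) ?_))
    · rw [mul_left_comm]
      exact mul_le_mul_of_nonneg_left (hw ζ) (h0 ζ)
    · field_simp
    · have : 63 * u * p + 256 * n * ∑ ζ, μ ζ * err ζ = ∑ ζ, μ ζ * (63 * u * p + 256 * n * err ζ) := by
        simp only [mul_add, Finset.sum_add_distrib, ← Finset.sum_mul, h1, one_mul,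
          mul_left_comm (μ _) (256 * (n:ℝ)), ← Finset.mul_sum]
      rw [this]
      refine Finset.sum_le_sum fun ζ _ => ?_
      rw [mul_left_comm]
      exact mul_le_mul_of_nonneg_left (hu' ζ) (h0 ζ)
  have f2 : ∑ ζ, μ ζ * qf (V ζ.1 ζ.2) (Φ ζ) (M ζ.1) (N ζ.2) ≤
      (1 + u) * ∑ ζ, μ ζ * qf (V ζ.1 ζ.2) (Xt ζ) (M ζ.1) (N ζ.2) +
      (1 + n) * (128 * u ^ 2 * p + 514 * n ^ 2 * ∑ ζ, μ ζ * err ζ) := by
    have : 128 * u ^ 2 * p + 514 * n ^ 2 * ∑ ζ, μ ζ * err ζ =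
        ∑ ζ, μ ζ * (128 * u ^ 2 * p + 514 * n ^ 2 * err ζ) := by
      simp only [mul_add, Finset.sum_add_distrib, ← Finset.sum_mul, h1, one_mul,
        mul_left_comm (μ _) (514 * (n:ℝ) ^ 2), ← Finset.mul_sum]
    rw [this]
    simp only [Finset.mul_sum, ← Finset.sum_add_distrib]
    refine Finset.sum_le_sum fun ζ _ => ?_
    have a1 := qf_peter (V ζ.1 ζ.2) (Φ ζ) (Xt ζ) (hM ζ.1) (hN ζ.2) hu0
    rw [hun] at a1
    have a2 := mul_le_mul_of_nonneg_left (hx ζ) (show 0 ≤ 1 + (n:ℝ) by positivity)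
    have a3 := mul_le_mul_of_nonneg_left (a1.trans (add_le_add le_rfl a2)) (h0 ζ)
    refine a3.trans (le_of_eq (by ring))
  have f3 : ∑ ζ, μ ζ * nrm (Φ ζ - b ζ.2) ^ 2 + ∑ ζ, μ ζ * nrm (Φ ζ - a ζ.1) ^ 2 +
      ∑ ζ, μ ζ * (nrm (Φ ζ) - √p) ^ 2 = ∑ ζ, μ ζ * err ζ := by
    simp only [err, mul_add, Finset.sum_add_distrib]
  have f4 : 0 ≤ ∑ ζ, μ ζ * err ζ := Finset.sum_nonneg fun ζ _ => mul_nonneg (h0 ζ) (by positivity)
  rw [f3, show (383:ℝ) / n = 383 * u by rw [hu]; ring]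
  generalize ∑ ζ, μ ζ * err ζ = Er at *
  generalize ∑ ζ, μ ζ * qf (V ζ.1 ζ.2) (Xt ζ) (M ζ.1) (N ζ.2) = Q at *
  have b1 := mul_le_mul_of_nonneg_left f1 (show 0 ≤ 1 + u by positivity)
  have b2 : u * p * v ≤ u * p * 1 := by gcongr
  have b3 : u * p * u ≤ u * p * 1 := by gcongr
  have b4 : n * Er * u ≤ n * Er * 1 := by gcongr
  have b5 : n * Er * 1 ≤ n * Er * n ^ 2 := by gcongr; nlinarith
  have b6 : n ^ 2 * Er * 1 ≤ n ^ 2 * Er * n := by gcongr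
  have b7 : n * (u ^ 2 * p) = u * p := by
    rw [show n * (u ^ 2 * p) = (u * n) * (u * p) by ring, hun', one_mul]
  nlinarith

end Crest.Agent.PR
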